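-- S0122: statements of the three independent modules of the proof (only `def ... : Prop`, no proofs).
import Crest.Prelude.Def_MassAction

set_option autoImplicit false

open Crest.AnalysisR.MassAction

namespace Crest.Agent.S0122Lib

/-- Complexes of a network. -/
noncomputable def cplx {d : ℕ} (R : Network d) : Finset (Fin d → ℕ) :=
  by classical exact R.image Prod.fst ∪ R.image Prod.snd

/-- NETWORK MODULE. Let `β y = ⟨n, y⟩`. If for all complexes `a, b` with `β a > β b` we have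
`⟨a - b, log x⟩ ≥ M` (`M` large depending on `n`, the network and the rates), and `n` is not orthogonal to
all reaction vectors, then `⟨n, field x⟩ < 0`. -/
def NetworkDominance : Prop :=
  ∀ (d : ℕ) (R : Network d), IsWeaklyReversible R →
    ∀ (k : (Fin d → ℕ) × (Fin d → ℕ) → ℝ), (∀ r ∈ R, 0 < k r) →
    ∀ (n : Fin d → ℝ), ∃ M : ℝ, ∀ x : Fin d → ℝ, (∀ i, 0 < x i) →
      (∀ a ∈ cplx R, ∀ b ∈ cplx R, ∑ i, n i * (b i : ℝ) < ∑ i, n i * (a i : ℝ) →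
        M ≤ ∑ i, ((a i : ℝ) - (b i : ℝ)) * Real.log (x i)) →
      (∃ r ∈ R, ∑ i, n i * reactionVector r i ≠ 0) →
      ∑ i, n i * field R k x i < 0

/-- FLOW MODULE (abstract ODE statement). `K L = {x | ∀ i, ⟨n i, x⟩ ≤ b i L} ∩ (c + S)`;
`v` is `C¹`, `S`-valued; on each `K L`, `L ≥ L₀`, at an active constraint `⟨n i, v x⟩ < 0`; the `K L` are
bounded uniformly for `L` in compact ranges. Conclusions: forward invariance of each `K L`, absorption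
of `K L₁` into `K L₀` in finite time, global existence and uniqueness from points of `K L`. -/
def FlowMain : Prop :=
  ∀ (d : ℕ) (v : (Fin d → ℝ) → (Fin d → ℝ)), ContDiff ℝ 1 v →
    ∀ (S : Submodule ℝ (Fin d → ℝ)), (∀ x, v x ∈ S) →
    ∀ (c : Fin d → ℝ) (ι : Type) [Fintype ι] (n : ι → Fin d → ℝ) (b : ι → ℝ → ℝ),
    (∀ i, ContDiff ℝ 1 (b i)) →
    ∀ (L₀ : ℝ),
    (∀ L₁ : ℝ, ∃ B : ℝ, ∀ L ∈ Set.Icc L₀ L₁, ∀ x : Fin d → ℝ,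
        (∀ i, ∑ j, n i j * x j ≤ b i L) → x - c ∈ S → ‖x‖ ≤ B) →
    (∀ L : ℝ, L₀ ≤ L → ∀ x : Fin d → ℝ, (∀ i, ∑ j, n i j * x j ≤ b i L) → x - c ∈ S →
        ∀ i, ∑ j, n i j * x j = b i L → ∑ j, n i j * v x j < 0) →
    let K : ℝ → Set (Fin d → ℝ) := fun L => {x | (∀ i, ∑ j, n i j * x j ≤ b i L) ∧ x - c ∈ S}
    (∀ L : ℝ, L₀ ≤ L → ∀ x : ℝ → (Fin d → ℝ), IsForwardSolution v x → x 0 ∈ K L →
        ∀ t : ℝ, 0 ≤ t → x t ∈ K L) ∧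
    (∀ L₁ : ℝ, L₀ ≤ L₁ → ∀ x : ℝ → (Fin d → ℝ), IsForwardSolution v x → x 0 ∈ K L₁ →
        ∃ T : ℝ, 0 ≤ T ∧ ∀ t : ℝ, T ≤ t → x t ∈ K L₀) ∧
    (∀ L : ℝ, L₀ ≤ L → ∀ x₀ ∈ K L, ∃ x : ℝ → (Fin d → ℝ), IsForwardSolution v x ∧ x 0 = x₀) ∧
    (∀ L : ℝ, L₀ ≤ L → ∀ x₀ ∈ K L, ∀ x x' : ℝ → (Fin d → ℝ), IsForwardSolution v x →
        IsForwardSolution v x' → x 0 = x₀ → x' 0 = x₀ → ∀ t : ℝ, 0 ≤ t → x t = x' t)

/-- GEOMETRY MODULE (the heart; helper23). A finite family of half-spaces with normals independent of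
`L`, offsets `b i L`, such that `K L = {x | ∀ i, ⟨n i, x⟩ ≤ b i L}` lies in the positive orthant, is bounded
uniformly for `L` in compact ranges, exhausts the orthant as `L → ∞`, and at an active facet with normal `n`
every integer vector `h` with `‖h‖∞ ≤ H₀` with `⟨h, n⟩ > 0` has `⟨h, log x⟩ ≥ M`, for `L ≥ L₀(M)`. -/
def Geometry : Prop :=
  ∀ (d : ℕ), 1 ≤ d → ∀ (H₀ : ℝ),
    ∃ (ι : Type) (_ : Fintype ι) (n : ι → Fin d → ℝ) (b : ι → ℝ → ℝ),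
      (∀ i, ContDiff ℝ 1 (b i)) ∧
      (∃ L₀ : ℝ, ∀ L : ℝ, L₀ ≤ L → ∀ x : Fin d → ℝ,
          (∀ i, ∑ j, n i j * x j ≤ b i L) → ∀ j, 0 < x j) ∧
      (∃ L₀ : ℝ, ∀ L₁ : ℝ, ∃ B : ℝ, ∀ L ∈ Set.Icc L₀ L₁, ∀ x : Fin d → ℝ,
          (∀ i, ∑ j, n i j * x j ≤ b i L) → ∀ j, |x j| ≤ B) ∧
      (∀ x : Fin d → ℝ, (∀ j, 0 < x j) → ∃ L₀ : ℝ, ∀ L : ℝ, L₀ ≤ L →
          ∀ i, ∑ j, n i j * x j < b i L) ∧
      (∀ M : ℝ, ∃ L₀ : ℝ, ∀ L : ℝ, L₀ ≤ L → ∀ x : Fin d → ℝ,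
          (∀ i, ∑ j, n i j * x j ≤ b i L) → ∀ i, ∑ j, n i j * x j = b i L →
          ∀ h : Fin d → ℤ, (∀ j, |(h j : ℝ)| ≤ H₀) → 0 < ∑ j, (h j : ℝ) * n i j →
          M ≤ ∑ j, (h j : ℝ) * Real.log (x j))

end Crest.Agent.S0122Lib
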