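-- S0122: final assembly from the three modules of `Spec.lean`.
import Crest.Agent.S0122Lib.Spec

set_option autoImplicit false

open Crest.AnalysisR.MassAction

namespace Crest.Agent.S0122Lib

/-- The mass-action field is smooth. -/
theorem field_contDiff {d : ℕ} (R : Network d) (k : (Fin d → ℕ) × (Fin d → ℕ) → ℝ) :
    ContDiff ℝ 1 (field R k) := by
  unfold field
  refine ContDiff.sum fun r _ => ?_
  have h : ContDiff ℝ 1 (fun x : Fin d → ℝ => ∏ i, x i ^ (r.1 i)) :=
    contDiff_prod fun i _ => (contDiff_apply ℝ ℝ i).pow _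
  exact (contDiff_const.mul h).smul contDiff_const

/-- The mass-action field takes values in the stoichiometric subspace. -/
theorem field_mem {d : ℕ} (R : Network d) (k : (Fin d → ℕ) × (Fin d → ℕ) → ℝ)
    (x : Fin d → ℝ) : field R k x ∈ stoichSubspace R := by
  unfold field
  refine Submodule.sum_mem _ fun r hr => Submodule.smul_mem _ _ ?_
  exact Submodule.subset_span ⟨r, hr, rfl⟩

/-- If a normal is orthogonal to all reaction vectors it is orthogonal to the stoichiometric subspace. -/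
theorem orth_of_forall {d : ℕ} (R : Network d) (m : Fin d → ℝ)
    (h : ∀ r ∈ R, ∑ j, m j * reactionVector r j = 0) (y : Fin d → ℝ)
    (hy : y ∈ stoichSubspace R) : ∑ j, m j * y j = 0 := by
  unfold stoichSubspace at hy
  induction hy using Submodule.span_induction with
  | mem x hx =>
    obtain ⟨r, hr, rfl⟩ := hx
    exact h r hr
  | zero => simp
  | add x y _ _ hx hy =>
    simp only [Pi.add_apply, mul_add, Finset.sum_add_distrib, hx, hy, add_zero]
  | smul a x _ hx =>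
    have : ∑ j, m j * (a • x) j = a * ∑ j, m j * x j := by
      rw [Finset.mul_sum]
      exact Finset.sum_congr rfl fun j _ => by simp only [Pi.smul_apply, smul_eq_mul]; ring
    rw [this, hx, mul_zero]

/-- Sup-norm bound on the differences of complexes. -/
theorem exists_cplx_bound {d : ℕ} (R : Network d) :
    ∃ H₀ : ℝ, ∀ a ∈ cplx R, ∀ b ∈ cplx R, ∀ j, |(a j : ℝ) - (b j : ℝ)| ≤ H₀ := by
  classical
  refine ⟨∑ a ∈ cplx R, ∑ b ∈ cplx R, ∑ j, |(a j : ℝ) - (b j : ℝ)|, fun a ha b hb j => ?_⟩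
  calc |(a j : ℝ) - (b j : ℝ)| ≤ ∑ j, |(a j : ℝ) - (b j : ℝ)| :=
        Finset.single_le_sum (f := fun j => |(a j : ℝ) - (b j : ℝ)|)
          (fun _ _ => abs_nonneg _) (Finset.mem_univ j)
    _ ≤ ∑ b ∈ cplx R, ∑ j, |(a j : ℝ) - (b j : ℝ)| :=
        Finset.single_le_sum (f := fun b => ∑ j, |(a j : ℝ) - (b j : ℝ)|)
          (fun _ _ => Finset.sum_nonneg fun _ _ => abs_nonneg _) hb
    _ ≤ _ :=
        Finset.single_le_sum (f := fun a => ∑ b ∈ cplx R, ∑ j, |(a j : ℝ) - (b j : ℝ)|)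
          (fun _ _ => Finset.sum_nonneg fun _ _ => Finset.sum_nonneg fun _ _ => abs_nonneg _) ha

/-- The assembled statement. -/
theorem assembly (hN : NetworkDominance) (hF : FlowMain) (hG : Geometry)
    (d : ℕ) (hd : 1 ≤ d) (R : Network d) (hR : IsWeaklyReversible R)
    (k : (Fin d → ℕ) × (Fin d → ℕ) → ℝ) (hk : ∀ r ∈ R, 0 < k r)
    (c : Fin d → ℝ) (hc : ∀ i, 0 < c i) :
    ∃ K : Set (Fin d → ℝ), K ⊆ positiveClass R c ∧ K.Nonempty ∧ IsCompact K ∧ Convex ℝ K ∧
      (∀ x : ℝ → (Fin d → ℝ), IsForwardSolution (field R k) x → x 0 ∈ K →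
        ∀ t : ℝ, 0 ≤ t → x t ∈ K) ∧
      (∀ x₀ ∈ positiveClass R c,
        (∃ x : ℝ → (Fin d → ℝ), IsForwardSolution (field R k) x ∧ x 0 = x₀) ∧
        (∀ x x' : ℝ → (Fin d → ℝ), IsForwardSolution (field R k) x →
          IsForwardSolution (field R k) x' → x 0 = x₀ → x' 0 = x₀ →
          ∀ t : ℝ, 0 ≤ t → x t = x' t) ∧
        (∀ x : ℝ → (Fin d → ℝ), IsForwardSolution (field R k) x → x 0 = x₀ →
          (∀ t : ℝ, 0 ≤ t → ∀ i, 0 < x t i) ∧
          ∃ T : ℝ, 0 ≤ T ∧ ∀ t : ℝ, T ≤ t → x t ∈ K)) := by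
  classical
  obtain ⟨H₀, hH₀⟩ := exists_cplx_bound R
  obtain ⟨ι, instι, n, b, hb, ⟨Lp, hpos⟩, ⟨Lbd, hbd⟩, hexh, hmar⟩ := hG d hd H₀
  let _ : Fintype ι := instι
  -- the constants of the network module
  choose Mf hMf using fun i => hN d R hR k hk (n i)
  set M : ℝ := ∑ i, |Mf i| with hM
  have hMi : ∀ i, Mf i ≤ M := fun i =>
    (le_abs_self _).trans (Finset.single_le_sum (f := fun i => |Mf i|)
      (fun _ _ => abs_nonneg _) (Finset.mem_univ i))
  obtain ⟨Lm, hm⟩ := hmar M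
  obtain ⟨Lc, hcL⟩ := hexh c hc
  set L₀ : ℝ := max Lp (max Lbd (max Lm Lc)) with hL₀
  have hLp : Lp ≤ L₀ := le_max_left _ _
  have hLbd : Lbd ≤ L₀ := (le_max_left _ _).trans (le_max_right _ _)
  have hLm : Lm ≤ L₀ := (le_max_left _ _).trans ((le_max_right _ _).trans (le_max_right _ _))
  have hLc : Lc ≤ L₀ := (le_max_right _ _).trans ((le_max_right _ _).trans (le_max_right _ _))
  set S := stoichSubspace R with hS
  -- hypotheses of the flow module
  have hbound : ∀ L₁ : ℝ, ∃ B : ℝ, ∀ L ∈ Set.Icc L₀ L₁, ∀ x : Fin d → ℝ,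
      (∀ i, ∑ j, n i j * x j ≤ b i L) → x - c ∈ S → ‖x‖ ≤ B := by
    intro L₁
    obtain ⟨B, hB⟩ := hbd L₁
    refine ⟨max B 0, fun L hL x hx _ => ?_⟩
    refine (pi_norm_le_iff_of_nonneg (le_max_right _ _)).2 fun j => ?_
    rw [Real.norm_eq_abs]
    exact (hB L ⟨hLbd.trans hL.1, hL.2⟩ x hx j).trans (le_max_left _ _)
  have hstrict : ∀ L : ℝ, L₀ ≤ L → ∀ x : Fin d → ℝ, (∀ i, ∑ j, n i j * x j ≤ b i L) →
      x - c ∈ S → ∀ i, ∑ j, n i j * x j = b i L → ∑ j, n i j * field R k x j < 0 := by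
    intro L hL x hx hxS i hi
    have hxpos : ∀ j, 0 < x j := hpos L (hLp.trans hL) x hx
    refine hMf i x hxpos ?_ ?_
    · intro a ha e he hlt
      refine (hMi i).trans ?_
      have h1 := hm L (hLm.trans hL) x hx i hi (fun j => (a j : ℤ) - (e j : ℤ)) ?_ ?_
      · simpa using h1
      · intro j
        have := hH₀ a ha e he j
        simpa using this
      · have : ∑ j, (((a j : ℤ) - (e j : ℤ) : ℤ) : ℝ) * n i j
            = ∑ j, n i j * (a j : ℝ) - ∑ j, n i j * (e j : ℝ) := by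
          rw [← Finset.sum_sub_distrib]
          refine Finset.sum_congr rfl fun j _ => ?_
          push_cast; ring
        rw [this]; linarith
    · by_contra hne
      push Not at hne
      have h0 := orth_of_forall R (n i) hne (x - c) hxS
      have h1 : ∑ j, n i j * x j = ∑ j, n i j * c j := by
        have : ∑ j, n i j * (x - c) j = ∑ j, n i j * x j - ∑ j, n i j * c j := by
          rw [← Finset.sum_sub_distrib]
          refine Finset.sum_congr rfl fun j _ => ?_
          simp only [Pi.sub_apply]; ring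
        rw [this] at h0; linarith
      have h2 := hcL L (hLc.trans hL) i
      linarith
  have hflow := hF d (field R k) (field_contDiff R k) S (field_mem R k) c ι n b hb L₀ hbound hstrict
  dsimp only at hflow
  obtain ⟨hinv, habs, hex, huniq⟩ := hflow
  refine ⟨{x | (∀ i, ∑ j, n i j * x j ≤ b i L₀) ∧ x - c ∈ S}, ?_, ?_, ?_, ?_, ?_, ?_⟩
  · rintro x ⟨hx, hxS⟩
    exact ⟨hpos L₀ hLp x hx, hxS⟩
  · refine ⟨c, fun i => (hcL L₀ hLc i).le, ?_⟩
    simp
  · apply Metric.isCompact_of_isClosed_isBounded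
    · have h1 : IsClosed {x : Fin d → ℝ | ∀ i, ∑ j, n i j * x j ≤ b i L₀} := by
        have : {x : Fin d → ℝ | ∀ i, ∑ j, n i j * x j ≤ b i L₀}
            = ⋂ i, {x : Fin d → ℝ | ∑ j, n i j * x j ≤ b i L₀} := by
          ext x; simp
        rw [this]
        refine isClosed_iInter fun i => isClosed_le ?_ continuous_const
        exact continuous_finsetSum _ fun j _ => continuous_const.mul (continuous_apply j)
      have h2 : IsClosed {x : Fin d → ℝ | x - c ∈ S} :=
        (Submodule.closed_of_finiteDimensional S).preimage (continuous_id.sub continuous_const)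
      exact h1.inter h2
    · obtain ⟨B, hB⟩ := hbound L₀
      refine isBounded_iff_forall_norm_le.2 ⟨B, fun x hx => ?_⟩
      exact hB L₀ ⟨le_rfl, le_rfl⟩ x hx.1 hx.2
  · rintro x ⟨hx, hxS⟩ y ⟨hy, hyS⟩ u w hu hw huw
    refine ⟨fun i => ?_, ?_⟩
    · have : ∑ j, n i j * (u • x + w • y) j = u * ∑ j, n i j * x j + w * ∑ j, n i j * y j := by
        rw [Finset.mul_sum, Finset.mul_sum, ← Finset.sum_add_distrib]
        refine Finset.sum_congr rfl fun j _ => ?_
        simp only [Pi.add_apply, Pi.smul_apply, smul_eq_mul]; ring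
      rw [this]
      calc u * ∑ j, n i j * x j + w * ∑ j, n i j * y j
          ≤ u * b i L₀ + w * b i L₀ :=
            add_le_add (mul_le_mul_of_nonneg_left (hx i) hu) (mul_le_mul_of_nonneg_left (hy i) hw)
        _ = b i L₀ := by rw [← add_mul, huw, one_mul]
    · have : u • x + w • y - c = u • (x - c) + w • (y - c) := by
        have hc' : c = (u + w) • c := by rw [huw, one_smul]
        conv_lhs => rw [hc']
        rw [add_smul, smul_sub, smul_sub]; abel
      rw [this]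
      exact S.add_mem (S.smul_mem _ hxS) (S.smul_mem _ hyS)
  · exact hinv L₀ le_rfl
  · rintro x₀ ⟨hx₀, hx₀S⟩
    obtain ⟨L', hL'⟩ := hexh x₀ hx₀
    set L₁ : ℝ := max L₀ L' with hL₁
    have hL₁₀ : L₀ ≤ L₁ := le_max_left _ _
    have hmem : x₀ ∈ {x : Fin d → ℝ | (∀ i, ∑ j, n i j * x j ≤ b i L₁) ∧ x - c ∈ S} :=
      ⟨fun i => (hL' L₁ (le_max_right _ _) i).le, hx₀S⟩
    refine ⟨hex L₁ hL₁₀ x₀ hmem, fun x x' hx hx' h0 h0' => huniq L₁ hL₁₀ x₀ hmem x x' hx hx' h0 h0',
      fun x hx h0 => ⟨fun t ht i => ?_, ?_⟩⟩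
    · have h1 : x 0 ∈ {x : Fin d → ℝ | (∀ i, ∑ j, n i j * x j ≤ b i L₁) ∧ x - c ∈ S} := by
        rw [h0]; exact hmem
      have h2 := hinv L₁ hL₁₀ x hx h1 t ht
      exact hpos L₁ (hLp.trans hL₁₀) (x t) h2.1 i
    · have h1 : x 0 ∈ {x : Fin d → ℝ | (∀ i, ∑ j, n i j * x j ≤ b i L₁) ∧ x - c ∈ S} := by
        rw [h0]; exact hmem
      exact habs L₁ hL₁₀ x hx h1

end Crest.Agent.S0122Lib
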