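import Crest.Agent.S0122Lib.Spec

/-!
# S0122: the flow module

`flowMain : FlowMain` : forward invariance, absorption, existence and uniqueness for the polytopes
`K L`, by a first-exit argument.
-/

set_option autoImplicit false

open Crest.AnalysisR.MassAction
open Set Metric Filter Topology
open scoped NNReal ContDiff

namespace Crest.Agent.S0122Lib

/-- **First exit lemma.** -/
lemma first_exit {ι : Type*} [Finite ι] {g : ι → ℝ → ℝ} {a b : ℝ}
    (hc : ∀ i, ContinuousOn (g i) (Icc a b))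
    (h0 : ∀ i, g i a ≤ 0)
    (hd : ∀ t ∈ Ico a b, (∀ j, g j t ≤ 0) → ∀ i, g i t = 0 →
      ∃ g' : ℝ, g' < 0 ∧ HasDerivWithinAt (g i) g' (Ici t) t) :
    ∀ t ∈ Icc a b, ∀ i, g i t ≤ 0 := by
  set s : Set ℝ := {t | ∀ i, g i t ≤ 0} with hs
  have hclosed : IsClosed (s ∩ Icc a b) := by
    have : s ∩ Icc a b = Icc a b ∩ ⋂ i, (Icc a b ∩ g i ⁻¹' Iic 0) := by
      ext t
      simp only [hs, mem_inter_iff, mem_ofPred_eq, mem_iInter, mem_preimage, mem_Iic]
      constructor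
      · rintro ⟨h1, h2⟩
        exact ⟨h2, fun i => ⟨h2, h1 i⟩⟩
      · rintro ⟨h1, h2⟩
        exact ⟨fun i => (h2 i).2, h1⟩
    rw [this]
    exact isClosed_Icc.inter (isClosed_iInter fun i =>
      (hc i).preimage_isClosed_of_isClosed isClosed_Icc isClosed_Iic)
  have hsub : Icc a b ⊆ s := by
    refine hclosed.Icc_subset_of_forall_exists_gt h0 ?_
    rintro x ⟨hxs, hxI⟩ y hy
    have key : ∀ i, ∀ᶠ t in 𝓝[>] x, g i t ≤ 0 := by
      intro i
      rcases (hxs i).lt_or_eq with hlt | heq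
      · have h1 : Icc a b ∈ 𝓝[>] x := by
          apply mem_of_superset (Ioc_mem_nhdsGT hxI.2)
          intro t ht
          exact ⟨hxI.1.trans ht.1.le, ht.2⟩
        have h2 : ContinuousWithinAt (g i) (Icc a b) x := hc i x ⟨hxI.1, hxI.2.le⟩
        have h3 : ∀ᶠ t in 𝓝[Icc a b] x, g i t < 0 := h2.eventually_lt_const hlt
        exact (h3.filter_mono (nhdsWithin_le_of_mem h1)).mono fun t ht => ht.le
      · obtain ⟨g', hg', hder⟩ := hd x hxI hxs i heq
        have h1 : HasDerivWithinAt (g i) g' (Ioi x) x := hder.mono Ioi_subset_Ici_self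
        have h2 : Tendsto (slope (g i) x) (𝓝[Ioi x] x) (𝓝 g') :=
          (hasDerivWithinAt_iff_tendsto_slope' (by simp)).1 h1
        have h3 : ∀ᶠ t in 𝓝[>] x, slope (g i) x t < 0 := h2.eventually_lt_const hg'
        filter_upwards [h3, self_mem_nhdsWithin] with t ht htx
        have htx' : 0 < t - x := sub_pos.2 htx
        rw [slope_def_field, heq, sub_zero, div_lt_iff₀ htx', zero_mul] at ht
        exact ht.le
    have hall : ∀ᶠ t in 𝓝[>] x, ∀ i, g i t ≤ 0 := eventually_all.2 key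
    obtain ⟨t, ht1, ht2⟩ := (hall.and (Ioc_mem_nhdsGT hy)).exists
    exact ⟨t, ht1, ht2⟩
  intro t ht i
  exact hsub ht i

/-- Derivative of a linear form along a curve. -/
lemma hasDeriv_dot {d : ℕ} (n : Fin d → ℝ) {x : ℝ → Fin d → ℝ} {x' : Fin d → ℝ} {s : Set ℝ} {t : ℝ}
    (h : HasDerivWithinAt x x' s t) :
    HasDerivWithinAt (fun τ => ∑ j, n j * x τ j) (∑ j, n j * x' j) s t := by
  have h1 := hasDerivWithinAt_pi.1 h
  exact HasDerivWithinAt.fun_sum fun j _ => (h1 j).const_mul (n j)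

lemma continuous_dot {d : ℕ} (n : Fin d → ℝ) : Continuous fun y : Fin d → ℝ => ∑ j, n j * y j := by
  fun_prop

/-- A forward solution stays in the coset of `S` when the field is `S`-valued. -/
lemma class_preserved {d : ℕ} {w : (Fin d → ℝ) → (Fin d → ℝ)} {S : Submodule ℝ (Fin d → ℝ)}
    (hS : ∀ x, w x ∈ S) {x : ℝ → Fin d → ℝ} (hx : IsForwardSolution w x) :
    ∀ t : ℝ, 0 ≤ t → x t - x 0 ∈ S := by
  intro t ht
  rw [← Subspace.forall_mem_dualAnnihilator_apply_eq_zero_iff]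
  intro φ hφ
  rw [Submodule.mem_dualAnnihilator] at hφ
  let ψ : (Fin d → ℝ) →L[ℝ] ℝ := LinearMap.toContinuousLinearMap φ
  have hψ : ∀ y, ψ y = φ y := fun y => rfl
  have h1 : ∀ τ ∈ Icc (0 : ℝ) t, ψ (x τ) = ψ (x 0) := by
    refine constant_of_has_deriv_right_zero (f := fun τ => ψ (x τ)) ?_ ?_
    · intro τ hτ
      exact ψ.continuous.continuousAt.comp_continuousWithinAt
        (((hx τ hτ.1).continuousWithinAt).mono fun s hs => hs.1)
    · intro τ hτ
      have h2 := (hx τ hτ.1).mono (Ici_subset_Ici.2 hτ.1)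
      have h3 := ψ.hasFDerivAt.comp_hasDerivWithinAt τ h2
      have h4 : ψ (w (x τ)) = 0 := by rw [hψ]; exact hφ _ (hS _)
      rw [h4] at h3
      exact h3
  have h2 := h1 t ⟨ht, le_rfl⟩
  rw [map_sub, ← hψ, ← hψ, h2, sub_self]

/-- Moving-level first exit lemma. -/
lemma stay_below {ι : Type*} [Finite ι] {d : ℕ} {w : (Fin d → ℝ) → (Fin d → ℝ)}
    {n : ι → Fin d → ℝ} {b : ι → ℝ → ℝ} (hb : ∀ i, ContDiff ℝ 1 (b i))
    {x : ℝ → Fin d → ℝ} (hx : IsForwardSolution w x) {κ L₁ s t : ℝ} (hs : 0 ≤ s)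
    (h0 : ∀ i, ∑ k, n i k * x s k ≤ b i (L₁ - κ * s))
    (hd : ∀ τ ∈ Ico s t, (∀ j, ∑ k, n j k * x τ k ≤ b j (L₁ - κ * τ)) → ∀ i,
      ∑ k, n i k * x τ k = b i (L₁ - κ * τ) →
      ∑ k, n i k * w (x τ) k + κ * deriv (b i) (L₁ - κ * τ) < 0) :
    ∀ τ ∈ Icc s t, ∀ i, ∑ k, n i k * x τ k ≤ b i (L₁ - κ * τ) := by
  have hder : ∀ i, ∀ τ, 0 ≤ τ → HasDerivWithinAt
      (fun τ => ∑ k, n i k * x τ k - b i (L₁ - κ * τ))
      (∑ k, n i k * w (x τ) k + κ * deriv (b i) (L₁ - κ * τ)) (Ici 0) τ := by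
    intro i τ hτ
    have h1 := hasDeriv_dot (n i) (hx τ hτ)
    have h2 : HasDerivAt (b i) (deriv (b i) (L₁ - κ * τ)) (L₁ - κ * τ) :=
      ((hb i).differentiable (by simp) _).hasDerivAt
    have h3 : HasDerivAt (fun τ => L₁ - κ * τ) (-κ) τ := by
      simpa using ((hasDerivAt_id τ).const_mul κ).const_sub L₁
    have h4 := h2.comp τ h3
    have h5 := h1.sub h4.hasDerivWithinAt
    have h6 : ∑ k, n i k * w (x τ) k + κ * deriv (b i) (L₁ - κ * τ)
        = ∑ j, n i j * w (x τ) j - deriv (b i) (L₁ - κ * τ) * -κ := by ring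
    rw [h6]
    exact h5
  have hmain := first_exit (ι := ι) (a := s) (b := t)
    (g := fun i τ => ∑ k, n i k * x τ k - b i (L₁ - κ * τ)) ?_ ?_ ?_
  · intro τ hτ i
    exact sub_nonpos.1 (hmain τ hτ i)
  · intro i τ hτ
    exact ((hder i τ (hs.trans hτ.1)).continuousWithinAt.mono
      fun r hr => hs.trans hr.1)
  · intro i
    exact sub_nonpos.2 (h0 i)
  · intro τ hτ hall i hi
    refine ⟨_, hd τ hτ (fun j => sub_nonpos.1 (hall j)) i (sub_eq_zero.1 hi), ?_⟩
    exact (hder i τ (hs.trans hτ.1)).mono (Ici_subset_Ici.2 (hs.trans hτ.1))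

/-- Solutions on `[-T, T]` of a bounded Lipschitz field. -/
lemma exists_solution_window {E : Type*} [NormedAddCommGroup E] [NormedSpace ℝ E] [CompleteSpace E]
    {w : E → E} {K C : ℝ≥0} (hL : LipschitzWith K w) (hB : ∀ x, ‖w x‖ ≤ C) (T : ℝ≥0) (hT : 0 < T)
    (x₀ : E) :
    ∃ α : ℝ → E, α 0 = x₀ ∧
      ∀ t ∈ Icc (-(T : ℝ)) T, HasDerivWithinAt α (w (α t)) (Icc (-(T : ℝ)) T) t := by
  have hT' : (0 : ℝ) < T := hT
  let t₀ : Icc (-(T : ℝ)) T := ⟨0, by constructor <;> linarith⟩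
  have hPL : IsPicardLindelof (fun _ x => w x) t₀ x₀ (C * T) 0 C K := by
    refine ⟨fun t _ => hL.lipschitzOnWith, ?_, fun t _ y _ => hB _, ?_⟩
    · intro y _
      exact continuousOn_const
    · simp only [t₀, sub_zero, zero_sub, neg_neg, max_self, NNReal.coe_mul, NNReal.coe_zero,
        le_refl]
  obtain ⟨α, h0, hα⟩ := hPL.exists_eq_forall_mem_Icc_hasDerivWithinAt (x := x₀) (by simp)
  exact ⟨α, h0, hα⟩

/-- Global existence for bounded Lipschitz fields. -/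
theorem exists_global {E : Type*} [NormedAddCommGroup E] [NormedSpace ℝ E] [CompleteSpace E]
    {w : E → E} {K C : ℝ≥0} (hL : LipschitzWith K w) (hB : ∀ x, ‖w x‖ ≤ C) (x₀ : E) :
    ∃ x : ℝ → E, (∀ t, HasDerivAt x (w (x t)) t) ∧ x 0 = x₀ := by
  have h1 := fun (T : ℝ≥0) (hT : 0 < T) => exists_solution_window hL hB T hT x₀
  choose α hα0 hα using h1
  let τ : ℝ → ℝ≥0 := fun t => ⟨|t| + 1, by positivity⟩
  have hτ : ∀ t, 0 < τ t := fun t => by
    show (0 : ℝ) < |t| + 1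
    positivity
  have hτ' : ∀ t, ((τ t : ℝ≥0) : ℝ) = |t| + 1 := fun t => rfl
  have hagree : ∀ (S T : ℝ≥0) (hS : 0 < S) (hT : 0 < T), S ≤ T →
      ∀ t ∈ Icc (-(S : ℝ)) S, α S hS t = α T hT t := by
    intro S T hS hT hST
    have hS' : (0 : ℝ) < S := hS
    have hST' : (S : ℝ) ≤ T := hST
    have hsub : Icc (-(S : ℝ)) S ⊆ Icc (-(T : ℝ)) T := Icc_subset_Icc (by linarith) hST'
    have hmem : (0 : ℝ) ∈ Ioo (-(S : ℝ)) S := ⟨by linarith, hS'⟩
    have hU := ODE_solution_unique_of_mem_Icc (v := fun _ x => w x) (s := fun _ => univ)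
      (K := K) (a := -(S : ℝ)) (b := S) (t₀ := 0) (f := α S hS) (g := α T hT)
      (fun t _ => hL.lipschitzOnWith) hmem
      (fun t ht => (hα S hS t ht).continuousWithinAt)
      (fun t ht => (hα S hS t (Ioo_subset_Icc_self ht)).hasDerivAt (Icc_mem_nhds ht.1 ht.2))
      (fun _ _ => mem_univ _)
      (fun t ht => ((hα T hT t (hsub ht)).mono hsub).continuousWithinAt)
      (fun t ht => ((hα T hT t (hsub (Ioo_subset_Icc_self ht))).mono hsub).hasDerivAt
        (Icc_mem_nhds ht.1 ht.2))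
      (fun _ _ => mem_univ _) (by rw [hα0, hα0])
    exact hU
  refine ⟨fun t => α (τ t) (hτ t) t, ?_, hα0 _ _⟩
  intro t
  have hT0 : (0 : ℝ) < (τ t : ℝ) := hτ t
  have ht : t ∈ Ioo (-(τ t : ℝ)) (τ t) := by
    rw [hτ']
    constructor
    · linarith [neg_abs_le t]
    · linarith [le_abs_self t]
  have h2 : HasDerivAt (α (τ t) (hτ t)) (w (α (τ t) (hτ t) t)) t :=
    (hα (τ t) (hτ t) t (Ioo_subset_Icc_self ht)).hasDerivAt (Icc_mem_nhds ht.1 ht.2)
  refine h2.congr_of_eventuallyEq ?_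
  have hnhds : Ioo (-(τ t : ℝ)) (τ t) ∈ 𝓝 t := Ioo_mem_nhds ht.1 ht.2
  filter_upwards [hnhds] with s hs
  have hsτ : |s| < (τ t : ℝ) := abs_lt.2 hs
  show α (τ s) (hτ s) s = α (τ t) (hτ t) s
  rcases le_total (τ s) (τ t) with hle | hle
  · apply hagree (τ s) (τ t) (hτ s) (hτ t) hle
    rw [hτ']
    constructor
    · linarith [neg_abs_le s]
    · linarith [le_abs_self s]
  · symm
    apply hagree (τ t) (τ s) (hτ t) (hτ s) hle
    exact ⟨hs.1.le, hs.2.le⟩

/-- Uniqueness of forward solutions for Lipschitz fields. -/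
theorem forward_unique {d : ℕ} {w : (Fin d → ℝ) → (Fin d → ℝ)} {K : ℝ≥0} (hL : LipschitzWith K w)
    {x x' : ℝ → Fin d → ℝ} (hx : IsForwardSolution w x) (hx' : IsForwardSolution w x')
    (h0 : x 0 = x' 0) : ∀ t : ℝ, 0 ≤ t → x t = x' t := by
  intro t ht
  have hU := ODE_solution_unique_of_mem_Icc_right (v := fun _ x => w x) (s := fun _ => univ)
    (K := K) (a := 0) (b := t) (f := x) (g := x')
    (fun t _ => hL.lipschitzOnWith)
    (fun τ hτ => (hx τ hτ.1).continuousWithinAt.mono fun s hs => hs.1)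
    (fun τ hτ => (hx τ hτ.1).mono (Ici_subset_Ici.2 hτ.1))
    (fun _ _ => mem_univ _)
    (fun τ hτ => (hx' τ hτ.1).continuousWithinAt.mono fun s hs => hs.1)
    (fun τ hτ => (hx' τ hτ.1).mono (Ici_subset_Ici.2 hτ.1))
    (fun _ _ => mem_univ _) h0
  exact hU ⟨ht, le_rfl⟩

/-- Cut-off of a `C¹` field. -/
lemma exists_cutoff {d : ℕ} {v : (Fin d → ℝ) → (Fin d → ℝ)} (hv : ContDiff ℝ 1 v)
    {S : Submodule ℝ (Fin d → ℝ)} (hS : ∀ x, v x ∈ S) (B : ℝ) :
    ∃ w : (Fin d → ℝ) → (Fin d → ℝ), (∀ x, w x ∈ S) ∧ (∀ x, ‖x‖ ≤ B → w x = v x) ∧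
      (∃ K : ℝ≥0, LipschitzWith K w) ∧ (∃ C : ℝ≥0, ∀ x, ‖w x‖ ≤ C) := by
  let f : ContDiffBump (0 : Fin d → ℝ) :=
    ⟨|B| + 1, |B| + 2, by positivity, by linarith⟩
  let w : (Fin d → ℝ) → (Fin d → ℝ) := fun x => f x • v x
  have hw : ContDiff ℝ 1 w := f.contDiff.smul hv
  have hc : HasCompactSupport w := f.hasCompactSupport.smul_right
  refine ⟨w, fun x => S.smul_mem _ (hS x), fun x hx => ?_, ?_, ?_⟩
  · have : f x = 1 := by
      apply f.one_of_mem_closedBall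
      rw [mem_closedBall, dist_zero_right]
      exact hx.trans ((le_abs_self B).trans (by
        show |B| ≤ |B| + 1
        linarith))
    simp [w, this]
  · exact ContDiff.lipschitzWith_of_hasCompactSupport hc hw (by simp)
  · obtain ⟨C, hC⟩ := hc.exists_bound_of_continuous hw.continuous
    exact ⟨⟨max C 0, le_max_right _ _⟩, fun x => (hC x).trans (le_max_left _ _)⟩

/-- Forward invariance, general starting time. -/
lemma invariance {d : ℕ} {v : (Fin d → ℝ) → (Fin d → ℝ)}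
    {S : Submodule ℝ (Fin d → ℝ)} (hS : ∀ x, v x ∈ S) {c : Fin d → ℝ} {ι : Type*} [Finite ι]
    {n : ι → Fin d → ℝ} {b : ι → ℝ → ℝ} (hb : ∀ i, ContDiff ℝ 1 (b i)) {L : ℝ}
    (hact : ∀ x : Fin d → ℝ, (∀ i, ∑ j, n i j * x j ≤ b i L) → x - c ∈ S →
        ∀ i, ∑ j, n i j * x j = b i L → ∑ j, n i j * v x j < 0)
    {x : ℝ → Fin d → ℝ} (hx : IsForwardSolution v x) (hc : x 0 - c ∈ S) {s : ℝ} (hs : 0 ≤ s)
    (h0 : ∀ i, ∑ j, n i j * x s j ≤ b i L) :
    ∀ t : ℝ, s ≤ t → ∀ i, ∑ j, n i j * x t j ≤ b i L := by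
  have hcl : ∀ τ : ℝ, 0 ≤ τ → x τ - c ∈ S := fun τ hτ => by
    have := S.add_mem (class_preserved hS hx τ hτ) hc
    simpa using this
  intro t ht i
  have := stay_below (n := n) (b := b) hb hx (κ := 0) (L₁ := L) (s := s) (t := t) hs
    (by simpa using h0) ?_ t ⟨ht, le_rfl⟩ i
  · simpa using this
  · intro τ hτ hall i hi
    simp only [zero_mul, sub_zero, add_zero] at hall hi ⊢
    exact hact _ hall (hcl τ (hs.trans hτ.1)) i hi

/-- Absorption: the constant for a compact range of levels. -/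
lemma exists_kappa {d : ℕ} {v : (Fin d → ℝ) → (Fin d → ℝ)} (hv : Continuous v)
    {S : Submodule ℝ (Fin d → ℝ)} {c : Fin d → ℝ} {ι : Type*} [Finite ι]
    {n : ι → Fin d → ℝ} {b : ι → ℝ → ℝ} (hb : ∀ i, Continuous (b i)) {L₀ L₁ : ℝ}
    (hbd : ∃ B : ℝ, ∀ L ∈ Icc L₀ L₁, ∀ x : Fin d → ℝ,
        (∀ i, ∑ j, n i j * x j ≤ b i L) → x - c ∈ S → ‖x‖ ≤ B)
    (hact : ∀ L : ℝ, L₀ ≤ L → ∀ x : Fin d → ℝ, (∀ i, ∑ j, n i j * x j ≤ b i L) → x - c ∈ S →
        ∀ i, ∑ j, n i j * x j = b i L → ∑ j, n i j * v x j < 0) :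
    ∃ κ : ℝ, 0 < κ ∧ ∀ L ∈ Icc L₀ L₁, ∀ x : Fin d → ℝ, (∀ i, ∑ j, n i j * x j ≤ b i L) → x - c ∈ S →
        ∀ i, ∑ j, n i j * x j = b i L → ∑ j, n i j * v x j ≤ -κ := by
  obtain ⟨B, hB⟩ := hbd
  have hSclosed : IsClosed (S : Set (Fin d → ℝ)) := Submodule.closed_of_finiteDimensional S
  -- the constant for one `i`
  have hone : ∀ i, ∃ κ : ℝ, 0 < κ ∧ ∀ L ∈ Icc L₀ L₁, ∀ x : Fin d → ℝ,
      (∀ i, ∑ j, n i j * x j ≤ b i L) → x - c ∈ S →
        ∑ j, n i j * x j = b i L → ∑ j, n i j * v x j ≤ -κ := by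
    intro i
    let A : Set (ℝ × (Fin d → ℝ)) := (Icc L₀ L₁ ×ˢ closedBall 0 B) ∩
      ((⋂ i', {p | ∑ j, n i' j * p.2 j ≤ b i' p.1}) ∩
        ({p | p.2 - c ∈ S} ∩ {p | ∑ j, n i j * p.2 j = b i p.1}))
    have hA : IsCompact A := by
      refine ((isCompact_Icc.prod (isCompact_closedBall _ _))).inter_right ?_
      refine (isClosed_iInter fun i' => isClosed_le ?_ ?_).inter (IsClosed.inter ?_ (isClosed_eq ?_ ?_))
      · fun_prop
      · exact (hb i').comp continuous_fst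
      · have : Continuous fun p : ℝ × (Fin d → ℝ) => p.2 - c := by fun_prop
        exact hSclosed.preimage this
      · fun_prop
      · exact (hb i).comp continuous_fst
    have hF : ContinuousOn (fun p : ℝ × (Fin d → ℝ) => ∑ j, n i j * v p.2 j) A := by
      apply Continuous.continuousOn
      have : ∀ j, Continuous fun p : ℝ × (Fin d → ℝ) => v p.2 j := fun j =>
        (continuous_apply j).comp (hv.comp continuous_snd)
      fun_prop
    by_cases hne : A.Nonempty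
    · obtain ⟨p, hpA, hp⟩ := hA.exists_isMaxOn hne hF
      have hneg : ∑ j, n i j * v p.2 j < 0 := by
        obtain ⟨⟨h1, _⟩, h2, h3, h4⟩ := hpA
        refine hact p.1 h1.1 p.2 (fun i' => ?_) h3 i h4
        exact mem_iInter.1 h2 i'
      refine ⟨-(∑ j, n i j * v p.2 j), by linarith, fun L hL x h1 h2 h3 => ?_⟩
      have hq : (L, x) ∈ A := by
        refine ⟨⟨hL, ?_⟩, ?_, h2, h3⟩
        · rw [mem_closedBall, dist_zero_right]
          exact hB L hL x h1 h2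
        · exact mem_iInter.2 h1
      have := hp hq
      simpa using this
    · refine ⟨1, one_pos, fun L hL x h1 h2 h3 => ?_⟩
      exfalso
      apply hne
      refine ⟨(L, x), ⟨hL, ?_⟩, ?_, h2, h3⟩
      · rw [mem_closedBall, dist_zero_right]
        exact hB L hL x h1 h2
      · exact mem_iInter.2 h1
  choose κ hκ hκ' using hone
  obtain ⟨M, hM⟩ := Finite.exists_le (fun i => 1 / κ i)
  refine ⟨1 / (max M 1), by positivity, fun L hL x h1 h2 i h3 => ?_⟩
  have h4 := hκ' i L hL x h1 h2 h3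
  have h5 : 1 / max M 1 ≤ κ i := by
    rw [div_le_iff₀ (by positivity)]
    have h6 : 1 / κ i ≤ max M 1 := (hM i).trans (le_max_left _ _)
    rw [div_le_iff₀ (hκ i)] at h6
    linarith
  linarith

/-- **The flow module.** -/
theorem flowMain : FlowMain := by
  intro d v hv S hS c ι _ n b hb L₀ hbd hact K
  have hmemK : ∀ L y, y ∈ K L ↔ (∀ i, ∑ j, n i j * y j ≤ b i L) ∧ y - c ∈ S := fun L y => Iff.rfl
  have hinv : ∀ L : ℝ, L₀ ≤ L → ∀ x : ℝ → (Fin d → ℝ), IsForwardSolution v x → x 0 ∈ K L →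
        ∀ t : ℝ, 0 ≤ t → x t ∈ K L := by
    intro L hL x hx hx0 t ht
    refine ⟨invariance hS hb (hact L hL) hx hx0.2 le_rfl hx0.1 t ht, ?_⟩
    have := S.add_mem (class_preserved hS hx t ht) hx0.2
    simpa using this
  refine ⟨hinv, ?_, ?_, ?_⟩
  · -- absorption
    intro L₁ hL₁ x hx hx0
    have hcl : ∀ τ : ℝ, 0 ≤ τ → x τ - c ∈ S := fun τ hτ => by
      have := S.add_mem (class_preserved hS hx τ hτ) hx0.2
      simpa using this
    obtain ⟨κ, hκ, hκ'⟩ := exists_kappa hv.continuous (fun i => (hb i).continuous)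
      (hbd L₁) hact
    -- bound on the derivative of the offsets
    have hbd' : ∀ i, ∃ C : ℝ, ∀ L ∈ Icc L₀ L₁, |deriv (b i) L| ≤ C := fun i => by
      obtain ⟨C, hC⟩ := (isCompact_Icc (a := L₀) (b := L₁)).exists_bound_of_continuousOn
        ((hb i).continuous_deriv le_rfl).continuousOn
      exact ⟨C, fun L hL => by simpa using hC L hL⟩
    choose C hC using hbd'
    obtain ⟨M, hM⟩ := Finite.exists_le C
    set M' : ℝ := max M 1 with hM'
    have hM'pos : 0 < M' := lt_of_lt_of_le one_pos (le_max_right _ _)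
    set η : ℝ := κ / (2 * M') with hη
    have hηpos : 0 < η := by positivity
    have hηM : η * M' = κ / 2 := by
      rw [hη]; field_simp
    set T : ℝ := (L₁ - L₀) / η with hT
    have hT0 : 0 ≤ T := div_nonneg (by linarith) hηpos.le
    have hηT : η * T = L₁ - L₀ := by
      rw [hT]; field_simp
    have hstay := stay_below (n := n) (b := b) hb hx (κ := η) (L₁ := L₁) (s := 0) (t := T) le_rfl
      (by simpa using hx0.1) ?_
    · have hxT : ∀ i, ∑ j, n i j * x T j ≤ b i L₀ := by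
        intro i
        have := hstay T ⟨hT0, le_rfl⟩ i
        rwa [hηT, sub_sub_cancel] at this
      refine ⟨T, hT0, fun t ht => ⟨?_, hcl t (hT0.trans ht)⟩⟩
      exact invariance hS hb (hact L₀ le_rfl) hx hx0.2 hT0 hxT t ht
    · intro τ hτ hall i hi
      have hL : L₁ - η * τ ∈ Icc L₀ L₁ := by
        constructor
        · have : η * τ ≤ η * T := by
            apply mul_le_mul_of_nonneg_left hτ.2.le hηpos.le
          linarith
        · have : 0 ≤ η * τ := mul_nonneg hηpos.le hτ.1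
          linarith
      have h1 := hκ' _ hL (x τ) hall (hcl τ hτ.1) i hi
      have h2 : deriv (b i) (L₁ - η * τ) ≤ M' :=
        ((le_abs_self _).trans (hC i _ hL)).trans ((hM i).trans (le_max_left _ _))
      have h3 : η * deriv (b i) (L₁ - η * τ) ≤ η * M' := mul_le_mul_of_nonneg_left h2 hηpos.le
      rw [hηM] at h3
      linarith
  · -- existence
    intro L hL x₀ hx₀
    obtain ⟨B, hB⟩ := hbd L
    obtain ⟨w, hwS, hwv, ⟨K', hK'⟩, ⟨C, hC⟩⟩ := exists_cutoff hv hS B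
    obtain ⟨x, hx, hx0⟩ := exists_global hK' hC x₀
    have hxw : IsForwardSolution w x := fun t _ => (hx t).hasDerivWithinAt
    have hcl : ∀ τ : ℝ, 0 ≤ τ → x τ - c ∈ S := fun τ hτ => by
      have := S.add_mem (class_preserved hwS hxw τ hτ) (by rw [hx0]; exact hx₀.2 : x 0 - c ∈ S)
      simpa using this
    have hstay : ∀ t : ℝ, 0 ≤ t → ∀ i, ∑ j, n i j * x t j ≤ b i L := by
      intro t ht i
      have := stay_below (n := n) (b := b) hb hxw (κ := 0) (L₁ := L) (s := 0) (t := t) le_rfl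
        (by simpa [hx0] using hx₀.1) ?_ t ⟨ht, le_rfl⟩ i
      · simpa using this
      · intro τ hτ hall i hi
        simp only [zero_mul, sub_zero, add_zero] at hall hi ⊢
        rw [hwv _ (hB L ⟨hL, le_rfl⟩ _ hall (hcl τ hτ.1))]
        exact hact L hL _ hall (hcl τ hτ.1) i hi
    refine ⟨x, fun t ht => ?_, hx0⟩
    rw [← hwv _ (hB L ⟨hL, le_rfl⟩ _ (hstay t ht) (hcl t ht))]
    exact hxw t ht
  · -- uniqueness
    intro L hL x₀ hx₀ x x' hx hx' hx0 hx'0 t ht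
    obtain ⟨B, hB⟩ := hbd L
    obtain ⟨w, hwS, hwv, ⟨K', hK'⟩, ⟨C, hC⟩⟩ := exists_cutoff hv hS B
    have hto : ∀ y : ℝ → (Fin d → ℝ), IsForwardSolution v y → y 0 = x₀ → IsForwardSolution w y := by
      intro y hy hy0 τ hτ
      have hmem := hinv L hL y hy (by rw [hy0]; exact hx₀) τ hτ
      rw [hwv _ (hB L ⟨hL, le_rfl⟩ _ hmem.1 hmem.2)]
      exact hy τ hτ
    exact forward_unique hK' (hto x hx hx0) (hto x' hx' hx'0) (by rw [hx0, hx'0]) t ht

end Crest.Agent.S0122Lib
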