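-- S0122, geometry: the tree of slopes (definitions, locality, separation).
import Mathlib

set_option autoImplicit false

namespace Crest.Agent.S0122Lib

open Finset

/-- Numeric constants of the tree. -/
structure TreeCst where
  d : ℕ
  H : ℕ → ℝ
  A : ℕ → ℝ
  K : ℕ → ℝ
  P : ℕ → ℝ
  S : ℕ → ℝ
  Lam : ℝ

/-- The inequalities between the constants. -/
structure TreeCst.Good (C : TreeCst) : Prop where
  d_pos : 1 ≤ C.d
  Lam_pos : 0 < C.Lam
  H_one : ∀ j, 1 ≤ C.H j
  H_step : ∀ j i, j < i → 2 * C.H j ^ 2 ≤ C.H i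
  A_ge : ∀ j, C.H j * C.d + 2 ≤ C.A j
  K_ge : ∀ j, C.A j + C.H j * C.d + 3 ≤ C.K j
  AP : ∀ j i, j < i → i < C.d → C.H j ^ 2 * C.K j * C.P i ≤ C.A i
  KP : ∀ j i, j < i → i < C.d → C.H j ^ 2 * C.K j * ((C.A i + 2) * C.P i) ≤ C.K i
  top : ∀ j, j < C.d → C.H j ^ 2 * C.K j * (C.Lam * C.P C.d) ≤ 1
  P_zero : C.P 0 = 1
  P_succ : ∀ n, C.P (n + 1) = C.P n * (C.A n + 2)
  S_one : ∀ j, 1 ≤ C.S j
  S_step : ∀ j, j < C.d → C.H j * C.d * C.S (j + 1) + 2 ≤ C.S j

namespace TreeCst

variable {C : TreeCst}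

lemma Good.d_real (hC : C.Good) : (1 : ℝ) ≤ C.d := by exact_mod_cast hC.d_pos

lemma Good.H_pos (hC : C.Good) (j : ℕ) : 0 < C.H j := lt_of_lt_of_le one_pos (hC.H_one j)

lemma Good.Hd_nonneg (hC : C.Good) (j : ℕ) : 0 ≤ C.H j * C.d :=
  mul_nonneg (hC.H_pos j).le (by positivity)

lemma Good.A_two (hC : C.Good) (j : ℕ) : 2 ≤ C.A j := by
  have := hC.A_ge j; have := hC.Hd_nonneg j; linarith

lemma Good.K_one (hC : C.Good) (j : ℕ) : 1 ≤ C.K j := by
  have := hC.K_ge j; have := hC.Hd_nonneg j; have := hC.A_two j; linarith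

lemma Good.P_one (hC : C.Good) (n : ℕ) : 1 ≤ C.P n := by
  induction n with
  | zero => rw [hC.P_zero]
  | succ n ih =>
    rw [hC.P_succ]
    have := hC.A_two n
    nlinarith

lemma Good.P_eq (hC : C.Good) (n : ℕ) : C.P n = ∏ l ∈ range n, (C.A l + 2) := by
  induction n with
  | zero => simp [hC.P_zero]
  | succ n ih => rw [hC.P_succ, prod_range_succ, ih]

lemma Good.P_mono (hC : C.Good) {m n : ℕ} (h : m ≤ n) : C.P m ≤ C.P n := by
  induction n, h using Nat.le_induction with
  | base => exact le_rfl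
  | succ n _ ih =>
    rw [hC.P_succ]
    have := hC.A_two n
    have := hC.P_one n
    nlinarith

lemma Good.Lam_P (hC : C.Good) : C.Lam * C.P C.d ≤ 1 := by
  have h := hC.top 0 hC.d_pos
  have h1 := hC.H_one 0
  have h2 := hC.K_one 0
  have h3 : 0 < C.Lam * C.P C.d := mul_pos hC.Lam_pos (lt_of_lt_of_le one_pos (hC.P_one _))
  have h4 : 1 ≤ C.H 0 ^ 2 * C.K 0 := by nlinarith
  nlinarith

lemma Good.S_anti (hC : C.Good) {i l : ℕ} (hil : i ≤ l) (hl : l ≤ C.d) : C.S l ≤ C.S i := by
  induction l, hil using Nat.le_induction with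
  | base => exact le_rfl
  | succ l hl' ih =>
    have h1 := hC.S_step l (by omega)
    have h2 := ih (by omega)
    have h3 := hC.S_one (l + 1)
    have h4 : 1 ≤ C.H l * C.d := by
      have := hC.H_one l
      have := hC.d_real
      nlinarith
    nlinarith

end TreeCst

variable (C : TreeCst) (k : ℕ)

/-- The slope at which `⟨w, s⟩` vanishes at level `j`. -/
noncomputable def nu (j : ℕ) (w : ℕ → ℤ) (s : ℕ → ℝ) : ℝ :=
  -(∑ i ∈ Ioo j k, (w i : ℝ) * s i) / (w j : ℝ)

/-- Admissible integer vectors at level `j`. -/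
def IsW (j : ℕ) (w : ℕ → ℤ) : Prop := w j ≠ 0 ∧ ∀ i, |(w i : ℝ)| ≤ C.H j

/-- All wall values at level `j`. -/
def wallSet (j : ℕ) (s : ℕ → ℝ) : Set ℝ := {ν | ∃ w, IsW C j w ∧ ν = nu k j w s}

open Classical in
/-- Multiplier of a level: large at a wall. -/
noncomputable def mult (i : ℕ) (s : ℕ → ℝ) : ℝ := if s i ∈ wallSet C k i s then C.A i + 2 else 1

/-- The scale of level `j`. -/
noncomputable def scale (j : ℕ) (s : ℕ → ℝ) : ℝ := C.Lam * ∏ i ∈ Ioo j (k - 1), mult C k i s

/-- The margin of level `j`. -/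
noncomputable def marg (j : ℕ) (s : ℕ → ℝ) : ℝ := C.A j * scale C k j s

/-- Generic slopes at level `j`. -/
def IsGeneric (j : ℕ) (s : ℕ → ℝ) (p : ℝ) : Prop :=
  (∃ m : ℕ, p = -C.S j + m * C.Lam) ∧ p ≤ s (j + 1) ∧
    ∀ ν ∈ wallSet C k j s, ν ≤ s (j + 1) → marg C k j s ≤ |p - ν|

/-- Slopes at level `j`. -/
def IsSlope (j : ℕ) (s : ℕ → ℝ) (a : ℝ) : Prop :=
  (a ∈ wallSet C k j s ∧ a ≤ s (j + 1)) ∨ IsGeneric C k j s a

open Classical in
/-- The offset exponent attached to a slope. -/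
noncomputable def tau (j : ℕ) (s : ℕ → ℝ) (a : ℝ) : ℝ :=
  if a ∈ wallSet C k j s then a - marg C k j s else a

/-- `s` is a valid path above level `j`. -/
structure IsPathAbove (ε : ℝ) (j : ℕ) (s : ℕ → ℝ) : Prop where
  top : s (k - 1) = ε
  slope : ∀ i, j < i → i < k - 1 → IsSlope C k i s (s i)
  zero : ∀ i, k ≤ i → s i = 0

/-- Valid paths. -/
structure IsPath (ε : ℝ) (s : ℕ → ℝ) : Prop where
  top : s (k - 1) = ε
  slope : ∀ i, i < k - 1 → IsSlope C k i s (s i)
  zero : ∀ i, k ≤ i → s i = 0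

variable {C k}

/-! ### locality -/

section congr
variable {j : ℕ} {s s' : ℕ → ℝ}

lemma nu_congr (h : ∀ i, j < i → s i = s' i) (w : ℕ → ℤ) : nu k j w s = nu k j w s' := by
  unfold nu
  congr 2
  refine sum_congr rfl fun i hi => ?_
  rw [h i (mem_Ioo.1 hi).1]

lemma wallSet_congr (h : ∀ i, j < i → s i = s' i) : wallSet C k j s = wallSet C k j s' := by
  ext ν
  unfold wallSet
  constructor
  · rintro ⟨w, hw, rfl⟩; exact ⟨w, hw, nu_congr h w⟩
  · rintro ⟨w, hw, rfl⟩; exact ⟨w, hw, (nu_congr h w).symm⟩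

lemma mult_congr {i : ℕ} (h : ∀ l, i ≤ l → s l = s' l) : mult C k i s = mult C k i s' := by
  unfold mult
  rw [wallSet_congr (C := C) (k := k) (j := i) (s := s) (s' := s')
    (fun l hl => h l hl.le), h i le_rfl]

lemma scale_congr (h : ∀ i, j < i → s i = s' i) : scale C k j s = scale C k j s' := by
  unfold scale
  congr 1
  refine prod_congr rfl fun i hi => ?_
  exact mult_congr fun l hl => h l (lt_of_lt_of_le (mem_Ioo.1 hi).1 hl)

lemma marg_congr (h : ∀ i, j < i → s i = s' i) : marg C k j s = marg C k j s' := by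
  unfold marg; rw [scale_congr h]

lemma isGeneric_congr (h : ∀ i, j < i → s i = s' i) (p : ℝ) :
    IsGeneric C k j s p ↔ IsGeneric C k j s' p := by
  unfold IsGeneric
  rw [wallSet_congr h, marg_congr h, h (j + 1) (Nat.lt_succ_self j)]

lemma isSlope_congr (h : ∀ i, j < i → s i = s' i) (a : ℝ) :
    IsSlope C k j s a ↔ IsSlope C k j s' a := by
  unfold IsSlope
  rw [isGeneric_congr h, wallSet_congr h, h (j + 1) (Nat.lt_succ_self j)]

lemma tau_congr (h : ∀ i, j < i → s i = s' i) (a : ℝ) : tau C k j s a = tau C k j s' a := by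
  unfold tau
  rw [wallSet_congr h, marg_congr h]

end congr

/-! ### elementary facts on paths -/

lemma IsPath.above {ε : ℝ} {s : ℕ → ℝ} (h : IsPath C k ε s) (j : ℕ) : IsPathAbove C k ε j s :=
  ⟨h.top, fun i _ hi => h.slope i hi, h.zero⟩

lemma IsPathAbove.mono {ε : ℝ} {s : ℕ → ℝ} {j i : ℕ} (h : IsPathAbove C k ε j s) (hji : j ≤ i) :
    IsPathAbove C k ε i s :=
  ⟨h.top, fun l hl hl' => h.slope l (lt_of_le_of_lt hji hl) hl', h.zero⟩

lemma IsPathAbove.succ {ε : ℝ} {s : ℕ → ℝ} {j : ℕ} (h : IsPathAbove C k ε j s)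
    (hj : j < k - 1) (hs : IsSlope C k j s (s j)) : ∀ i, j ≤ i → i < k - 1 → IsSlope C k i s (s i) := by
  intro i hi hi'
  rcases Nat.eq_or_lt_of_le hi with rfl | hlt
  · exact hs
  · exact h.slope i hlt hi'

/-- Building a path level by level. -/
lemma isPath_of_step {ε : ℝ} {s : ℕ → ℝ} (htop : s (k - 1) = ε) (hzero : ∀ i, k ≤ i → s i = 0)
    (hstep : ∀ i, i < k - 1 → IsPathAbove C k ε i s → IsSlope C k i s (s i)) :
    IsPath C k ε s := by
  refine ⟨htop, ?_, hzero⟩
  have key : ∀ n i, i + n = k - 1 → i < k - 1 → IsSlope C k i s (s i) := by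
    intro n
    induction n using Nat.strong_induction_on with
    | _ n ih =>
      intro i hin hi
      refine hstep i hi ⟨htop, fun l hl hl' => ?_, hzero⟩
      exact ih (k - 1 - l) (by omega) l (by omega) hl'
  intro i hi
  exact key (k - 1 - i) i (by omega) hi

/-! ### the tie vector -/

/-- The vector `e_j - e_{j+1}`. -/
def tieVec (j : ℕ) : ℕ → ℤ := fun i => if i = j then 1 else if i = j + 1 then -1 else 0

lemma tieVec_isW (hC : C.Good) (j : ℕ) : IsW C j (tieVec j) := by
  refine ⟨by simp [tieVec], fun i => ?_⟩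
  have := hC.H_one j
  unfold tieVec
  split_ifs <;> simp <;> linarith

lemma nu_tieVec {j : ℕ} (hj : j + 1 < k) (s : ℕ → ℝ) : nu k j (tieVec j) s = s (j + 1) := by
  unfold nu
  have h1 : ∑ i ∈ Ioo j k, ((tieVec j i : ℤ) : ℝ) * s i = - s (j + 1) := by
    rw [sum_eq_single (j + 1)]
    · simp [tieVec]
    · intro b hb hne
      have : b ≠ j := by have := (mem_Ioo.1 hb).1; omega
      simp [tieVec, this, hne]
    · intro h
      exact absurd (mem_Ioo.2 ⟨Nat.lt_succ_self j, hj⟩) h
  rw [h1]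
  simp [tieVec]

lemma cap_mem_wallSet (hC : C.Good) {j : ℕ} (hj : j + 1 < k) (s : ℕ → ℝ) :
    s (j + 1) ∈ wallSet C k j s :=
  ⟨tieVec j, tieVec_isW hC j, (nu_tieVec hj s).symm⟩

/-! ### multipliers and scales -/

lemma prod_le_prod_subset_real {t r : Finset ℕ} (f : ℕ → ℝ) (ht : t ⊆ r) (hf : ∀ i, 1 ≤ f i) :
    ∏ i ∈ t, f i ≤ ∏ i ∈ r, f i := by
  rw [← prod_sdiff ht]
  have h1 : 1 ≤ ∏ i ∈ r \ t, f i := by
    induction (r \ t) using Finset.induction_on with
    | empty => simp
    | insert a t' ha ih =>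
      rw [prod_insert ha]
      have := hf a
      nlinarith
  have h2 : 0 ≤ ∏ i ∈ t, f i := prod_nonneg fun i _ => le_trans zero_le_one (hf i)
  nlinarith

lemma mult_one_le (hC : C.Good) (i : ℕ) (s : ℕ → ℝ) : 1 ≤ mult C k i s := by
  unfold mult
  split_ifs
  · have := hC.A_two i; linarith
  · exact le_rfl

lemma mult_le (hC : C.Good) (i : ℕ) (s : ℕ → ℝ) : mult C k i s ≤ C.A i + 2 := by
  unfold mult
  split_ifs
  · exact le_rfl
  · have := hC.A_two i; linarith

lemma prod_mult_one_le (hC : C.Good) (t : Finset ℕ) (s : ℕ → ℝ) :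
    1 ≤ ∏ i ∈ t, mult C k i s := by
  induction t using Finset.induction_on with
  | empty => simp
  | insert a t ha ih =>
    rw [prod_insert ha]
    have := mult_one_le (k := k) hC a s
    nlinarith

lemma prod_mult_le_P (hC : C.Good) (t : Finset ℕ) {n : ℕ} (ht : t ⊆ range n) (s : ℕ → ℝ) :
    ∏ i ∈ t, mult C k i s ≤ C.P n := by
  rw [hC.P_eq]
  calc ∏ i ∈ t, mult C k i s ≤ ∏ i ∈ t, (C.A i + 2) :=
        prod_le_prod (fun i _ => le_trans zero_le_one (mult_one_le hC i s))
          (fun i _ => mult_le hC i s)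
    _ ≤ ∏ i ∈ range n, (C.A i + 2) :=
        prod_le_prod_subset_real _ ht (fun i => by have := hC.A_two i; linarith)

lemma scale_ge_Lam (hC : C.Good) (j : ℕ) (s : ℕ → ℝ) : C.Lam ≤ scale C k j s := by
  unfold scale
  have := prod_mult_one_le (k := k) hC (Ioo j (k - 1)) s
  have := hC.Lam_pos
  nlinarith

lemma scale_pos (hC : C.Good) (j : ℕ) (s : ℕ → ℝ) : 0 < scale C k j s :=
  lt_of_lt_of_le hC.Lam_pos (scale_ge_Lam hC j s)

lemma marg_ge (hC : C.Good) (j : ℕ) (s : ℕ → ℝ) : scale C k j s ≤ marg C k j s := by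
  unfold marg
  have := scale_pos (k := k) hC j s
  have := hC.A_two j
  nlinarith

lemma marg_ge_Lam (hC : C.Good) (j : ℕ) (s : ℕ → ℝ) : C.Lam ≤ marg C k j s :=
  le_trans (scale_ge_Lam hC j s) (marg_ge hC j s)

lemma marg_pos (hC : C.Good) (j : ℕ) (s : ℕ → ℝ) : 0 < marg C k j s :=
  lt_of_lt_of_le hC.Lam_pos (marg_ge_Lam hC j s)

/-- Splitting the scale at an intermediate level. -/
lemma scale_split {j i : ℕ} (hji : j < i) (hi : i < k - 1) (s : ℕ → ℝ) :
    scale C k j s = (∏ l ∈ Ioo j i, mult C k l s) * mult C k i s * scale C k i s := by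
  unfold scale
  have h : Ioo j (k - 1) = insert i (Ioo j i ∪ Ioo i (k - 1)) := by
    ext l
    simp only [mem_Ioo, mem_insert, mem_union]
    omega
  have hd : Disjoint (Ioo j i) (Ioo i (k - 1)) := by
    rw [disjoint_left]
    intro l hl hl'
    have := (mem_Ioo.1 hl).2
    have := (mem_Ioo.1 hl').1
    omega
  have hn : i ∉ Ioo j i ∪ Ioo i (k - 1) := by
    simp only [mem_union, mem_Ioo]
    omega
  rw [h, prod_insert hn, prod_union hd]
  ring

/-- The radius of a higher level is controlled by the scale of a lower one. -/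
lemma mult_scale_le (hC : C.Good) {j i : ℕ} (hji : j < i) (hi : i < k - 1) (s : ℕ → ℝ) :
    mult C k i s * scale C k i s ≤ scale C k j s := by
  rw [scale_split hji hi]
  have h1 := prod_mult_one_le (k := k) hC (Ioo j i) s
  have h2 : 0 < mult C k i s * scale C k i s :=
    mul_pos (lt_of_lt_of_le one_pos (mult_one_le hC i s)) (scale_pos hC i s)
  nlinarith

lemma scale_le_top (hC : C.Good) (hk : k ≤ C.d) (j : ℕ) (s : ℕ → ℝ) :
    scale C k j s ≤ C.Lam * C.P C.d := by
  unfold scale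
  refine mul_le_mul_of_nonneg_left ?_ hC.Lam_pos.le
  refine prod_mult_le_P hC _ ?_ s
  intro l hl
  have := (mem_Ioo.1 hl).2
  simp only [mem_range]
  omega

lemma marg_le_one (hC : C.Good) (hk : k ≤ C.d) {j : ℕ} (s : ℕ → ℝ) (hj : j < C.d) :
    marg C k j s ≤ 1 := by
  unfold marg scale
  have h1 : C.A j * ∏ i ∈ Ioo j (k - 1), mult C k i s ≤ C.P C.d := by
    rw [hC.P_eq]
    have hsub : insert j (Ioo j (k - 1)) ⊆ range C.d := by
      intro l hl
      simp only [mem_insert, mem_Ioo] at hl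
      simp only [mem_range]
      omega
    have hn : j ∉ Ioo j (k - 1) := by simp
    calc C.A j * ∏ i ∈ Ioo j (k - 1), mult C k i s
        ≤ (C.A j + 2) * ∏ i ∈ Ioo j (k - 1), (C.A i + 2) := by
          refine mul_le_mul (by linarith) ?_ ?_ ?_
          · exact prod_le_prod (fun i _ => le_trans zero_le_one (mult_one_le hC i s))
              (fun i _ => mult_le hC i s)
          · exact prod_nonneg fun i _ => le_trans zero_le_one (mult_one_le hC i s)
          · have := hC.A_two j; linarith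
      _ = ∏ i ∈ insert j (Ioo j (k - 1)), (C.A i + 2) := by rw [prod_insert hn]
      _ ≤ ∏ i ∈ range C.d, (C.A i + 2) :=
          prod_le_prod_subset_real _ hsub (fun i => by have := hC.A_two i; linarith)
  have h2 := hC.Lam_P
  have h3 := hC.Lam_pos
  calc C.A j * (C.Lam * ∏ i ∈ Ioo j (k - 1), mult C k i s)
      = C.Lam * (C.A j * ∏ i ∈ Ioo j (k - 1), mult C k i s) := by ring
    _ ≤ C.Lam * C.P C.d := mul_le_mul_of_nonneg_left h1 h3.le
    _ ≤ 1 := h2

/-! ### distance of generic slopes to all walls -/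

lemma generic_dist (hC : C.Good) {j : ℕ} (hj : j + 1 < k) {s : ℕ → ℝ} {p ν : ℝ}
    (hp : IsGeneric C k j s p) (hν : ν ∈ wallSet C k j s) : marg C k j s ≤ |p - ν| := by
  obtain ⟨-, hcap, hd⟩ := hp
  by_cases hle : ν ≤ s (j + 1)
  · exact hd ν hν hle
  · rw [not_le] at hle
    have h1 := hd _ (cap_mem_wallSet hC hj s) le_rfl
    have h2 : |p - s (j + 1)| ≤ |p - ν| := by
      rw [abs_of_nonpos (by linarith), abs_of_nonpos (by linarith)]
      linarith
    exact le_trans h1 h2

lemma generic_not_wall (hC : C.Good) {j : ℕ} (hj : j + 1 < k) {s : ℕ → ℝ} {p : ℝ}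
    (hp : IsGeneric C k j s p) : p ∉ wallSet C k j s := by
  intro hν
  have := generic_dist hC hj hp hν
  have h2 := marg_pos (k := k) hC j s
  simp at this
  linarith

/-! ### bounds on slopes -/

lemma one_le_abs_int {z : ℤ} (hz : z ≠ 0) : (1 : ℝ) ≤ |(z : ℝ)| := by
  have : (1 : ℤ) ≤ |z| := Int.one_le_abs hz
  have h2 : ((1 : ℤ) : ℝ) ≤ ((|z| : ℤ) : ℝ) := by exact_mod_cast this
  simpa using h2

lemma card_Ioo_le (hk : k ≤ C.d) (j : ℕ) : ((Ioo j k).card : ℝ) ≤ C.d := by
  rw [Nat.card_Ioo]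
  exact_mod_cast le_trans (Nat.sub_le _ _) (le_trans (Nat.sub_le _ _) hk)

lemma nu_abs_le (hC : C.Good) (hk : k ≤ C.d) {j : ℕ} {w : ℕ → ℤ} (hw : IsW C j w) {s : ℕ → ℝ}
    {B : ℝ} (hB : 0 ≤ B) (hs : ∀ l, j < l → l < k → |s l| ≤ B) :
    |nu k j w s| ≤ C.H j * C.d * B := by
  unfold nu
  rw [abs_div, abs_neg]
  have h1 : 1 ≤ |(w j : ℝ)| := one_le_abs_int hw.1
  have h2 : |∑ i ∈ Ioo j k, (w i : ℝ) * s i| ≤ C.H j * C.d * B := by
    calc |∑ i ∈ Ioo j k, (w i : ℝ) * s i| ≤ ∑ i ∈ Ioo j k, |(w i : ℝ) * s i| :=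
          abs_sum_le_sum_abs _ _
      _ ≤ ∑ _i ∈ Ioo j k, C.H j * B := by
          refine sum_le_sum fun i hi => ?_
          rw [abs_mul]
          exact mul_le_mul (hw.2 i) (hs i (mem_Ioo.1 hi).1 (mem_Ioo.1 hi).2) (abs_nonneg _)
            (hC.H_pos j).le
      _ = ((Ioo j k).card : ℝ) * (C.H j * B) := by rw [sum_const, nsmul_eq_mul]
      _ ≤ C.d * (C.H j * B) :=
          mul_le_mul_of_nonneg_right (card_Ioo_le hk j) (mul_nonneg (hC.H_pos j).le hB)
      _ = C.H j * C.d * B := by ring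
  calc |∑ i ∈ Ioo j k, (w i : ℝ) * s i| / |(w j : ℝ)| ≤ |∑ i ∈ Ioo j k, (w i : ℝ) * s i| / 1 :=
        div_le_div_of_nonneg_left (abs_nonneg _) one_pos h1
    _ ≤ C.H j * C.d * B := by simpa using h2

lemma path_bound (hC : C.Good) (hk : k ≤ C.d) {ε : ℝ} (hε : |ε| = 1) {s : ℕ → ℝ} {j : ℕ}
    (hs : IsPathAbove C k ε j s) : ∀ l, j < l → l < k → |s l| ≤ C.S l := by
  have key : ∀ n l, l + n = k - 1 → j < l → l < k → |s l| ≤ C.S l := by
    intro n
    induction n using Nat.strong_induction_on with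
    | _ n ih =>
      intro l hln hjl hlk
      by_cases hl : l = k - 1
      · subst hl
        rw [hs.top, hε]
        exact hC.S_one _
      · have hl' : l < k - 1 := by omega
        have hup : ∀ i, l < i → i < k → |s i| ≤ C.S (l + 1) := by
          intro i hi hik
          have h1 := ih (k - 1 - i) (by omega) i (by omega) (by omega) hik
          have h2 : C.S i ≤ C.S (l + 1) := hC.S_anti (by omega) (by omega)
          linarith
        have hS : 0 ≤ C.S (l + 1) := le_trans zero_le_one (hC.S_one _)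
        rcases hs.slope l hjl hl' with ⟨⟨w, hw, hν⟩, -⟩ | hgen
        · rw [hν]
          have h1 := nu_abs_le hC hk hw hS hup
          have h2 := hC.S_step l (by omega)
          linarith
        · obtain ⟨⟨m, hm⟩, hcap, -⟩ := hgen
          have h1 : |s (l + 1)| ≤ C.S (l + 1) := hup (l + 1) (Nat.lt_succ_self l) (by omega)
          have h2 : C.S (l + 1) ≤ C.S l := hC.S_anti (by omega) (by omega)
          have h3 : 0 ≤ (m : ℝ) * C.Lam := mul_nonneg (by positivity) hC.Lam_pos.le
          rw [abs_le]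
          constructor
          · rw [hm]; linarith
          · have := le_abs_self (s (l + 1)); linarith
  intro l hjl hlk
  exact key (k - 1 - l) l (by omega) hjl hlk

lemma wall_bound (hC : C.Good) (hk : k ≤ C.d) {ε : ℝ} (hε : |ε| = 1) {s : ℕ → ℝ} {j : ℕ}
    (hj : j < k - 1) (hs : IsPathAbove C k ε j s) {ν : ℝ} (hν : ν ∈ wallSet C k j s) :
    |ν| ≤ C.S j - 2 := by
  obtain ⟨w, hw, rfl⟩ := hν
  have hup : ∀ i, j < i → i < k → |s i| ≤ C.S (j + 1) := by
    intro i hi hik
    have h1 := path_bound hC hk hε hs i hi hik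
    have h2 : C.S i ≤ C.S (j + 1) := hC.S_anti (by omega) (by omega)
    linarith
  have h1 := nu_abs_le hC hk hw (le_trans zero_le_one (hC.S_one _)) hup
  have h2 := hC.S_step j (by omega)
  linarith

lemma lowest_generic (hC : C.Good) (hk : k ≤ C.d) {ε : ℝ} (hε : |ε| = 1) {s : ℕ → ℝ} {j : ℕ}
    (hj : j < k - 1) (hs : IsPathAbove C k ε j s) : IsGeneric C k j s (-C.S j) := by
  refine ⟨⟨0, by simp⟩, ?_, ?_⟩
  · have h1 := path_bound hC hk hε hs (j + 1) (Nat.lt_succ_self j) (by omega)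
    have h2 : C.S (j + 1) ≤ C.S j := hC.S_anti (by omega) (by omega)
    have h3 := neg_abs_le (s (j + 1))
    linarith
  · intro ν hν _
    have h1 := wall_bound hC hk hε hj hs hν
    have h2 := marg_le_one hC hk (j := j) s (by omega)
    have h3 := (abs_le.1 h1).1
    have h4 : -C.S j - ν ≤ 0 := by linarith
    rw [abs_of_nonpos h4]
    linarith

lemma lowest_not_wall (hC : C.Good) (hk : k ≤ C.d) {ε : ℝ} (hε : |ε| = 1) {s : ℕ → ℝ} {j : ℕ}
    (hj : j < k - 1) (hs : IsPathAbove C k ε j s) : -C.S j ∉ wallSet C k j s :=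
  generic_not_wall hC (by omega) (lowest_generic hC hk hε hj hs)

lemma slope_bound (hC : C.Good) (hk : k ≤ C.d) {ε : ℝ} (hε : |ε| = 1) {s : ℕ → ℝ} {j : ℕ}
    (hj : j < k - 1) (hs : IsPathAbove C k ε j s) {a : ℝ} (ha : IsSlope C k j s a) :
    |a| ≤ C.S j := by
  rcases ha with ⟨hw, -⟩ | ⟨⟨m, hm⟩, hcap, -⟩
  · have := wall_bound hC hk hε hj hs hw
    linarith
  · have h1 := path_bound hC hk hε hs (j + 1) (Nat.lt_succ_self j) (by omega)
    have h2 : C.S (j + 1) ≤ C.S j := hC.S_anti (by omega) (by omega)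
    have h3 : 0 ≤ (m : ℝ) * C.Lam := mul_nonneg (by positivity) hC.Lam_pos.le
    rw [abs_le]
    constructor
    · rw [hm]; linarith
    · have := le_abs_self (s (j + 1)); linarith

/-! ### separation of walls -/

/-- Arithmetic of two walls. -/
lemma nu_sub_nu {j : ℕ} {w w' : ℕ → ℤ} (h : w j ≠ 0) (h' : w' j ≠ 0) (s : ℕ → ℝ) :
    nu k j w s - nu k j w' s =
      -(∑ i ∈ Ioo j k, ((w' j * w i - w j * w' i : ℤ) : ℝ) * s i) / ((w j : ℝ) * (w' j : ℝ)) := by
  have h1 : (w j : ℝ) ≠ 0 := by exact_mod_cast h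
  have h2 : (w' j : ℝ) ≠ 0 := by exact_mod_cast h'
  have h3 : ∑ i ∈ Ioo j k, ((w' j * w i - w j * w' i : ℤ) : ℝ) * s i =
      (w' j : ℝ) * ∑ i ∈ Ioo j k, (w i : ℝ) * s i - (w j : ℝ) * ∑ i ∈ Ioo j k, (w' i : ℝ) * s i := by
    rw [mul_sum, mul_sum, ← sum_sub_distrib]
    refine sum_congr rfl fun i _ => ?_
    push_cast
    ring
  rw [h3]
  unfold nu
  field_simp
  ring

theorem sep (hC : C.Good) (hk : k ≤ C.d) {ε : ℝ} (hε : |ε| = 1) :
    ∀ n j, j + n = k - 1 → j < k - 1 → ∀ s, IsPathAbove C k ε j s → ∀ w w', IsW C j w → IsW C j w' →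
      nu k j w s ≠ nu k j w' s → C.K j * scale C k j s ≤ |nu k j w s - nu k j w' s| := by
  intro n
  induction n using Nat.strong_induction_on with
  | _ n ih =>
    intro j hjn hj s hs w w' hw hw' hne
    set u : ℕ → ℤ := fun i => w' j * w i - w j * w' i with hu
    have hdiff := nu_sub_nu (k := k) hw.1 hw'.1 s
    have hwj : (w j : ℝ) ≠ 0 := by exact_mod_cast hw.1
    have hwj' : (w' j : ℝ) ≠ 0 := by exact_mod_cast hw'.1
    have hDne : (w j : ℝ) * (w' j : ℝ) ≠ 0 := mul_ne_zero hwj hwj'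
    set Su : ℝ := ∑ i ∈ Ioo j k, (u i : ℝ) * s i with hSu
    have hdiff' : nu k j w s - nu k j w' s = -Su / ((w j : ℝ) * (w' j : ℝ)) := hdiff
    have hSgne : Su ≠ 0 := by
      intro h0
      apply hne
      have : nu k j w s - nu k j w' s = 0 := by rw [hdiff', h0]; simp
      linarith
    -- the absolute value of the denominator
    have hDabs : |(w j : ℝ) * (w' j : ℝ)| ≤ C.H j ^ 2 := by
      rw [abs_mul, sq]
      exact mul_le_mul (hw.2 j) (hw'.2 j) (abs_nonneg _) (hC.H_pos j).le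
    have hDpos : 0 < |(w j : ℝ) * (w' j : ℝ)| := abs_pos.2 hDne
    have hHpos : 0 < C.H j ^ 2 := by have := hC.H_pos j; positivity
    -- it suffices to bound `Su`
    suffices hmain : C.H j ^ 2 * (C.K j * scale C k j s) ≤ |Su| by
      rw [hdiff', abs_div, abs_neg, le_div_iff₀ hDpos]
      have hKs : 0 ≤ C.K j * scale C k j s :=
        mul_nonneg (le_trans zero_le_one (hC.K_one j)) (scale_pos hC j s).le
      calc C.K j * scale C k j s * |(w j : ℝ) * (w' j : ℝ)|
          ≤ C.K j * scale C k j s * C.H j ^ 2 := mul_le_mul_of_nonneg_left hDabs hKs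
        _ = C.H j ^ 2 * (C.K j * scale C k j s) := by ring
        _ ≤ |Su| := hmain
    -- first nonzero coordinate of `u`
    have hex : ∃ i, i ∈ Ioo j k ∧ u i ≠ 0 := by
      by_contra hcon
      push Not at hcon
      apply hSgne
      rw [hSu]
      refine sum_eq_zero fun i hi => ?_
      rw [hcon i hi]
      simp
    classical
    set i := Nat.find hex with hi_def
    obtain ⟨hiI, hui⟩ : i ∈ Ioo j k ∧ u i ≠ 0 := Nat.find_spec hex
    have hji : j < i := (mem_Ioo.1 hiI).1
    have hik : i < k := (mem_Ioo.1 hiI).2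
    have hmin : ∀ l, j < l → l < i → u l = 0 := by
      intro l hl hli
      by_contra hne'
      exact Nat.find_min hex hli ⟨mem_Ioo.2 ⟨hl, by omega⟩, hne'⟩
    have hsum : Su = (u i : ℝ) * s i + ∑ l ∈ Ioo i k, (u l : ℝ) * s l := by
      have hsplit : Ioo j k = (Ioo j i) ∪ insert i (Ioo i k) := by
        ext l
        simp only [mem_Ioo, mem_union, mem_insert]
        omega
      have hdisj : Disjoint (Ioo j i) (insert i (Ioo i k)) := by
        rw [disjoint_left]
        intro l hl hl'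
        simp only [mem_Ioo, mem_insert] at hl hl'
        omega
      have hni : i ∉ Ioo i k := by simp
      rw [hSu, hsplit, sum_union hdisj, sum_insert hni]
      have h0 : ∑ l ∈ Ioo j i, (u l : ℝ) * s l = 0 := by
        refine sum_eq_zero fun l hl => ?_
        rw [hmin l (mem_Ioo.1 hl).1 (mem_Ioo.1 hl).2]
        simp
      rw [h0, zero_add]
    have huiabs : 1 ≤ |(u i : ℝ)| := one_le_abs_int hui
    by_cases hitop : i = k - 1
    · -- top case
      have hI : Ioo i k = ∅ := by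
        ext l
        simp only [mem_Ioo, notMem_empty, iff_false]
        omega
      have htop : s i = ε := by rw [hitop]; exact hs.top
      have hSgabs : 1 ≤ |Su| := by
        rw [hsum, hI, sum_empty, add_zero, abs_mul, htop, hε, mul_one]
        exact huiabs
      have h1 := hC.top j (by omega)
      have h2 := scale_le_top hC hk j s
      have h3 : C.H j ^ 2 * (C.K j * scale C k j s) ≤ C.H j ^ 2 * C.K j * (C.Lam * C.P C.d) := by
        have : 0 ≤ C.H j ^ 2 * C.K j := mul_nonneg hHpos.le (le_trans zero_le_one (hC.K_one j))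
        calc C.H j ^ 2 * (C.K j * scale C k j s) = C.H j ^ 2 * C.K j * scale C k j s := by ring
          _ ≤ _ := mul_le_mul_of_nonneg_left h2 this
      linarith
    · -- lower case
      have hi' : i < k - 1 := by omega
      have hui_ne : (u i : ℝ) ≠ 0 := by exact_mod_cast hui
      have hIsW : IsW C i u := by
        refine ⟨hui, fun l => ?_⟩
        have h1 := hC.H_step j i hji
        have h2 : |(u l : ℝ)| ≤ 2 * C.H j ^ 2 := by
          have : (u l : ℝ) = (w' j : ℝ) * (w l : ℝ) - (w j : ℝ) * (w' l : ℝ) := by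
            simp only [hu]; push_cast; ring
          rw [this]
          calc |(w' j : ℝ) * (w l : ℝ) - (w j : ℝ) * (w' l : ℝ)|
              ≤ |(w' j : ℝ) * (w l : ℝ)| + |(w j : ℝ) * (w' l : ℝ)| := abs_sub _ _
            _ = |(w' j : ℝ)| * |(w l : ℝ)| + |(w j : ℝ)| * |(w' l : ℝ)| := by
                rw [abs_mul, abs_mul]
            _ ≤ C.H j * C.H j + C.H j * C.H j := by
                have hH := (hC.H_pos j).le
                exact add_le_add (mul_le_mul (hw'.2 j) (hw.2 l) (abs_nonneg _) hH)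
                  (mul_le_mul (hw.2 j) (hw'.2 l) (abs_nonneg _) hH)
            _ = 2 * C.H j ^ 2 := by ring
        linarith
      set δ : ℝ := s i - nu k i u s with hδ
      have hSgδ : Su = (u i : ℝ) * δ := by
        rw [hsum, hδ]
        unfold nu
        field_simp
        ring
      have hδne : δ ≠ 0 := by
        intro h0
        apply hSgne
        rw [hSgδ, h0, mul_zero]
      have hSgabs : |δ| ≤ |Su| := by
        rw [hSgδ, abs_mul]
        nlinarith [abs_nonneg δ]
      have hsplit := scale_split (C := C) hji hi' s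
      have hP := prod_mult_le_P (k := k) hC (Ioo j i) (n := i)
        (by intro l hl; have := (mem_Ioo.1 hl).2; simp only [mem_range]; omega) s
      have hscale_i := scale_pos (k := k) hC i s
      have hHK : 0 ≤ C.H j ^ 2 * C.K j := mul_nonneg hHpos.le (le_trans zero_le_one (hC.K_one j))
      have hid : i < C.d := by omega
      by_cases hwall : s i ∈ wallSet C k i s
      · -- the slope at level `i` is a wall
        have hm : mult C k i s = C.A i + 2 := by unfold mult; rw [if_pos hwall]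
        obtain ⟨w₁, hw₁, hν₁⟩ := hwall
        have hIH := ih (k - 1 - i) (by omega) i (by omega) hi' s (hs.mono hji.le) w₁ u hw₁ hIsW
          (by rw [← hν₁]; intro h0; apply hδne; rw [hδ, h0, sub_self])
        rw [← hν₁] at hIH
        have h1 := hC.KP j i hji hid
        have hA : 0 ≤ C.A i + 2 := by have := hC.A_two i; linarith
        have h2 : scale C k j s ≤ (C.A i + 2) * C.P i * scale C k i s := by
          rw [hsplit, hm]
          have hprodnn : 0 ≤ ∏ l ∈ Ioo j i, mult C k l s :=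
            le_trans zero_le_one (prod_mult_one_le hC _ s)
          calc (∏ l ∈ Ioo j i, mult C k l s) * (C.A i + 2) * scale C k i s
              ≤ C.P i * (C.A i + 2) * scale C k i s := by
                refine mul_le_mul_of_nonneg_right ?_ hscale_i.le
                exact mul_le_mul_of_nonneg_right hP hA
            _ = (C.A i + 2) * C.P i * scale C k i s := by ring
        calc C.H j ^ 2 * (C.K j * scale C k j s) = C.H j ^ 2 * C.K j * scale C k j s := by ring
          _ ≤ C.H j ^ 2 * C.K j * ((C.A i + 2) * C.P i * scale C k i s) :=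
              mul_le_mul_of_nonneg_left h2 hHK
          _ = C.H j ^ 2 * C.K j * ((C.A i + 2) * C.P i) * scale C k i s := by ring
          _ ≤ C.K i * scale C k i s := mul_le_mul_of_nonneg_right h1 hscale_i.le
          _ ≤ |δ| := hIH
          _ ≤ |Su| := hSgabs
      · -- generic slope
        have hm : mult C k i s = 1 := by unfold mult; rw [if_neg hwall]
        have hgen : IsGeneric C k i s (s i) := by
          rcases hs.slope i hji hi' with ⟨h, -⟩ | h
          · exact absurd h hwall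
          · exact h
        have hd := generic_dist hC (by omega) hgen (ν := nu k i u s) ⟨u, hIsW, rfl⟩
        have h1 := hC.AP j i hji hid
        have h2 : scale C k j s ≤ C.P i * scale C k i s := by
          rw [hsplit, hm, mul_one]
          exact mul_le_mul_of_nonneg_right hP hscale_i.le
        calc C.H j ^ 2 * (C.K j * scale C k j s) = C.H j ^ 2 * C.K j * scale C k j s := by ring
          _ ≤ C.H j ^ 2 * C.K j * (C.P i * scale C k i s) :=
              mul_le_mul_of_nonneg_left h2 hHK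
          _ = C.H j ^ 2 * C.K j * C.P i * scale C k i s := by ring
          _ ≤ C.A i * scale C k i s := mul_le_mul_of_nonneg_right h1 hscale_i.le
          _ = marg C k i s := rfl
          _ ≤ |δ| := hd
          _ ≤ |Su| := hSgabs

/-- Separation of walls, in usable form. -/
theorem sep' (hC : C.Good) (hk : k ≤ C.d) {ε : ℝ} (hε : |ε| = 1) {j : ℕ} (hj : j < k - 1)
    {s : ℕ → ℝ} (hs : IsPathAbove C k ε j s) {ν ν' : ℝ} (hν : ν ∈ wallSet C k j s)
    (hν' : ν' ∈ wallSet C k j s) (hne : ν ≠ ν') : C.K j * scale C k j s ≤ |ν - ν'| := by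
  obtain ⟨w, hw, rfl⟩ := hν
  obtain ⟨w', hw', rfl⟩ := hν'
  exact sep hC hk hε (k - 1 - j) j (by omega) hj s hs w w' hw hw' hne

/-- Slopes are `Lam`-separated. -/
theorem slope_sep (hC : C.Good) (hk : k ≤ C.d) {ε : ℝ} (hε : |ε| = 1) {j : ℕ} (hj : j < k - 1)
    {s : ℕ → ℝ} (hs : IsPathAbove C k ε j s) {a b : ℝ} (ha : IsSlope C k j s a)
    (hb : IsSlope C k j s b) (hab : a < b) : C.Lam ≤ b - a := by
  have hj1 : j + 1 < k := by omega
  have hm := marg_ge_Lam (k := k) hC j s
  rcases ha with ⟨ha, -⟩ | ha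
  · rcases hb with ⟨hb, -⟩ | hb
    · have h1 := sep' hC hk hε hj hs ha hb hab.ne
      have h2 := scale_ge_Lam (k := k) hC j s
      have h3 := hC.K_one j
      have h4 : C.Lam ≤ C.K j * scale C k j s := by nlinarith [hC.Lam_pos]
      rw [abs_of_neg (by linarith)] at h1
      linarith
    · have h1 := generic_dist hC hj1 hb ha
      rw [abs_of_pos (by linarith)] at h1
      linarith
  · rcases hb with ⟨hb, -⟩ | hb
    · have h1 := generic_dist hC hj1 ha hb
      rw [abs_of_neg (by linarith)] at h1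
      linarith
    · obtain ⟨⟨m, hm'⟩, -, -⟩ := ha
      obtain ⟨⟨m₂, hm₂⟩, -, -⟩ := hb
      have hLam := hC.Lam_pos
      have hlt : (m : ℝ) < m₂ := by
        rw [hm', hm₂] at hab
        nlinarith
      have hlt' : m + 1 ≤ m₂ := by exact_mod_cast hlt
      have hlt'' : (m : ℝ) + 1 ≤ m₂ := by exact_mod_cast hlt'
      rw [hm', hm₂]
      nlinarith

end Crest.Agent.S0122Lib
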