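-- S0122, geometry: location of an active point relative to its path.
import Crest.Agent.S0122Lib.Tree

set_option autoImplicit false

namespace Crest.Agent.S0122Lib

open Finset

variable (C : TreeCst) (k : ℕ)

/-- The value of a path at a point. -/
noncomputable def val (L : ℝ) (s x : ℕ → ℝ) : ℝ :=
  ∑ i ∈ range k, s i * x i - ∑ j ∈ range (k - 1), Real.exp (L * tau C k j s (s j))

/-- A sorted point at which the constraint of `s` is active and all constraints of the type hold. -/
structure Active (ε L : ℝ) (s x : ℕ → ℝ) : Prop where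
  path : IsPath C k ε s
  pos : ∀ i, i < k → 0 < x i
  sorted : ∀ i j, i ≤ j → j < k → x i ≤ x j
  all : ∀ s', IsPath C k ε s' → val C k L s' x ≤ ε * Real.exp (ε * L)
  act : val C k L s x = ε * Real.exp (ε * L)
  low : ∀ i, i < k - 1 → Real.exp (-(L * (C.S i - 1))) ≤ x i

variable {C k}

lemma IsPath.bound (hC : C.Good) (hk : k ≤ C.d) {ε : ℝ} (hε : |ε| = 1) {s : ℕ → ℝ}
    (hs : IsPath C k ε s) {l : ℕ} (hl : l < k) : |s l| ≤ C.S l := by
  by_cases h : l = k - 1
  · rw [h, hs.top, hε]; exact hC.S_one _
  · have hl' : l < k - 1 := by omega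
    exact slope_bound hC hk hε hl' (hs.above l) (hs.slope l hl')

lemma isSlope_le {j : ℕ} {s : ℕ → ℝ} {a : ℝ} (h : IsSlope C k j s a) : a ≤ s (j + 1) := by
  rcases h with ⟨-, h⟩ | ⟨-, h, -⟩ <;> exact h

lemma IsPath.mono {ε : ℝ} {s : ℕ → ℝ} (hs : IsPath C k ε s) {i l : ℕ} (hil : i ≤ l)
    (hl : l < k) : s i ≤ s l := by
  induction l, hil using Nat.le_induction with
  | base => exact le_rfl
  | succ l hl' ih =>
    have h1 := ih (by omega)
    have h2 : s l ≤ s (l + 1) := isSlope_le (hs.slope l (by omega))
    linarith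

/-- The difference of values of two paths that agree above level `j`. -/
lemma val_sub {j : ℕ} (hj : j < k - 1) {s s' x : ℕ → ℝ} (L : ℝ) (h : ∀ i, j < i → s' i = s i) :
    val C k L s' x - val C k L s x =
      ∑ i ∈ range (j + 1), (s' i - s i) * x i -
      ∑ i ∈ range (j + 1), (Real.exp (L * tau C k i s' (s' i)) - Real.exp (L * tau C k i s (s i))) := by
  unfold val
  have h1 : ∀ f : ℕ → ℝ, ∑ i ∈ range k, f i = ∑ i ∈ range (j + 1), f i + ∑ i ∈ Ico (j + 1) k, f i :=
    fun f => (sum_range_add_sum_Ico f (by omega)).symm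
  have h2 : ∀ f : ℕ → ℝ, ∑ i ∈ range (k - 1), f i =
      ∑ i ∈ range (j + 1), f i + ∑ i ∈ Ico (j + 1) (k - 1), f i :=
    fun f => (sum_range_add_sum_Ico f (by omega)).symm
  rw [h1 (fun i => s' i * x i), h1 (fun i => s i * x i),
    h2 (fun i => Real.exp (L * tau C k i s' (s' i))), h2 (fun i => Real.exp (L * tau C k i s (s i)))]
  have h3 : ∑ i ∈ Ico (j + 1) k, s' i * x i = ∑ i ∈ Ico (j + 1) k, s i * x i :=
    sum_congr rfl fun i hi => by rw [h i (by have := (mem_Ico.1 hi).1; omega)]
  have h4 : ∑ i ∈ Ico (j + 1) (k - 1), Real.exp (L * tau C k i s' (s' i)) =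
      ∑ i ∈ Ico (j + 1) (k - 1), Real.exp (L * tau C k i s (s i)) := by
    refine sum_congr rfl fun i hi => ?_
    have hi' : j < i := by have := (mem_Ico.1 hi).1; omega
    rw [h i hi', tau_congr (C := C) (k := k) (s := s') (s' := s)
      (fun l hl => h l (by omega)) (s i)]
  simp only [sub_mul, sum_sub_distrib]
  rw [h3, h4]
  ring

/-! ### competitor: lowest slopes below level `j` -/

/-- All slopes at levels `≤ j` replaced by the lowest ones. -/
noncomputable def lowPath (C : TreeCst) (j : ℕ) (s : ℕ → ℝ) : ℕ → ℝ :=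
  fun i => if i ≤ j then -C.S i else s i

lemma lowPath_isPath (hC : C.Good) (hk : k ≤ C.d) {ε : ℝ} (hε : |ε| = 1) {s : ℕ → ℝ}
    (hs : IsPath C k ε s) {j : ℕ} (hj : j < k - 1) : IsPath C k ε (lowPath C j s) := by
  refine isPath_of_step ?_ ?_ ?_
  · have : lowPath C j s (k - 1) = s (k - 1) := if_neg (by omega)
    rw [this, hs.top]
  · intro i hi
    have : lowPath C j s i = s i := if_neg (by omega)
    rw [this, hs.zero i hi]
  · intro i hi habove
    by_cases hij : i ≤ j
    · have : lowPath C j s i = -C.S i := if_pos hij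
      rw [this]
      exact Or.inr (lowest_generic hC hk hε hi habove)
    · have hag : ∀ l, i < l → lowPath C j s l = s l := fun l hl => if_neg (by omega)
      have : lowPath C j s i = s i := if_neg hij
      rw [this, isSlope_congr hag]
      exact hs.slope i hi

lemma tau_lowest (hC : C.Good) (hk : k ≤ C.d) {ε : ℝ} (hε : |ε| = 1) {s : ℕ → ℝ} {i : ℕ}
    (hi : i < k - 1) (ha : IsPathAbove C k ε i s) : tau C k i s (-C.S i) = -C.S i := by
  unfold tau
  rw [if_neg (lowest_not_wall hC hk hε hi ha)]

lemma Active.exp_low {ε L : ℝ} {s x : ℕ → ℝ} (h : Active C k ε L s x) (hL : 0 ≤ L) {i : ℕ}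
    (hi : i < k - 1) : Real.exp (L * -C.S i) ≤ Real.exp (-L) * x i := by
  have h1 := h.low i hi
  have h2 : Real.exp (L * -C.S i) = Real.exp (-L) * Real.exp (-(L * (C.S i - 1))) := by
    rw [← Real.exp_add]
    congr 1
    ring
  rw [h2]
  exact mul_le_mul_of_nonneg_left h1 (Real.exp_pos _).le

lemma Active.sorted_lt {ε L : ℝ} {s x : ℕ → ℝ} (h : Active C k ε L s x) {i j : ℕ} (hij : i ≤ j)
    (hj : j < k) : x i ≤ x j := h.sorted i j hij hj

/-- First location bound: the point is above the bottom of the selected interval. -/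
theorem loc1 (hC : C.Good) (hk : k ≤ C.d) {ε L : ℝ} (hε : |ε| = 1) (hL : 0 ≤ L) {s x : ℕ → ℝ}
    (h : Active C k ε L s x) {j : ℕ} (hj : j < k - 1) :
    Real.exp (L * tau C k j s (s j)) ≤ C.d * (1 + 2 * C.S 0) * x j := by
  set s' := lowPath C j s with hs'
  have hpath : IsPath C k ε s' := lowPath_isPath hC hk hε h.path hj
  have hle := h.all s' hpath
  have hag : ∀ i, j < i → s' i = s i := fun i hi => if_neg (by omega)
  have hsub := val_sub (C := C) hj (x := x) L hag
  have hxj : 0 < x j := h.pos j (by omega)
  have hS0 : 0 < C.S 0 := lt_of_lt_of_le one_pos (hC.S_one 0)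
  set B : ℝ := (1 + 2 * C.S 0) * x j with hB
  have hBpos : 0 < B := by positivity
  have hterm : ∀ i ∈ range (j + 1),
      Real.exp (L * tau C k i s (s i)) - B ≤
        (s' i - s i) * x i - (Real.exp (L * tau C k i s' (s' i)) - Real.exp (L * tau C k i s (s i))) := by
    intro i hi
    have hij : i ≤ j := by have := mem_range.1 hi; omega
    have hik : i < k - 1 := by omega
    have hsi : s' i = -C.S i := if_pos hij
    have hxi := h.pos i (by omega)
    have hxij : x i ≤ x j := h.sorted i j hij (by omega)
    have htau : tau C k i s' (s' i) = -C.S i := by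
      rw [hsi]; exact tau_lowest hC hk hε hik (hpath.above i)
    have hexp := h.exp_low hL hik
    have hexp1 : Real.exp (-L) ≤ 1 := Real.exp_le_one_iff.2 (by linarith)
    have hbd := abs_le.1 (h.path.bound hC hk hε (l := i) (by omega))
    have hSi : C.S i ≤ C.S 0 := hC.S_anti (Nat.zero_le _) (by omega)
    rw [htau, hsi]
    have h1 : Real.exp (L * -C.S i) ≤ x j := by
      calc Real.exp (L * -C.S i) ≤ Real.exp (-L) * x i := hexp
        _ ≤ 1 * x i := mul_le_mul_of_nonneg_right hexp1 hxi.le
        _ ≤ x j := by linarith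
    have h2 : (s i + C.S i) * x i ≤ 2 * C.S 0 * x j := by
      have h3 : s i + C.S i ≤ 2 * C.S 0 := by linarith [hbd.2]
      have h4 : 0 ≤ s i + C.S i := by linarith [hbd.1]
      calc (s i + C.S i) * x i ≤ 2 * C.S 0 * x i := mul_le_mul_of_nonneg_right h3 hxi.le
        _ ≤ 2 * C.S 0 * x j := mul_le_mul_of_nonneg_left hxij (by positivity)
    rw [hB]
    nlinarith
  have hsum := sum_le_sum hterm
  rw [sum_sub_distrib, sum_const, card_range, nsmul_eq_mul] at hsum
  have hzero : ∑ i ∈ range (j + 1), ((s' i - s i) * x i -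
      (Real.exp (L * tau C k i s' (s' i)) - Real.exp (L * tau C k i s (s i)))) ≤ 0 := by
    rw [sum_sub_distrib, ← hsub, h.act]
    linarith
  have hsingle : Real.exp (L * tau C k j s (s j)) ≤
      ∑ i ∈ range (j + 1), Real.exp (L * tau C k i s (s i)) :=
    single_le_sum (f := fun i => Real.exp (L * tau C k i s (s i)))
      (fun i _ => (Real.exp_pos _).le) (mem_range.2 (Nat.lt_succ_self j))
  have hcard : ((j + 1 : ℕ) : ℝ) ≤ C.d := by
    have : j + 1 ≤ C.d := by omega
    exact_mod_cast this
  have : Real.exp (L * tau C k j s (s j)) ≤ ((j + 1 : ℕ) : ℝ) * B := by linarith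
  calc Real.exp (L * tau C k j s (s j)) ≤ ((j + 1 : ℕ) : ℝ) * B := this
    _ ≤ C.d * B := mul_le_mul_of_nonneg_right hcard hBpos.le
    _ = C.d * (1 + 2 * C.S 0) * x j := by rw [hB]; ring

/-! ### competitor: raising level `j` -/

/-- Level `j` raised to `a`; below it, ties with `a` for comparable coordinates, lowest otherwise. -/
noncomputable def chainPath (C : TreeCst) (j : ℕ) (a κ : ℝ) (s x : ℕ → ℝ) : ℕ → ℝ :=
  fun i => if j < i then s i else if i = j then a else if κ * x j ≤ x i then a else -C.S i

lemma chainPath_above {j : ℕ} {a κ : ℝ} {s x : ℕ → ℝ} {i : ℕ} (h : j < i) :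
    chainPath C j a κ s x i = s i := if_pos h

lemma chainPath_self {j : ℕ} {a κ : ℝ} {s x : ℕ → ℝ} : chainPath C j a κ s x j = a := by
  unfold chainPath
  rw [if_neg (lt_irrefl j), if_pos rfl]

lemma chainPath_tie {j : ℕ} {a κ : ℝ} {s x : ℕ → ℝ} {i : ℕ} (h : i < j) (ht : κ * x j ≤ x i) :
    chainPath C j a κ s x i = a := by
  unfold chainPath
  rw [if_neg (by omega), if_neg (by omega), if_pos ht]

lemma chainPath_low {j : ℕ} {a κ : ℝ} {s x : ℕ → ℝ} {i : ℕ} (h : i < j) (ht : ¬ κ * x j ≤ x i) :
    chainPath C j a κ s x i = -C.S i := by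
  unfold chainPath
  rw [if_neg (by omega), if_neg (by omega), if_neg ht]

lemma chainPath_isPath (hC : C.Good) (hk : k ≤ C.d) {ε : ℝ} (hε : |ε| = 1) {s x : ℕ → ℝ}
    (hs : IsPath C k ε s) (hx : ∀ i j, i ≤ j → j < k → x i ≤ x j) {j : ℕ} (hj : j < k - 1) {a κ : ℝ}
    (ha : IsSlope C k j s a) : IsPath C k ε (chainPath C j a κ s x) := by
  refine isPath_of_step ?_ ?_ ?_
  · rw [chainPath_above (by omega), hs.top]
  · intro i hi
    rw [chainPath_above (by omega), hs.zero i hi]
  · intro i hi habove
    rcases lt_trichotomy i j with hij | hij | hij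
    · by_cases ht : κ * x j ≤ x i
      · rw [chainPath_tie hij ht]
        left
        have hnext : chainPath C j a κ s x (i + 1) = a := by
          by_cases h1 : i + 1 = j
          · rw [h1]; exact chainPath_self
          · refine chainPath_tie (by omega) ?_
            exact le_trans ht (hx i (i + 1) (Nat.le_succ i) (by omega))
        have hcap := cap_mem_wallSet hC (j := i) (k := k) (by omega) (chainPath C j a κ s x)
        rw [hnext] at hcap
        exact ⟨hcap, by rw [hnext]⟩
      · rw [chainPath_low hij ht]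
        exact Or.inr (lowest_generic hC hk hε hi habove)
    · subst hij
      rw [chainPath_self, isSlope_congr (s' := s) (fun l hl => chainPath_above hl)]
      exact ha
    · rw [chainPath_above hij, isSlope_congr (s' := s) (fun l hl => chainPath_above (by omega))]
      exact hs.slope i hi

/-- Second location bound: the point is below the bottom of the interval of any higher slope. -/
theorem loc2 (hC : C.Good) (hk : k ≤ C.d) {ε L : ℝ} (hε : |ε| = 1) (hL : 0 ≤ L)
    (hLam : Real.exp (-L) ≤ C.Lam / (4 * C.d)) {s x : ℕ → ℝ}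
    (h : Active C k ε L s x) {j : ℕ} (hj : j < k - 1) {a : ℝ} (ha : IsSlope C k j s a)
    (hlt : s j < a) : C.Lam / 2 * x j ≤ C.d * Real.exp (L * tau C k j s a) := by
  have hS0 : 0 < C.S 0 := lt_of_lt_of_le one_pos (hC.S_one 0)
  have hd : (1 : ℝ) ≤ C.d := hC.d_real
  have hdpos : (0 : ℝ) < C.d := by linarith
  have hLampos := hC.Lam_pos
  set κ : ℝ := C.Lam / (8 * C.d * C.S 0) with hκ
  have hκpos : 0 < κ := by positivity
  set s' := chainPath C j a κ s x with hs'
  have hpath : IsPath C k ε s' := chainPath_isPath hC hk hε h.path h.sorted hj ha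
  have hle := h.all s' hpath
  have hag : ∀ i, j < i → s' i = s i := fun i hi => chainPath_above hi
  have hsub := val_sub (C := C) hj (x := x) L hag
  have hxj : 0 < x j := h.pos j (by omega)
  set E : ℝ := Real.exp (L * tau C k j s a) with hE
  have hEpos : 0 < E := Real.exp_pos _
  -- main inequality
  have hmain : ∑ i ∈ range (j + 1), (s' i - s i) * x i ≤
      ∑ i ∈ range (j + 1), Real.exp (L * tau C k i s' (s' i)) := by
    have h0 : val C k L s' x - val C k L s x ≤ 0 := by rw [h.act]; linarith
    rw [hsub] at h0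
    have h1 : ∑ i ∈ range (j + 1), (Real.exp (L * tau C k i s' (s' i)) -
        Real.exp (L * tau C k i s (s i))) ≤ ∑ i ∈ range (j + 1), Real.exp (L * tau C k i s' (s' i)) := by
      refine sum_le_sum fun i _ => ?_
      have := Real.exp_pos (L * tau C k i s (s i))
      linarith
    linarith
  rw [sum_range_succ, sum_range_succ] at hmain
  -- the top term
  have hsj : s' j = a := chainPath_self
  have htauj : tau C k j s' a = tau C k j s a := tau_congr hag a
  have hgap : C.Lam ≤ a - s j :=
    slope_sep hC hk hε hj (h.path.above j) (h.path.slope j hj) ha hlt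
  -- lower terms
  have hterm1 : ∀ i ∈ range j, -(C.Lam / (4 * C.d) * x j) ≤ (s' i - s i) * x i := by
    intro i hi
    have hij : i < j := mem_range.1 hi
    have hxi := h.pos i (by omega)
    by_cases ht : κ * x j ≤ x i
    · have hsi : s' i = a := chainPath_tie hij ht
      have hmono : s i ≤ s j := h.path.mono hij.le (by omega)
      rw [hsi]
      have : 0 ≤ (a - s i) * x i := mul_nonneg (by linarith) hxi.le
      have h3 : 0 ≤ C.Lam / (4 * C.d) * x j := by positivity
      linarith
    · have hsi : s' i = -C.S i := chainPath_low hij ht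
      rw [not_le] at ht
      rw [hsi]
      have hbd := abs_le.1 (h.path.bound hC hk hε (l := i) (by omega))
      have hSi : C.S i ≤ C.S 0 := hC.S_anti (Nat.zero_le _) (by omega)
      have h3 : (C.S i + s i) * x i ≤ 2 * C.S 0 * (κ * x j) := by
        refine mul_le_mul (by linarith [hbd.2]) ht.le hxi.le (by positivity)
      have h4 : 2 * C.S 0 * (κ * x j) = C.Lam / (4 * C.d) * x j := by
        rw [hκ]; field_simp; ring
      nlinarith
  have hterm2 : ∀ i ∈ range j, Real.exp (L * tau C k i s' (s' i)) ≤ E + Real.exp (-L) * x j := by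
    intro i hi
    have hij : i < j := mem_range.1 hi
    have hik : i < k - 1 := by omega
    have hxi := h.pos i (by omega)
    have hep := Real.exp_pos (-L)
    by_cases ht : κ * x j ≤ x i
    · have hsi : s' i = a := chainPath_tie hij ht
      have hwall : a ∈ wallSet C k i s' := by
        have hnext : s' (i + 1) = a := by
          by_cases h1 : i + 1 = j
          · rw [h1]; exact hsj
          · exact chainPath_tie (by omega) (le_trans ht (h.sorted i (i + 1) (Nat.le_succ i) (by omega)))
        have hcap := cap_mem_wallSet hC (j := i) (k := k) (by omega) s'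
        rwa [hnext] at hcap
      have htaui : tau C k i s' a = a - marg C k i s' := by
        unfold tau; rw [if_pos hwall]
      have hcomp : tau C k i s' a ≤ tau C k j s a := by
        rw [htaui]
        by_cases hwj : a ∈ wallSet C k j s
        · have hwj' : s' j ∈ wallSet C k j s' := by
            rw [hsj, wallSet_congr hag]; exact hwj
          have hm : mult C k j s' = C.A j + 2 := by unfold mult; rw [if_pos hwj']
          have h1 := mult_scale_le (k := k) hC hij hj s'
          rw [hm] at h1
          have h2 := marg_ge (k := k) hC i s'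
          have h3 := scale_pos (k := k) hC j s'
          have h4 : marg C k j s = C.A j * scale C k j s' := by
            unfold marg; rw [scale_congr hag]
          have h5 : tau C k j s a = a - marg C k j s := by unfold tau; rw [if_pos hwj]
          rw [h5, h4]
          nlinarith
        · have h5 : tau C k j s a = a := by unfold tau; rw [if_neg hwj]
          rw [h5]
          have := marg_pos (k := k) hC i s'
          linarith
      rw [hsi]
      have h6 : Real.exp (L * tau C k i s' a) ≤ E :=
        Real.exp_le_exp.2 (mul_le_mul_of_nonneg_left hcomp hL)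
      have h7 : 0 ≤ Real.exp (-L) * x j := by positivity
      linarith
    · have hsi : s' i = -C.S i := chainPath_low hij ht
      have htaui : tau C k i s' (s' i) = -C.S i := by
        rw [hsi]; exact tau_lowest hC hk hε hik (hpath.above i)
      rw [htaui]
      have h1 := h.exp_low hL hik
      have h2 : Real.exp (-L) * x i ≤ Real.exp (-L) * x j :=
        mul_le_mul_of_nonneg_left (h.sorted i j hij.le (by omega)) hep.le
      linarith
  have hsum1 := sum_le_sum hterm1
  have hsum2 := sum_le_sum hterm2
  rw [sum_const, card_range, nsmul_eq_mul] at hsum1 hsum2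
  have hjd : (j : ℝ) + 1 ≤ C.d := by
    have : j + 1 ≤ C.d := by omega
    exact_mod_cast this
  have hjnn : (0 : ℝ) ≤ j := by positivity
  rw [hsj, htauj] at hmain
  have hterm3 : (j : ℝ) * (C.Lam / (4 * C.d) * x j) ≤ C.Lam / 4 * x j := by
    have : 0 ≤ C.Lam / (4 * C.d) * x j := by positivity
    calc (j : ℝ) * (C.Lam / (4 * C.d) * x j) ≤ C.d * (C.Lam / (4 * C.d) * x j) :=
          mul_le_mul_of_nonneg_right (by linarith) this
      _ = C.Lam / 4 * x j := by field_simp
  have hterm4 : (j : ℝ) * (Real.exp (-L) * x j) ≤ C.Lam / 4 * x j := by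
    have h0 : 0 ≤ Real.exp (-L) * x j := by positivity
    calc (j : ℝ) * (Real.exp (-L) * x j) ≤ C.d * (Real.exp (-L) * x j) :=
          mul_le_mul_of_nonneg_right (by linarith) h0
      _ ≤ C.d * (C.Lam / (4 * C.d) * x j) := by
          refine mul_le_mul_of_nonneg_left ?_ hdpos.le
          exact mul_le_mul_of_nonneg_right hLam hxj.le
      _ = C.Lam / 4 * x j := by field_simp
  have hterm5 : C.Lam * x j ≤ (a - s j) * x j := mul_le_mul_of_nonneg_right hgap hxj.le
  have hterm6 : (j : ℝ) * E + E ≤ C.d * E := by nlinarith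
  have hsum2' : ∑ i ∈ range j, Real.exp (L * tau C k i s' (s' i)) ≤
      (j : ℝ) * E + (j : ℝ) * (Real.exp (-L) * x j) := by
    calc _ ≤ (j : ℝ) * (E + Real.exp (-L) * x j) := hsum2
      _ = _ := by ring
  have hEq : Real.exp (L * tau C k j s a) = E := rfl
  rw [hEq] at hmain
  nlinarith

end Crest.Agent.S0122Lib
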