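-- S0122, geometry: ties path, position of an active point, and the sign lemma.
import Crest.Agent.S0122Lib.Loc

set_option autoImplicit false

namespace Crest.Agent.S0122Lib

open Finset

variable {C : TreeCst} {k : ℕ}

/-! ### the ties path -/

/-- All slopes equal to `ε`. -/
noncomputable def tiesPath (k : ℕ) (ε : ℝ) : ℕ → ℝ := fun i => if i < k then ε else 0

lemma tiesPath_isPath (hC : C.Good) (hk1 : 1 ≤ k) (ε : ℝ) : IsPath C k ε (tiesPath k ε) := by
  refine ⟨if_pos (by omega), fun i hi => ?_, fun i hi => if_neg (by omega)⟩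
  left
  have hcap := cap_mem_wallSet hC (j := i) (k := k) (by omega) (tiesPath k ε)
  have h1 : tiesPath k ε (i + 1) = ε := if_pos (by omega)
  have h2 : tiesPath k ε i = ε := if_pos (by omega)
  rw [h1] at hcap
  rw [h2, h1]
  exact ⟨hcap, le_rfl⟩

lemma val_ties (hC : C.Good) (ε L : ℝ) (x : ℕ → ℝ) :
    val C k L (tiesPath k ε) x = ε * ∑ i ∈ range k, x i -
      ∑ j ∈ range (k - 1), Real.exp (L * (ε - marg C k j (tiesPath k ε))) := by
  unfold val
  congr 1
  · rw [mul_sum]
    refine sum_congr rfl fun i hi => ?_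
    have : tiesPath k ε i = ε := if_pos (mem_range.1 hi)
    rw [this]
  · refine sum_congr rfl fun j hj => ?_
    have hj' := mem_range.1 hj
    have h2 : tiesPath k ε j = ε := if_pos (by omega)
    have h1 : tiesPath k ε (j + 1) = ε := if_pos (by omega)
    have hcap := cap_mem_wallSet hC (j := j) (k := k) (by omega) (tiesPath k ε)
    rw [h1] at hcap
    unfold tau
    rw [h2, if_pos hcap]

lemma ties_plus (hC : C.Good) (hk : k ≤ C.d) (hk1 : 1 ≤ k) {L : ℝ} (hL : 0 ≤ L) {x : ℕ → ℝ}
    (h : val C k L (tiesPath k 1) x ≤ 1 * Real.exp (1 * L)) :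
    ∑ i ∈ range k, x i ≤ C.d * Real.exp L := by
  rw [val_ties hC] at h
  have h1 : ∑ j ∈ range (k - 1), Real.exp (L * (1 - marg C k j (tiesPath k 1))) ≤
      ((k - 1 : ℕ) : ℝ) * Real.exp L := by
    have : ∀ j ∈ range (k - 1), Real.exp (L * (1 - marg C k j (tiesPath k 1))) ≤ Real.exp L := by
      intro j _
      apply Real.exp_le_exp.2
      have := marg_pos (k := k) hC j (tiesPath k 1)
      nlinarith
    have h2 := sum_le_sum this
    rwa [sum_const, card_range, nsmul_eq_mul] at h2
  have hk' : ((k - 1 : ℕ) : ℝ) + 1 ≤ C.d := by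
    have : k - 1 + 1 ≤ C.d := by omega
    exact_mod_cast this
  have hE := Real.exp_pos L
  simp only [one_mul] at h
  nlinarith

lemma ties_minus (hC : C.Good) (hk : k ≤ C.d) (hk1 : 1 ≤ k) {L : ℝ} (hL : 0 ≤ L)
    (hL2 : C.d * Real.exp (-(L * C.Lam)) ≤ 1 / 2) {x : ℕ → ℝ}
    (h : val C k L (tiesPath k (-1)) x ≤ -1 * Real.exp (-1 * L)) :
    Real.exp (-L) / 2 ≤ ∑ i ∈ range k, x i := by
  rw [val_ties hC] at h
  have hE := Real.exp_pos (-L)
  have hE2 := Real.exp_pos (-(L * C.Lam))
  have h1 : ∑ j ∈ range (k - 1), Real.exp (L * (-1 - marg C k j (tiesPath k (-1)))) ≤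
      ((k - 1 : ℕ) : ℝ) * (Real.exp (-L) * Real.exp (-(L * C.Lam))) := by
    have : ∀ j ∈ range (k - 1), Real.exp (L * (-1 - marg C k j (tiesPath k (-1)))) ≤
        Real.exp (-L) * Real.exp (-(L * C.Lam)) := by
      intro j _
      rw [← Real.exp_add]
      apply Real.exp_le_exp.2
      have := marg_ge_Lam (k := k) hC j (tiesPath k (-1))
      nlinarith
    have h2 := sum_le_sum this
    rwa [sum_const, card_range, nsmul_eq_mul] at h2
  have hk' : ((k - 1 : ℕ) : ℝ) ≤ C.d := by
    have : k - 1 ≤ C.d := by omega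
    exact_mod_cast this
  have h3 : ((k - 1 : ℕ) : ℝ) * (Real.exp (-L) * Real.exp (-(L * C.Lam))) ≤ Real.exp (-L) * (1 / 2) := by
    calc ((k - 1 : ℕ) : ℝ) * (Real.exp (-L) * Real.exp (-(L * C.Lam)))
        ≤ C.d * (Real.exp (-L) * Real.exp (-(L * C.Lam))) :=
          mul_le_mul_of_nonneg_right hk' (by positivity)
      _ = Real.exp (-L) * (C.d * Real.exp (-(L * C.Lam))) := by ring
      _ ≤ Real.exp (-L) * (1 / 2) := mul_le_mul_of_nonneg_left hL2 hE.le
  have h4 : Real.exp (-1 * L) = Real.exp (-L) := by congr 1; ring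
  rw [h4] at h
  linarith

/-! ### logarithmic forms -/

lemma log_le_add_log {x c t : ℝ} (hx : 0 < x) (hc : 0 < c) (h : x ≤ c * Real.exp t) :
    Real.log x ≤ t + Real.log c := by
  rw [Real.log_le_iff_le_exp hx, Real.exp_add, Real.exp_log hc]
  linarith

lemma sub_log_le_log {x c t : ℝ} (hx : 0 < x) (hc : 0 < c) (h : Real.exp t ≤ c * x) :
    t - Real.log c ≤ Real.log x := by
  rw [Real.le_log_iff_exp_le hx, Real.exp_sub, Real.exp_log hc, div_le_iff₀ hc]
  linarith

/-- The additive constant in the location of an active point. -/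
noncomputable def clog (C : TreeCst) : ℝ :=
  max (Real.log (2 * C.d)) (max (Real.log (C.d * (1 + 2 * C.S 0))) (Real.log (2 * C.d / C.Lam)))

lemma clog_nonneg (hC : C.Good) : 0 ≤ clog C := by
  have h1 := hC.d_real
  refine le_trans (Real.log_nonneg ?_) (le_max_left _ _)
  linarith

/-! ### position of the top coordinate -/

section active
variable {ε L : ℝ} {s x : ℕ → ℝ}

lemma sum_range_le_top (h1 : 1 ≤ k) (hx : ∀ i, i < k → 0 < x i)
    (hs : ∀ i j, i ≤ j → j < k → x i ≤ x j) (hd : k ≤ C.d) :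
    ∑ i ∈ range k, x i ≤ C.d * x (k - 1) := by
  have h2 : ∀ i ∈ range k, x i ≤ x (k - 1) := fun i hi =>
    hs i (k - 1) (by have := mem_range.1 hi; omega) (by omega)
  have h3 := sum_le_sum h2
  rw [sum_const, card_range, nsmul_eq_mul] at h3
  have h4 : (k : ℝ) ≤ C.d := by exact_mod_cast hd
  have h5 := hx (k - 1) (by omega)
  nlinarith

lemma top_le_sum_range (h1 : 1 ≤ k) (hx : ∀ i, i < k → 0 < x i) :
    x (k - 1) ≤ ∑ i ∈ range k, x i :=
  single_le_sum (f := x) (fun i hi => (hx i (mem_range.1 hi)).le) (mem_range.2 (by omega))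

theorem pos_top (hC : C.Good) (hk : k ≤ C.d) (hk1 : 1 ≤ k) (hε : ε = 1 ∨ ε = -1) (hL : 0 ≤ L)
    (hL2 : C.d * Real.exp (-(L * C.Lam)) ≤ 1 / 2) (h : Active C k ε L s x) :
    |Real.log (x (k - 1)) - L * s (k - 1)| ≤ clog C := by
  have hd := hC.d_real
  have hdpos : (0 : ℝ) < C.d := by linarith
  have h2d : (0 : ℝ) < 2 * C.d := by linarith
  have hxt := h.pos (k - 1) (by omega)
  have hlog : Real.log (2 * C.d) ≤ clog C := le_max_left _ _
  have hsum1 := top_le_sum_range hk1 h.pos
  have hsum2 := sum_range_le_top (C := C) hk1 h.pos h.sorted hk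
  have hpsum : ∀ j ∈ range (k - 1), 0 ≤ Real.exp (L * tau C k j s (s j)) :=
    fun j _ => (Real.exp_pos _).le
  have hnn := sum_nonneg hpsum
  have hact := h.act
  unfold val at hact
  rw [h.path.top]
  rcases hε with rfl | rfl
  · -- upper facet
    have hup := ties_plus hC hk hk1 hL (h.all _ (tiesPath_isPath hC hk1 1))
    have hE := Real.exp_pos L
    have h3 : ∑ i ∈ range k, s i * x i ≤ ∑ i ∈ range k, x i := by
      refine sum_le_sum fun i hi => ?_
      have hi' := mem_range.1 hi
      have h4 : s i ≤ 1 := by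
        have := h.path.mono (i := i) (l := k - 1) (by omega) (by omega)
        rwa [h.path.top] at this
      have := h.pos i hi'
      nlinarith
    simp only [one_mul] at hact
    have h5 : Real.exp L ≤ C.d * x (k - 1) := by linarith
    have h6 : Real.log (x (k - 1)) ≤ L + Real.log (2 * C.d) := by
      apply log_le_add_log hxt h2d
      nlinarith
    have h7 : L - Real.log (2 * C.d) ≤ Real.log (x (k - 1)) := by
      apply sub_log_le_log hxt h2d
      nlinarith
    rw [abs_le]
    constructor <;> linarith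
  · -- lower facet
    have hlow := ties_minus hC hk hk1 hL hL2 (h.all _ (tiesPath_isPath hC hk1 (-1)))
    have hE := Real.exp_pos (-L)
    have h3 : ∑ i ∈ range k, s i * x i ≤ -∑ i ∈ range k, x i := by
      rw [← sum_neg_distrib]
      refine sum_le_sum fun i hi => ?_
      have hi' := mem_range.1 hi
      have h4 : s i ≤ -1 := by
        have := h.path.mono (i := i) (l := k - 1) (by omega) (by omega)
        rwa [h.path.top] at this
      have := h.pos i hi'
      nlinarith
    have h4 : Real.exp (-1 * L) = Real.exp (-L) := by congr 1; ring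
    rw [h4] at hact
    have h5 : x (k - 1) ≤ Real.exp (-L) := by linarith
    have h6 : Real.log (x (k - 1)) ≤ -L + Real.log (2 * C.d) := by
      apply log_le_add_log hxt h2d
      nlinarith
    have h7 : -L - Real.log (2 * C.d) ≤ Real.log (x (k - 1)) := by
      apply sub_log_le_log hxt h2d
      nlinarith
    rw [abs_le]
    constructor <;> linarith

end active

/-! ### the next slope -/

lemma slope_of_grid (hC : C.Good) {j : ℕ} (hj : j < k - 1) {s : ℕ → ℝ} {p q : ℝ}
    (hq : ∃ m : ℕ, q = -C.S j + m * C.Lam) (hpq : p < q) (hpc : p < s (j + 1))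
    (hnear : ∀ ν ∈ wallSet C k j s, |q - ν| < marg C k j s → p < ν) :
    ∃ a, IsSlope C k j s a ∧ p < a ∧ tau C k j s a ≤ q := by
  have hcap := cap_mem_wallSet hC (j := j) (k := k) (by omega) s
  by_cases hqc : q ≤ s (j + 1)
  · by_cases hall : ∀ ν ∈ wallSet C k j s, ν ≤ s (j + 1) → marg C k j s ≤ |q - ν|
    · have hgen : IsGeneric C k j s q := ⟨hq, hqc, hall⟩
      refine ⟨q, Or.inr hgen, hpq, ?_⟩
      unfold tau
      rw [if_neg (generic_not_wall hC (by omega) hgen)]
    · push Not at hall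
      obtain ⟨ν, hν, hνc, hlt⟩ := hall
      refine ⟨ν, Or.inl ⟨hν, hνc⟩, hnear ν hν hlt, ?_⟩
      unfold tau
      rw [if_pos hν]
      have := (abs_lt.1 hlt).1
      linarith
  · refine ⟨s (j + 1), Or.inl ⟨hcap, le_rfl⟩, hpc, ?_⟩
    unfold tau
    rw [if_pos hcap]
    have := marg_pos (k := k) hC j s
    rw [not_le] at hqc
    linarith

lemma next_generic (hC : C.Good) {j : ℕ} (hj : j < k - 1) {s : ℕ → ℝ} {p : ℝ}
    (hp : IsGeneric C k j s p) (hpc : p < s (j + 1)) :
    ∃ a, IsSlope C k j s a ∧ p < a ∧ tau C k j s a ≤ p + C.Lam := by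
  obtain ⟨⟨m, hm⟩, -, -⟩ := id hp
  have hLam := hC.Lam_pos
  refine slope_of_grid hC hj ⟨m + 1, ?_⟩ (by linarith) hpc ?_
  · rw [hm]; push_cast; ring
  · intro ν hν hlt
    by_contra hcon
    rw [not_lt] at hcon
    have h1 := generic_dist hC (by omega) hp hν
    rw [abs_of_nonneg (by linarith)] at h1
    have h2 := (abs_lt.1 hlt).2
    linarith

lemma next_wall (hC : C.Good) {j : ℕ} (hj : j < k - 1) {s : ℕ → ℝ} {p : ℝ}
    (hp0 : -C.S j ≤ p) (hpc : p < s (j + 1)) :
    ∃ a, IsSlope C k j s a ∧ p < a ∧ tau C k j s a ≤ p + marg C k j s + C.Lam := by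
  have hLam := hC.Lam_pos
  have hm := marg_pos (k := k) hC j s
  set t : ℝ := p + marg C k j s with ht
  have h0 : 0 ≤ (t + C.S j) / C.Lam := div_nonneg (by linarith) hLam.le
  set m : ℕ := ⌈(t + C.S j) / C.Lam⌉₊ with hmdef
  have h1 : (t + C.S j) / C.Lam ≤ m := Nat.le_ceil _
  have h2 : (m : ℝ) < (t + C.S j) / C.Lam + 1 := Nat.ceil_lt_add_one h0
  rw [div_le_iff₀ hLam] at h1
  have h3 : (m : ℝ) * C.Lam < t + C.S j + C.Lam := by
    have := mul_lt_mul_of_pos_right h2 hLam
    rw [add_mul, div_mul_cancel₀ _ hLam.ne', one_mul] at this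
    exact this
  obtain ⟨a, ha1, ha2, ha3⟩ := slope_of_grid (C := C) (k := k) hC hj (s := s) (p := p)
    (q := -C.S j + m * C.Lam) ⟨m, rfl⟩ (by linarith) hpc (by
      intro ν _ hlt
      have := (abs_lt.1 hlt).2
      linarith)
  exact ⟨a, ha1, ha2, by linarith⟩

/-! ### position of the lower coordinates -/

section active
variable {ε L : ℝ} {s x : ℕ → ℝ}

/-- Conditions on `L` for the location lemmas. -/
structure BigL (C : TreeCst) (L : ℝ) : Prop where
  nonneg : 0 ≤ L
  e1 : Real.exp (-L) ≤ C.Lam / (4 * C.d)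
  e2 : C.d * Real.exp (-(L * C.Lam)) ≤ 1 / 2

lemma scale_le_mult_scale (hC : C.Good) (j : ℕ) (s : ℕ → ℝ) :
    scale C k j s ≤ mult C k j s * scale C k j s := by
  have := mult_one_le (k := k) hC j s
  have := scale_pos (k := k) hC j s
  nlinarith

theorem pos_lower (hC : C.Good) (hk : k ≤ C.d) (hε : |ε| = 1) (hL : 0 ≤ L)
    (h : Active C k ε L s x) {j : ℕ} (hj : j < k - 1) :
    L * (s j - mult C k j s * scale C k j s) - clog C ≤ Real.log (x j) := by
  have hd := hC.d_real
  have hS0 : (1 : ℝ) ≤ C.S 0 := hC.S_one 0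
  have hcpos : (0 : ℝ) < C.d * (1 + 2 * C.S 0) := by positivity
  have h1 := sub_log_le_log (h.pos j (by omega)) hcpos (loc1 hC hk hε hL h hj)
  have h2 : Real.log (C.d * (1 + 2 * C.S 0)) ≤ clog C :=
    le_trans (le_max_left _ _) (le_max_right _ _)
  have h3 : s j - mult C k j s * scale C k j s ≤ tau C k j s (s j) := by
    unfold tau mult
    have hsc := scale_pos (k := k) hC j s
    by_cases hw : s j ∈ wallSet C k j s
    · rw [if_pos hw, if_pos hw]
      unfold marg
      nlinarith
    · rw [if_neg hw, if_neg hw]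
      linarith
  have h4 := mul_le_mul_of_nonneg_left h3 hL
  linarith

theorem pos_upper (hC : C.Good) (hk : k ≤ C.d) (hk1 : 1 ≤ k) (hε : ε = 1 ∨ ε = -1)
    (hL : BigL C L) (h : Active C k ε L s x) :
    ∀ n j, j + n = k - 1 → j < k - 1 →
      Real.log (x j) ≤ L * (s j + mult C k j s * scale C k j s) + clog C := by
  have hε' : |ε| = 1 := by rcases hε with rfl | rfl <;> simp
  have hd := hC.d_real
  have hdpos : (0 : ℝ) < C.d := by linarith
  have hLampos := hC.Lam_pos
  have hcpos : (0 : ℝ) < 2 * C.d / C.Lam := by positivity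
  have hcl : Real.log (2 * C.d / C.Lam) ≤ clog C :=
    le_trans (le_max_right _ _) (le_max_right _ _)
  intro n
  induction n using Nat.strong_induction_on with
  | _ n ih =>
    intro j hjn hj
    have hxj := h.pos j (by omega)
    have hsl := h.path.slope j hj
    have hsc := scale_pos (k := k) hC j s
    have hL0 := hL.nonneg
    -- from a higher slope to the bound
    have hfrom : ∀ a, IsSlope C k j s a → s j < a → ∀ B, tau C k j s a ≤ s j + B →
        B ≤ mult C k j s * scale C k j s →
        Real.log (x j) ≤ L * (s j + mult C k j s * scale C k j s) + clog C := by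
      intro a ha hlt B hB hB2
      have h1 := loc2 hC hk hε' hL0 hL.e1 h hj ha hlt
      have h2 : x j ≤ 2 * C.d / C.Lam * Real.exp (L * tau C k j s a) := by
        have : 2 * C.d / C.Lam * Real.exp (L * tau C k j s a) =
            (C.d * Real.exp (L * tau C k j s a)) / (C.Lam / 2) := by
          field_simp
        rw [this, le_div_iff₀ (by positivity)]
        linarith
      have h3 := log_le_add_log hxj hcpos h2
      have h4 : L * tau C k j s a ≤ L * (s j + mult C k j s * scale C k j s) :=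
        mul_le_mul_of_nonneg_left (by linarith) hL0
      linarith
    rcases lt_or_eq_of_le (isSlope_le hsl) with hlt | heq
    · by_cases hw : s j ∈ wallSet C k j s
      · have hm : mult C k j s = C.A j + 2 := by unfold mult; rw [if_pos hw]
        have hbd := slope_bound hC hk hε' hj (h.path.above j) hsl
        obtain ⟨a, ha1, ha2, ha3⟩ := next_wall (C := C) hC hj (abs_le.1 hbd).1 hlt
        refine hfrom a ha1 ha2 (marg C k j s + C.Lam) (by linarith) ?_
        rw [hm]
        unfold marg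
        have := scale_ge_Lam (k := k) hC j s
        nlinarith
      · have hm : mult C k j s = 1 := by unfold mult; rw [if_neg hw]
        have hgen : IsGeneric C k j s (s j) := by
          rcases hsl with ⟨h', -⟩ | h'
          · exact absurd h' hw
          · exact h'
        obtain ⟨a, ha1, ha2, ha3⟩ := next_generic hC hj hgen hlt
        refine hfrom a ha1 ha2 C.Lam ha3 ?_
        rw [hm, one_mul]
        exact scale_ge_Lam hC j s
    · -- tie with the next level
      have hmono : Real.log (x j) ≤ Real.log (x (j + 1)) :=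
        Real.log_le_log hxj (h.sorted j (j + 1) (Nat.le_succ j) (by omega))
      have hsm := scale_le_mult_scale (k := k) hC j s
      by_cases hnext : j + 1 = k - 1
      · have htop := (abs_le.1 (pos_top hC hk hk1 hε hL0 hL.e2 h)).2
        rw [← hnext] at htop
        rw [heq]
        have : 0 ≤ L * (mult C k j s * scale C k j s) := by
          apply mul_nonneg hL0
          linarith
        nlinarith
      · have hih := ih (k - 1 - (j + 1)) (by omega) (j + 1) (by omega) (by omega)
        have h1 := mult_scale_le (k := k) hC (j := j) (i := j + 1) (Nat.lt_succ_self j) (by omega) s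
        have h2 : L * (s (j + 1) + mult C k (j + 1) s * scale C k (j + 1) s) ≤
            L * (s j + mult C k j s * scale C k j s) := by
          apply mul_le_mul_of_nonneg_left _ hL0
          rw [heq]
          linarith
        linarith

theorem pos_abs (hC : C.Good) (hk : k ≤ C.d) (hk1 : 1 ≤ k) (hε : ε = 1 ∨ ε = -1)
    (hL : BigL C L) (h : Active C k ε L s x) {j : ℕ} (hj : j < k - 1) :
    |Real.log (x j) - L * s j| ≤ L * (mult C k j s * scale C k j s) + clog C := by
  have hε' : |ε| = 1 := by rcases hε with rfl | rfl <;> simp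
  have h1 := pos_lower hC hk hε' hL.nonneg h hj
  have h2 := pos_upper hC hk hk1 hε hL h (k - 1 - j) j (by omega) hj
  rw [abs_le]
  constructor <;> nlinarith

theorem pos_above (hC : C.Good) (hk : k ≤ C.d) (hk1 : 1 ≤ k) (hε : ε = 1 ∨ ε = -1)
    (hL : BigL C L) (h : Active C k ε L s x) {j l : ℕ} (hjl : j < l) (hl : l < k) :
    |Real.log (x l) - L * s l| ≤ L * scale C k j s + clog C := by
  have hL0 := hL.nonneg
  have hsc := scale_pos (k := k) hC j s
  by_cases htop : l = k - 1
  · rw [htop]
    have := pos_top hC hk hk1 hε hL0 hL.e2 h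
    have h2 : 0 ≤ L * scale C k j s := mul_nonneg hL0 hsc.le
    linarith
  · have hl' : l < k - 1 := by omega
    have h1 := pos_abs hC hk hk1 hε hL h hl'
    have h2 := mult_scale_le (k := k) hC hjl hl' s
    have h3 := mul_le_mul_of_nonneg_left h2 hL0
    linarith

theorem star_core (hC : C.Good) (hk : k ≤ C.d) (hk1 : 1 ≤ k) (hε : ε = 1 ∨ ε = -1)
    (hL : BigL C L) (h : Active C k ε L s x) {j : ℕ} (hj : j < k - 1) {w : ℕ → ℤ} (hw : IsW C j w)
    (hδ : s j ≠ nu k j w s) :
    |Real.log (x j) + ∑ l ∈ Ioo j k, ((w l : ℝ) / (w j : ℝ)) * Real.log (x l) -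
        L * (s j - nu k j w s)| ≤
      L * |s j - nu k j w s| - L * C.Lam + clog C * (1 + C.H j * C.d) := by
  have hε' : |ε| = 1 := by rcases hε with rfl | rfl <;> simp
  have hL0 := hL.nonneg
  have hwj : (w j : ℝ) ≠ 0 := by exact_mod_cast hw.1
  have hwj1 : 1 ≤ |(w j : ℝ)| := one_le_abs_int hw.1
  have hcl := clog_nonneg hC
  have hsc := scale_pos (k := k) hC j s
  have hHpos := hC.H_pos j
  have hid : 0 ≤ C.H j * C.d := hC.Hd_nonneg j
  set δ := s j - nu k j w s with hδdef
  have hid1 : Real.log (x j) + ∑ l ∈ Ioo j k, ((w l : ℝ) / (w j : ℝ)) * Real.log (x l) - L * δ =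
      (Real.log (x j) - L * s j) +
        ∑ l ∈ Ioo j k, ((w l : ℝ) / (w j : ℝ)) * (Real.log (x l) - L * s l) := by
    have h1 : ∑ l ∈ Ioo j k, ((w l : ℝ) / (w j : ℝ)) * (Real.log (x l) - L * s l) =
        ∑ l ∈ Ioo j k, ((w l : ℝ) / (w j : ℝ)) * Real.log (x l) -
          L * ((∑ l ∈ Ioo j k, (w l : ℝ) * s l) / (w j : ℝ)) := by
      rw [sum_div, mul_sum, ← sum_sub_distrib]
      refine sum_congr rfl fun l _ => ?_
      field_simp
    rw [h1, hδdef]
    unfold nu
    have h2 : -(∑ i ∈ Ioo j k, (w i : ℝ) * s i) / (w j : ℝ) =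
        -((∑ i ∈ Ioo j k, (w i : ℝ) * s i) / (w j : ℝ)) := by ring
    rw [h2]
    ring
  have hterm : ∀ l ∈ Ioo j k, |((w l : ℝ) / (w j : ℝ)) * (Real.log (x l) - L * s l)| ≤
      C.H j * (L * scale C k j s + clog C) := by
    intro l hl
    rw [abs_mul]
    have h1 := pos_above hC hk hk1 hε hL h (mem_Ioo.1 hl).1 (mem_Ioo.1 hl).2
    have h2 : |(w l : ℝ) / (w j : ℝ)| ≤ C.H j := by
      rw [abs_div, div_le_iff₀ (by linarith)]
      have := hw.2 l
      nlinarith
    exact mul_le_mul h2 h1 (abs_nonneg _) hHpos.le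
  have hsumabs : |∑ l ∈ Ioo j k, ((w l : ℝ) / (w j : ℝ)) * (Real.log (x l) - L * s l)| ≤
      C.d * (C.H j * (L * scale C k j s + clog C)) := by
    calc _ ≤ ∑ l ∈ Ioo j k, |((w l : ℝ) / (w j : ℝ)) * (Real.log (x l) - L * s l)| :=
          abs_sum_le_sum_abs _ _
      _ ≤ ∑ _l ∈ Ioo j k, C.H j * (L * scale C k j s + clog C) := sum_le_sum hterm
      _ = ((Ioo j k).card : ℝ) * (C.H j * (L * scale C k j s + clog C)) := by
          rw [sum_const, nsmul_eq_mul]
      _ ≤ C.d * (C.H j * (L * scale C k j s + clog C)) := by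
          refine mul_le_mul_of_nonneg_right (card_Ioo_le hk j) ?_
          have : 0 ≤ L * scale C k j s := mul_nonneg hL0 hsc.le
          positivity
  have hfirst := pos_abs hC hk hk1 hε hL h hj
  -- the separation
  have hsep : mult C k j s * scale C k j s + C.H j * C.d * scale C k j s + C.Lam ≤ |δ| := by
    have hnu : nu k j w s ∈ wallSet C k j s := ⟨w, hw, rfl⟩
    have hLs := scale_ge_Lam (k := k) hC j s
    by_cases hwall : s j ∈ wallSet C k j s
    · have hm : mult C k j s = C.A j + 2 := by unfold mult; rw [if_pos hwall]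
      have h1 := sep' hC hk hε' hj (h.path.above j) hwall hnu hδ
      have h2 := hC.K_ge j
      rw [hm]
      nlinarith
    · have hm : mult C k j s = 1 := by unfold mult; rw [if_neg hwall]
      have hgen : IsGeneric C k j s (s j) := by
        rcases h.path.slope j hj with ⟨h', -⟩ | h'
        · exact absurd h' hwall
        · exact h'
      have h1 := generic_dist hC (by omega) hgen hnu
      have h2 := hC.A_ge j
      rw [hm]
      unfold marg at h1
      nlinarith
  have hsep' := mul_le_mul_of_nonneg_left hsep hL0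
  rw [hid1]
  calc _ ≤ |Real.log (x j) - L * s j| +
        |∑ l ∈ Ioo j k, ((w l : ℝ) / (w j : ℝ)) * (Real.log (x l) - L * s l)| := abs_add_le _ _
    _ ≤ (L * (mult C k j s * scale C k j s) + clog C) +
        C.d * (C.H j * (L * scale C k j s + clog C)) := add_le_add hfirst hsumabs
    _ ≤ _ := by nlinarith

/-- The constant in the sign lemma. -/
noncomputable def cstar (C : TreeCst) : ℝ := clog C * (1 + C.H C.d * C.d)

lemma TreeCst.Good.Lam_le_one (hC : C.Good) : C.Lam ≤ 1 := by
  have h1 := hC.Lam_P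
  have h2 := hC.P_one C.d
  have h3 := hC.Lam_pos
  nlinarith

lemma TreeCst.Good.H_mono (hC : C.Good) {j i : ℕ} (h : j ≤ i) : C.H j ≤ C.H i := by
  rcases Nat.eq_or_lt_of_le h with rfl | hlt
  · exact le_rfl
  · have h1 := hC.H_step j i hlt
    have h2 := hC.H_one j
    nlinarith

/-- **The sign lemma** in the sorted frame of a type. -/
theorem tree_star (hC : C.Good) (hk : k ≤ C.d) (hk1 : 1 ≤ k) (hε : ε = 1 ∨ ε = -1)
    (hL : BigL C L) (hL2 : cstar C ≤ L * C.Lam) (hL3 : clog C ≤ L) (h : Active C k ε L s x)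
    (w : ℕ → ℤ) (hw : ∀ i, |(w i : ℝ)| ≤ C.H 0)
    (hpos : 0 < ∑ i ∈ range k, (w i : ℝ) * s i) :
    L * C.Lam - cstar C ≤ ∑ i ∈ range k, (w i : ℝ) * Real.log (x i) := by
  have hε' : |ε| = 1 := by rcases hε with rfl | rfl <;> simp
  have hL0 := hL.nonneg
  have hcl := clog_nonneg hC
  have hex : ∃ i, i < k ∧ w i ≠ 0 := by
    by_contra hcon
    push Not at hcon
    have : ∑ i ∈ range k, (w i : ℝ) * s i = 0 := by
      refine sum_eq_zero fun i hi => ?_
      rw [hcon i (mem_range.1 hi)]
      simp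
    linarith
  classical
  set j := Nat.find hex with hjdef
  obtain ⟨hjk, hwj⟩ : j < k ∧ w j ≠ 0 := Nat.find_spec hex
  have hmin : ∀ i, i < j → w i = 0 := by
    intro i hi
    by_contra hne
    exact Nat.find_min hex hi ⟨by omega, hne⟩
  have hsplit : ∀ z : ℕ → ℝ, ∑ i ∈ range k, (w i : ℝ) * z i =
      (w j : ℝ) * z j + ∑ i ∈ Ioo j k, (w i : ℝ) * z i := by
    intro z
    rw [← sum_range_add_sum_Ico _ hjk.le, ← Ioo_insert_left hjk, sum_insert (by simp)]
    have : ∑ i ∈ range j, (w i : ℝ) * z i = 0 := by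
      refine sum_eq_zero fun i hi => ?_
      rw [hmin i (mem_range.1 hi)]
      simp
    rw [this, zero_add]
  have hwj1 : 1 ≤ |(w j : ℝ)| := one_le_abs_int hwj
  have hwjne : (w j : ℝ) ≠ 0 := by exact_mod_cast hwj
  rw [hsplit] at hpos ⊢
  have hHd : 0 ≤ C.H C.d * C.d := hC.Hd_nonneg _
  have hcstar : clog C ≤ cstar C := by
    unfold cstar
    nlinarith
  by_cases htop : j = k - 1
  · -- top level
    have hI : Ioo j k = ∅ := by
      ext l
      simp only [mem_Ioo, notMem_empty, iff_false]
      omega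
    rw [hI, sum_empty, add_zero] at hpos ⊢
    have hp := pos_top hC hk hk1 hε hL0 hL.e2 h
    rw [← htop] at hp
    have hsj : |s j| = 1 := by rw [htop, h.path.top]; exact hε'
    have hwsj : (w j : ℝ) * s j = |(w j : ℝ)| := by
      have : |(w j : ℝ) * s j| = |(w j : ℝ)| := by rw [abs_mul, hsj, mul_one]
      rw [← this, abs_of_pos hpos]
    have h1 : (w j : ℝ) * Real.log (x j) =
        L * ((w j : ℝ) * s j) + (w j : ℝ) * (Real.log (x j) - L * s j) := by ring
    have h2 : -( |(w j : ℝ)| * clog C) ≤ (w j : ℝ) * (Real.log (x j) - L * s j) := by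
      have : |(w j : ℝ) * (Real.log (x j) - L * s j)| ≤ |(w j : ℝ)| * clog C := by
        rw [abs_mul]
        exact mul_le_mul_of_nonneg_left hp (abs_nonneg _)
      exact (abs_le.1 this).1
    rw [h1, hwsj]
    have h3 := hC.Lam_le_one
    nlinarith
  · -- lower levels
    have hj' : j < k - 1 := by omega
    have hIsW : IsW C j w := ⟨hwj, fun i => le_trans (hw i) (hC.H_mono (Nat.zero_le _))⟩
    have hsum : (w j : ℝ) * s j + ∑ i ∈ Ioo j k, (w i : ℝ) * s i =
        (w j : ℝ) * (s j - nu k j w s) := by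
      unfold nu
      field_simp
      ring
    rw [hsum] at hpos
    have hδne : s j ≠ nu k j w s := by
      intro h0
      rw [h0, sub_self, mul_zero] at hpos
      exact lt_irrefl _ hpos
    have hcore := star_core hC hk hk1 hε hL h hj' hIsW hδne
    set Q : ℝ := Real.log (x j) + ∑ l ∈ Ioo j k, ((w l : ℝ) / (w j : ℝ)) * Real.log (x l) with hQ
    set δ : ℝ := s j - nu k j w s with hδ
    have hsumy : (w j : ℝ) * Real.log (x j) + ∑ i ∈ Ioo j k, (w i : ℝ) * Real.log (x i) =
        (w j : ℝ) * Q := by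
      rw [hQ, mul_add, mul_sum]
      congr 1
      refine sum_congr rfl fun l _ => ?_
      field_simp
    rw [hsumy]
    have hwδ : (w j : ℝ) * δ = |(w j : ℝ)| * |δ| := by
      rw [← abs_mul, abs_of_pos hpos]
    have h1 : (w j : ℝ) * Q = L * ((w j : ℝ) * δ) + (w j : ℝ) * (Q - L * δ) := by ring
    have hHj : C.H j ≤ C.H C.d := hC.H_mono (by omega)
    have hcj : clog C * (1 + C.H j * C.d) ≤ cstar C := by
      unfold cstar
      refine mul_le_mul_of_nonneg_left ?_ hcl
      have : (0 : ℝ) ≤ C.d := by positivity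
      nlinarith
    have h2 : -(|(w j : ℝ)| * (L * |δ| - L * C.Lam + clog C * (1 + C.H j * C.d))) ≤
        (w j : ℝ) * (Q - L * δ) := by
      have : |(w j : ℝ) * (Q - L * δ)| ≤
          |(w j : ℝ)| * (L * |δ| - L * C.Lam + clog C * (1 + C.H j * C.d)) := by
        rw [abs_mul]
        exact mul_le_mul_of_nonneg_left hcore (abs_nonneg _)
      exact (abs_le.1 this).1
    rw [h1, hwδ]
    have h3 : 0 ≤ L * C.Lam - cstar C := by linarith
    nlinarith

end active

end Crest.Agent.S0122Lib
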