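-- S0122, geometry: existence of the constants; finiteness of the set of paths.
import Crest.Agent.S0122Lib.Star

set_option autoImplicit false

namespace Crest.Agent.S0122Lib

open Finset

/-- The bounds for integer vectors. -/
noncomputable def cH (H₀ : ℝ) : ℕ → ℝ
  | 0 => max H₀ 1
  | n + 1 => 2 * cH H₀ n ^ 2

lemma cH_one (H₀ : ℝ) (n : ℕ) : 1 ≤ cH H₀ n := by
  induction n with
  | zero => exact le_max_right _ _
  | succ n ih =>
    simp only [cH]
    nlinarith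

lemma cH_succ (H₀ : ℝ) (n : ℕ) : cH H₀ n ≤ cH H₀ (n + 1) := by
  have := cH_one H₀ n
  simp only [cH]
  nlinarith

lemma cH_mono (H₀ : ℝ) {m n : ℕ} (h : m ≤ n) : cH H₀ m ≤ cH H₀ n := by
  induction n, h using Nat.le_induction with
  | base => exact le_rfl
  | succ n _ ih => exact le_trans ih (cH_succ H₀ n)

lemma cH_step (H₀ : ℝ) {j i : ℕ} (h : j < i) : 2 * cH H₀ j ^ 2 ≤ cH H₀ i :=
  cH_mono H₀ (n := i) (m := j + 1) h

/-- The level bound. -/
noncomputable def cTh (d : ℕ) (H₀ : ℝ) (n : ℕ) : ℝ := cH H₀ n * d + cH H₀ n + 3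

/-- State of the recursion: `(P n, K' n)`. -/
noncomputable def cState (d : ℕ) (H₀ : ℝ) : ℕ → ℝ × ℝ
  | 0 => (1, 1)
  | n + 1 =>
    let P := (cState d H₀ n).1
    let K' := (cState d H₀ n).2
    let A := cTh d H₀ n * K' * P + cTh d H₀ n
    (P * (A + 2), cTh d H₀ n * K' * ((A + 2) * P) + A + cTh d H₀ n)

/-- `P`. -/
noncomputable def cP (d : ℕ) (H₀ : ℝ) (n : ℕ) : ℝ := (cState d H₀ n).1
/-- `K'`. -/
noncomputable def cK' (d : ℕ) (H₀ : ℝ) (n : ℕ) : ℝ := (cState d H₀ n).2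
/-- `A`. -/
noncomputable def cA (d : ℕ) (H₀ : ℝ) (n : ℕ) : ℝ :=
  cTh d H₀ n * cK' d H₀ n * cP d H₀ n + cTh d H₀ n
/-- `K`. -/
noncomputable def cK (d : ℕ) (H₀ : ℝ) (n : ℕ) : ℝ := cK' d H₀ (n + 1)

lemma cP_succ (d : ℕ) (H₀ : ℝ) (n : ℕ) : cP d H₀ (n + 1) = cP d H₀ n * (cA d H₀ n + 2) := rfl

lemma cK_eq (d : ℕ) (H₀ : ℝ) (n : ℕ) : cK d H₀ n =
    cTh d H₀ n * cK' d H₀ n * ((cA d H₀ n + 2) * cP d H₀ n) + cA d H₀ n + cTh d H₀ n := rfl

lemma cTh_ge (d : ℕ) (H₀ : ℝ) (n : ℕ) : cH H₀ n * d + cH H₀ n + 3 ≤ cTh d H₀ n := le_rfl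

lemma cTh_pos (d : ℕ) (H₀ : ℝ) (n : ℕ) : 3 ≤ cTh d H₀ n := by
  unfold cTh
  have := cH_one H₀ n
  have : 0 ≤ cH H₀ n * d := by positivity
  linarith

lemma cP_K'_one (d : ℕ) (H₀ : ℝ) (n : ℕ) : 1 ≤ cP d H₀ n ∧ 1 ≤ cK' d H₀ n := by
  induction n with
  | zero => exact ⟨le_of_eq rfl, le_of_eq rfl⟩
  | succ n ih =>
    obtain ⟨h1, h2⟩ := ih
    have hT := cTh_pos d H₀ n
    have hA : 0 ≤ cA d H₀ n := by
      unfold cA
      have : 0 ≤ cTh d H₀ n * cK' d H₀ n * cP d H₀ n := by positivity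
      linarith
    constructor
    · rw [cP_succ]
      nlinarith
    · have : cK' d H₀ (n + 1) = cK d H₀ n := rfl
      rw [this, cK_eq]
      have : 0 ≤ cTh d H₀ n * cK' d H₀ n * ((cA d H₀ n + 2) * cP d H₀ n) := by positivity
      linarith

lemma cA_ge (d : ℕ) (H₀ : ℝ) (n : ℕ) : cTh d H₀ n ≤ cA d H₀ n := by
  unfold cA
  have hT := cTh_pos d H₀ n
  obtain ⟨h1, h2⟩ := cP_K'_one d H₀ n
  have : 0 ≤ cTh d H₀ n * cK' d H₀ n * cP d H₀ n := by positivity
  linarith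

lemma cK'_succ (d : ℕ) (H₀ : ℝ) (n : ℕ) : cK' d H₀ n ≤ cK' d H₀ (n + 1) := by
  have : cK' d H₀ (n + 1) = cK d H₀ n := rfl
  rw [this, cK_eq]
  have hT := cTh_pos d H₀ n
  have hA := cA_ge d H₀ n
  obtain ⟨h1, h2⟩ := cP_K'_one d H₀ n
  have h3 : 1 ≤ (cA d H₀ n + 2) * cP d H₀ n := by nlinarith
  have h4 : cK' d H₀ n ≤ cTh d H₀ n * cK' d H₀ n * ((cA d H₀ n + 2) * cP d H₀ n) := by
    have : 1 ≤ cTh d H₀ n * ((cA d H₀ n + 2) * cP d H₀ n) := by nlinarith
    nlinarith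
  linarith

lemma cK'_mono (d : ℕ) (H₀ : ℝ) {m n : ℕ} (h : m ≤ n) : cK' d H₀ m ≤ cK' d H₀ n := by
  induction n, h using Nat.le_induction with
  | base => exact le_rfl
  | succ n _ ih => exact le_trans ih (cK'_succ d H₀ n)

/-- `Lam`. -/
noncomputable def cLam (d : ℕ) (H₀ : ℝ) : ℝ :=
  1 / (cH H₀ d ^ 2 * cK d H₀ d * cP d H₀ d)

lemma cK_one (d : ℕ) (H₀ : ℝ) (n : ℕ) : 1 ≤ cK d H₀ n := (cP_K'_one d H₀ (n + 1)).2

lemma cLam_pos (d : ℕ) (H₀ : ℝ) : 0 < cLam d H₀ := by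
  unfold cLam
  have h1 := cH_one H₀ d
  have h2 := cK_one d H₀ d
  have h3 := (cP_K'_one d H₀ d).1
  positivity

/-- Ratio between scales of consecutive types. -/
noncomputable def cCs (d : ℕ) (H₀ : ℝ) : ℝ := (cH H₀ 0 * d + 1) / cLam d H₀ + 1

lemma cCs_one (d : ℕ) (H₀ : ℝ) : 1 ≤ cCs d H₀ := by
  unfold cCs
  have h1 := cH_one H₀ 0
  have h2 := cLam_pos d H₀
  have : 0 ≤ (cH H₀ 0 * d + 1) / cLam d H₀ := by positivity
  linarith

lemma cCs_mul (d : ℕ) (H₀ : ℝ) : cH H₀ 0 * d + 1 ≤ cCs d H₀ * cLam d H₀ := by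
  unfold cCs
  have h2 := cLam_pos d H₀
  rw [add_mul, div_mul_cancel₀ _ h2.ne']
  linarith

/-- The lowest slopes. -/
noncomputable def cS (d : ℕ) (H₀ : ℝ) (j : ℕ) : ℝ :=
  (cCs d H₀ ^ d + 2) * (cH H₀ d * d + 1) ^ (d - j)

lemma cS_ge (d : ℕ) (H₀ : ℝ) (j : ℕ) : cCs d H₀ ^ d + 2 ≤ cS d H₀ j := by
  unfold cS
  have h1 := cCs_one d H₀
  have h2 := cH_one H₀ d
  have h3 : 1 ≤ cH H₀ d * d + 1 := by
    have : 0 ≤ cH H₀ d * d := by positivity
    linarith
  have h4 : 1 ≤ (cH H₀ d * d + 1) ^ (d - j) := one_le_pow₀ h3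
  have h5 : 0 ≤ cCs d H₀ ^ d + 2 := by positivity
  nlinarith

/-- The constants. -/
noncomputable def mkCst (d : ℕ) (H₀ : ℝ) : TreeCst where
  d := d
  H := cH H₀
  A := cA d H₀
  K := cK d H₀
  P := cP d H₀
  S := cS d H₀
  Lam := cLam d H₀

lemma mkCst_good {d : ℕ} (hd : 1 ≤ d) (H₀ : ℝ) : (mkCst d H₀).Good where
  d_pos := hd
  Lam_pos := cLam_pos d H₀
  H_one := cH_one H₀
  H_step := fun _ _ h => cH_step H₀ h
  A_ge := by
    intro j
    show cH H₀ j * d + 2 ≤ cA d H₀ j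
    have h1 := cA_ge d H₀ j
    have h2 := cH_one H₀ j
    unfold cTh at h1
    linarith
  K_ge := by
    intro j
    show cA d H₀ j + cH H₀ j * d + 3 ≤ cK d H₀ j
    rw [cK_eq]
    have h2 := cH_one H₀ j
    have hT := cTh_pos d H₀ j
    obtain ⟨h3, h4⟩ := cP_K'_one d H₀ j
    have hA := cA_ge d H₀ j
    have : 0 ≤ cTh d H₀ j * cK' d H₀ j * ((cA d H₀ j + 2) * cP d H₀ j) := by
      have : 0 ≤ cA d H₀ j + 2 := by linarith
      positivity
    unfold cTh at this ⊢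
    linarith
  AP := by
    intro j i hji _
    show cH H₀ j ^ 2 * cK d H₀ j * cP d H₀ i ≤ cA d H₀ i
    have h1 : cK d H₀ j ≤ cK' d H₀ i := cK'_mono d H₀ hji
    have h2 : cH H₀ j ^ 2 ≤ cTh d H₀ i := by
      have h3 := cH_step H₀ hji
      have h4 := cH_one H₀ i
      have h5 : 0 ≤ cH H₀ i * d := by positivity
      have h6 : 0 ≤ cH H₀ j ^ 2 := by positivity
      unfold cTh
      linarith
    have hT := cTh_pos d H₀ i
    obtain ⟨h3, h4⟩ := cP_K'_one d H₀ i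
    have hK1 := cK_one d H₀ j
    unfold cA
    have h5 : cH H₀ j ^ 2 * cK d H₀ j * cP d H₀ i ≤ cTh d H₀ i * cK' d H₀ i * cP d H₀ i := by
      apply mul_le_mul_of_nonneg_right _ (by linarith)
      exact mul_le_mul h2 h1 (by linarith) (by linarith)
    linarith
  KP := by
    intro j i hji _
    show cH H₀ j ^ 2 * cK d H₀ j * ((cA d H₀ i + 2) * cP d H₀ i) ≤ cK d H₀ i
    have h1 : cK d H₀ j ≤ cK' d H₀ i := cK'_mono d H₀ hji
    have h2 : cH H₀ j ^ 2 ≤ cTh d H₀ i := by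
      have h3 := cH_step H₀ hji
      have h4 := cH_one H₀ i
      have h5 : 0 ≤ cH H₀ i * d := by positivity
      have h6 : 0 ≤ cH H₀ j ^ 2 := by positivity
      unfold cTh
      linarith
    have hT := cTh_pos d H₀ i
    obtain ⟨h3, h4⟩ := cP_K'_one d H₀ i
    have hK1 := cK_one d H₀ j
    have hA := cA_ge d H₀ i
    rw [cK_eq d H₀ i]
    have h5 : cH H₀ j ^ 2 * cK d H₀ j * ((cA d H₀ i + 2) * cP d H₀ i) ≤
        cTh d H₀ i * cK' d H₀ i * ((cA d H₀ i + 2) * cP d H₀ i) := by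
      apply mul_le_mul_of_nonneg_right _ (by nlinarith)
      exact mul_le_mul h2 h1 (by linarith) (by linarith)
    linarith
  top := by
    intro j hj
    have hj' : j < d := hj
    show cH H₀ j ^ 2 * cK d H₀ j * (cLam d H₀ * cP d H₀ d) ≤ 1
    have hH : cH H₀ j ^ 2 ≤ cH H₀ d ^ 2 := by
      have h1 := cH_mono H₀ hj'.le
      have h2 := cH_one H₀ j
      nlinarith
    have hK : cK d H₀ j ≤ cK d H₀ d := by
      show cK' d H₀ (j + 1) ≤ cK' d H₀ (d + 1)
      exact cK'_mono d H₀ (by omega)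
    have hK1 := cK_one d H₀ j
    have hK2 := cK_one d H₀ d
    have hH1 := cH_one H₀ d
    have hP := (cP_K'_one d H₀ d).1
    have hL := cLam_pos d H₀
    have h1 : cH H₀ j ^ 2 * cK d H₀ j ≤ cH H₀ d ^ 2 * cK d H₀ d :=
      mul_le_mul hH hK (by linarith) (by positivity)
    have h2 : cH H₀ d ^ 2 * cK d H₀ d * (cLam d H₀ * cP d H₀ d) = 1 := by
      unfold cLam
      field_simp
    calc cH H₀ j ^ 2 * cK d H₀ j * (cLam d H₀ * cP d H₀ d)
        ≤ cH H₀ d ^ 2 * cK d H₀ d * (cLam d H₀ * cP d H₀ d) :=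
          mul_le_mul_of_nonneg_right h1 (by positivity)
      _ = 1 := h2
  P_zero := rfl
  P_succ := cP_succ d H₀
  S_one := by
    intro j
    have h1 := cS_ge d H₀ j
    have h2 := cCs_one d H₀
    have h3 : 0 ≤ cCs d H₀ ^ d := by positivity
    show 1 ≤ cS d H₀ j
    linarith
  S_step := by
    intro j hj
    have hj' : j < d := hj
    show cH H₀ j * d * cS d H₀ (j + 1) + 2 ≤ cS d H₀ j
    have h1 := cS_ge d H₀ (j + 1)
    have h2 := cCs_one d H₀
    have h3 : 0 ≤ cCs d H₀ ^ d := by positivity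
    have h4 : cS d H₀ j = cS d H₀ (j + 1) * (cH H₀ d * d + 1) := by
      unfold cS
      have : d - j = (d - (j + 1)) + 1 := by omega
      rw [this, pow_succ]
      ring
    rw [h4]
    have h5 : cH H₀ j * d ≤ cH H₀ d * d :=
      mul_le_mul_of_nonneg_right (cH_mono H₀ hj'.le) (by positivity)
    have h6 : 0 ≤ cS d H₀ (j + 1) := by linarith
    nlinarith

/-! ### finiteness of the set of paths -/

variable {C : TreeCst} {k : ℕ}

lemma wallSet_finite (j : ℕ) (s : ℕ → ℝ) : (wallSet C k j s).Finite := by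
  classical
  set N := max k (j + 1) with hN
  set B : ℤ := ⌈C.H j⌉ with hB
  set T : Finset ℤ := Finset.Icc (-B) B with hT
  let ext : (Fin N → ℤ) → (ℕ → ℤ) := fun g i => if h : i < N then g ⟨i, h⟩ else 0
  let Ψ : (Fin N → ℤ) → ℝ := fun g => nu k j (ext g) s
  refine Set.Finite.subset
    ((Fintype.piFinset fun _ : Fin N => T).finite_toSet.image Ψ) ?_
  rintro ν ⟨w, hw, rfl⟩
  refine ⟨fun i => w i, ?_, ?_⟩
  · simp only [Finset.mem_coe, Fintype.mem_piFinset]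
    intro i
    have h1 := abs_le.1 (hw.2 i)
    rw [hT, Finset.mem_Icc]
    constructor
    · have h2 : (-(⌈C.H j⌉ : ℤ) : ℝ) ≤ (w i : ℝ) := by
        have := Int.le_ceil (C.H j)
        linarith [h1.1]
      exact_mod_cast h2
    · have h2 : (w i : ℝ) ≤ ((⌈C.H j⌉ : ℤ) : ℝ) := by
        have := Int.le_ceil (C.H j)
        linarith [h1.2]
      exact_mod_cast h2
  · have hag : ∀ i, i < N → ext (fun i => w i) i = w i := by
      intro i hi
      simp [ext, hi]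
    show nu k j (ext fun i => w ↑i) s = nu k j w s
    unfold nu
    have h1 : ext (fun i => w i) j = w j := hag j (by omega)
    rw [h1]
    congr 2
    refine sum_congr rfl fun i hi => ?_
    rw [hag i (by have := (mem_Ioo.1 hi).2; omega)]

lemma slopes_finite (hC : C.Good) (j : ℕ) (s : ℕ → ℝ) : {a | IsSlope C k j s a}.Finite := by
  have hg : {p : ℝ | ∃ m : ℕ, p = -C.S j + m * C.Lam ∧ p ≤ s (j + 1)}.Finite := by
    refine Set.Finite.subset
      ((Finset.range (⌈(s (j + 1) + C.S j) / C.Lam⌉₊ + 1)).finite_toSet.image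
        (fun m : ℕ => -C.S j + m * C.Lam)) ?_
    rintro p ⟨m, rfl, hp⟩
    refine ⟨m, ?_, rfl⟩
    simp only [Finset.mem_coe, Finset.mem_range]
    have h1 : (m : ℝ) ≤ (s (j + 1) + C.S j) / C.Lam := by
      rw [le_div_iff₀ hC.Lam_pos]
      linarith
    have h2 := h1.trans (Nat.le_ceil _)
    have h3 : m ≤ ⌈(s (j + 1) + C.S j) / C.Lam⌉₊ := by exact_mod_cast h2
    omega
  refine Set.Finite.subset ((wallSet_finite (C := C) (k := k) j s).union hg) ?_
  rintro a (⟨h, -⟩ | ⟨⟨m, hm⟩, hc, -⟩)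
  · exact Or.inl h
  · exact Or.inr ⟨m, hm, hc⟩

/-- Partial paths. -/
def partialPaths (C : TreeCst) (k : ℕ) (ε : ℝ) (j : ℕ) : Set (ℕ → ℝ) :=
  {s | s (k - 1) = ε ∧ (∀ i, k ≤ i → s i = 0) ∧ (∀ i, i < j → s i = 0) ∧
    ∀ i, j ≤ i → i < k - 1 → IsSlope C k i s (s i)}

lemma partialPaths_finite (hC : C.Good) (hk1 : 1 ≤ k) (ε : ℝ) :
    ∀ n j, j + n = k - 1 → (partialPaths C k ε j).Finite := by
  classical
  intro n
  induction n with
  | zero =>
    intro j hj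
    refine Set.Finite.subset (Set.finite_singleton (fun i => if i = k - 1 then ε else 0)) ?_
    rintro s ⟨h1, h2, h3, -⟩
    rw [Set.mem_singleton_iff]
    funext i
    split_ifs with h
    · rw [h, h1]
    · by_cases hi : k ≤ i
      · exact h2 i hi
      · exact h3 i (by omega)
  | succ n ih =>
    intro j hj
    have hfin := ih (j + 1) (by omega)
    refine Set.Finite.subset
      (hfin.biUnion fun s' _ => (slopes_finite (C := C) (k := k) hC j s').image
        (fun a => Function.update s' j a)) ?_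
    rintro s ⟨h1, h2, h3, h4⟩
    have hag : ∀ i, j < i → Function.update s j 0 i = s i := fun i hi =>
      Function.update_of_ne (by omega) _ _
    simp only [Set.mem_iUnion]
    refine ⟨Function.update s j 0, ⟨?_, ?_, ?_, ?_⟩, s j, ?_, ?_⟩
    · rw [hag _ (by omega), h1]
    · intro i hi
      rw [hag _ (by omega), h2 i hi]
    · intro i hi
      by_cases hij : i = j
      · rw [hij]; simp
      · rw [Function.update_of_ne hij, h3 i (by omega)]
    · intro i hi hi'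
      rw [hag i (by omega), isSlope_congr (s' := s) (fun l hl => hag l (by omega))]
      exact h4 i (by omega) hi'
    · show IsSlope C k j (Function.update s j 0) (s j)
      rw [isSlope_congr (s' := s) hag]
      exact h4 j le_rfl (by omega)
    · show Function.update (Function.update s j 0) j (s j) = s
      funext i
      by_cases hij : i = j
      · rw [hij]; simp
      · rw [Function.update_of_ne hij, Function.update_of_ne hij]

lemma paths_finite (hC : C.Good) (hk1 : 1 ≤ k) (ε : ℝ) : {s | IsPath C k ε s}.Finite := by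
  refine Set.Finite.subset (partialPaths_finite hC hk1 ε (k - 1) 0 (by omega)) ?_
  intro s hs
  exact ⟨hs.top, hs.zero, fun i hi => absurd hi (Nat.not_lt_zero i), fun i _ hi => hs.slope i hi⟩

end Crest.Agent.S0122Lib
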