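-- S0122, geometry: the family of polytopes.
import Crest.Agent.S0122Lib.Cst
import Crest.Agent.S0122Lib.Spec

set_option autoImplicit false

namespace Crest.Agent.S0122Lib

open Finset

/-! ### sorted frames -/

/-- If a point maximises the pairing with a monotone vector among its rearrangements, it can be sorted
by a permutation fixing the vector. -/
lemma sorted_frame {d : ℕ} (n x : Fin d → ℝ) (hn : Monotone n)
    (hmax : ∀ ρ : Equiv.Perm (Fin d), ∑ i, n i * x (ρ i) ≤ ∑ i, n i * x i) :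
    ∃ σ : Equiv.Perm (Fin d), Monotone (x ∘ σ) ∧ n ∘ σ = n := by
  classical
  have hmv : ∀ i j, x i < x j → n i ≤ n j := by
    intro i j hlt
    by_contra hcon
    rw [not_le] at hcon
    have hij : i ≠ j := by
      rintro rfl
      exact lt_irrefl _ hlt
    have h1 := hmax (Equiv.swap i j)
    have h2 : ∑ l, n l * x (Equiv.swap i j l) - ∑ l, n l * x l =
        (n i - n j) * (x j - x i) := by
      rw [← sum_sub_distrib]
      rw [← Finset.add_sum_erase _ _ (mem_univ i)]
      have hj : j ∈ (univ : Finset (Fin d)).erase i := mem_erase.2 ⟨hij.symm, mem_univ j⟩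
      rw [← Finset.add_sum_erase _ _ hj]
      have h3 : ∑ l ∈ ((univ : Finset (Fin d)).erase i).erase j,
          (n l * x (Equiv.swap i j l) - n l * x l) = 0 := by
        refine sum_eq_zero fun l hl => ?_
        have hl1 : l ≠ j := (mem_erase.1 hl).1
        have hl2 : l ≠ i := (mem_erase.1 (mem_erase.1 hl).2).1
        rw [Equiv.swap_apply_of_ne_of_ne hl2 hl1]
        ring
      rw [h3, Equiv.swap_apply_left, Equiv.swap_apply_right]
      ring
    have h4 : 0 < (n i - n j) * (x j - x i) := mul_pos (by linarith) (by linarith)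
    linarith
  set f : Fin d → ℝ ×ₗ ℝ := fun i => toLex (n i, x i) with hf
  set σ := Tuple.sort f with hσ
  have hmono := Tuple.monotone_sort f
  have hle : ∀ a b : Fin d, a ≤ b → n (σ a) < n (σ b) ∨ (n (σ a) = n (σ b) ∧ x (σ a) ≤ x (σ b)) := by
    intro a b hab
    have := hmono hab
    simpa [hf, Prod.Lex.toLex_le_toLex] using this
  refine ⟨σ, ?_, ?_⟩
  · intro a b hab
    rcases hle a b hab with h | ⟨-, h⟩
    · by_contra hcon
      rw [Function.comp, Function.comp, not_le] at hcon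
      have := hmv _ _ hcon
      linarith
    · exact h
  · have h1 : Monotone (n ∘ σ) := by
      intro a b hab
      rcases hle a b hab with h | ⟨h, -⟩
      · exact h.le
      · exact h.le
    have h2 : Monotone (n ∘ (1 : Equiv.Perm (Fin d))) := by
      simpa using hn
    simpa using Tuple.unique_monotone h1 h2

/-! ### the types -/

/-- Number of levels of the type `t`. -/
def kT (d t : ℕ) : ℕ := if t < d then t + 1 else d
/-- Sign of the top slope of the type `t`. -/
noncomputable def epsT (d t : ℕ) : ℝ := if t < d then -1 else 1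
/-- Scale of the type `t`. -/
noncomputable def kapT (Cs : ℝ) (d t : ℕ) : ℝ := Cs ^ (d - t)

variable {C : TreeCst} {Cs : ℝ}

lemma kT_le {d t : ℕ} (ht : t ≤ d) : kT d t ≤ d := by
  unfold kT; split_ifs <;> omega

lemma kT_pos {d t : ℕ} (hd : 1 ≤ d) : 1 ≤ kT d t := by
  unfold kT; split_ifs <;> omega

lemma epsT_cases (d t : ℕ) : epsT d t = 1 ∨ epsT d t = -1 := by
  unfold epsT; split_ifs <;> simp

lemma epsT_abs (d t : ℕ) : |epsT d t| = 1 := by
  rcases epsT_cases d t with h | h <;> rw [h] <;> simp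

lemma kapT_one (hCs : 1 ≤ Cs) (d t : ℕ) : 1 ≤ kapT Cs d t := one_le_pow₀ hCs

/-- Offset of a constraint. -/
noncomputable def bT (C : TreeCst) (Cs : ℝ) (t : ℕ) (s : ℕ → ℝ) (L : ℝ) : ℝ :=
  epsT C.d t * Real.exp (epsT C.d t * (kapT Cs C.d t * L)) +
    ∑ j ∈ range (kT C.d t - 1), Real.exp (kapT Cs C.d t * L * tau C (kT C.d t) j s (s j))

/-- The polytope. -/
def InK (C : TreeCst) (Cs : ℝ) (L : ℝ) (x : Fin C.d → ℝ) : Prop :=
  ∀ t, t ≤ C.d → ∀ s, IsPath C (kT C.d t) (epsT C.d t) s → ∀ π : Equiv.Perm (Fin C.d),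
    ∑ j, s (π j) * x j ≤ bT C Cs t s L

/-- Extension of a vector to `ℕ`. -/
noncomputable def extR {d : ℕ} (x : Fin d → ℝ) : ℕ → ℝ := fun i => if h : i < d then x ⟨i, h⟩ else 0

/-- Extension of an integer vector to `ℕ`. -/
def extZ {d : ℕ} (x : Fin d → ℤ) : ℕ → ℤ := fun i => if h : i < d then x ⟨i, h⟩ else 0

lemma extR_coe {d : ℕ} (x : Fin d → ℝ) (i : Fin d) : extR x i = x i := by
  simp [extR, i.2]

lemma extZ_coe {d : ℕ} (x : Fin d → ℤ) (i : Fin d) : extZ x i = x i := by
  simp [extZ, i.2]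

lemma sum_fin_eq {d : ℕ} (f : ℕ → ℝ) (x : Fin d → ℝ) :
    ∑ i : Fin d, f i * x i = ∑ i ∈ range d, f i * extR x i := by
  rw [← Fin.sum_univ_eq_sum_range (fun i => f i * extR x i) d]
  refine sum_congr rfl fun i _ => ?_
  rw [extR_coe]

lemma sum_range_trunc {d k : ℕ} (hk : k ≤ d) {s X : ℕ → ℝ} (h0 : ∀ i, k ≤ i → s i = 0) :
    ∑ i ∈ range d, s i * X i = ∑ i ∈ range k, s i * X i := by
  symm
  refine sum_subset (range_subset_range.2 hk) fun i _ hi => ?_
  rw [h0 i (by simpa using hi), zero_mul]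

lemma val_eq (k : ℕ) (L : ℝ) (s X : ℕ → ℝ) : val C k L s X =
    ∑ i ∈ range k, s i * X i - ∑ j ∈ range (k - 1), Real.exp (L * tau C k j s (s j)) := rfl

/-- Constraints of the identity frame as statements on `val`. -/
lemma val_le_of_inK {L : ℝ} {x : Fin C.d → ℝ} (hK : InK C Cs L x) {t : ℕ} (ht : t ≤ C.d) {s : ℕ → ℝ}
    (hs : IsPath C (kT C.d t) (epsT C.d t) s) :
    val C (kT C.d t) (kapT Cs C.d t * L) s (extR x) ≤
      epsT C.d t * Real.exp (epsT C.d t * (kapT Cs C.d t * L)) := by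
  have h := hK t ht s hs 1
  simp only [Equiv.Perm.coe_one, id_eq] at h
  rw [sum_fin_eq s x, sum_range_trunc (kT_le ht) hs.zero] at h
  unfold bT at h
  rw [val_eq]
  linarith

lemma val_eq_of_active {L : ℝ} {x : Fin C.d → ℝ} {t : ℕ} (ht : t ≤ C.d) {s : ℕ → ℝ}
    (hs : IsPath C (kT C.d t) (epsT C.d t) s) (hact : ∑ j : Fin C.d, s j * x j = bT C Cs t s L) :
    val C (kT C.d t) (kapT Cs C.d t * L) s (extR x) =
      epsT C.d t * Real.exp (epsT C.d t * (kapT Cs C.d t * L)) := by
  rw [sum_fin_eq s x, sum_range_trunc (kT_le ht) hs.zero] at hact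
  unfold bT at hact
  rw [val_eq]
  linarith

lemma InK.comp {L : ℝ} {x : Fin C.d → ℝ} (hK : InK C Cs L x) (ρ : Equiv.Perm (Fin C.d)) :
    InK C Cs L (x ∘ ρ) := by
  intro t ht s hs π
  have h := hK t ht s hs (ρ.symm.trans π)
  calc ∑ j, s (π j) * (x ∘ ρ) j = ∑ j, s ((ρ.symm.trans π) (ρ j)) * x (ρ j) := by
        refine sum_congr rfl fun j _ => ?_
        simp
    _ = ∑ j, s ((ρ.symm.trans π) j) * x j :=
        Equiv.sum_comp ρ (fun j => s ((ρ.symm.trans π) j) * x j)
    _ ≤ _ := h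

/-- Positivity. -/
lemma InK.pos (hC : C.Good) {L : ℝ} {x : Fin C.d → ℝ} (hK : InK C Cs L x) (j₀ : Fin C.d) :
    0 < x j₀ := by
  classical
  have hd := hC.d_pos
  have hk : kT C.d 0 = 1 := by unfold kT; rw [if_pos (by omega)]
  have he : epsT C.d 0 = -1 := by unfold epsT; rw [if_pos (by omega)]
  have hpath : IsPath C (kT C.d 0) (epsT C.d 0) (tiesPath 1 (-1)) := by
    rw [hk, he]; exact tiesPath_isPath hC le_rfl (-1)
  let z : Fin C.d := ⟨0, by omega⟩
  have h := hK 0 (Nat.zero_le _) _ hpath (Equiv.swap j₀ z)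
  have h1 : ∑ j, tiesPath 1 (-1) ((Equiv.swap j₀ z) j) * x j = - x j₀ := by
    rw [sum_eq_single j₀]
    · rw [Equiv.swap_apply_left]
      simp [tiesPath, z]
    · intro b _ hb
      have : ((Equiv.swap j₀ z b : Fin C.d) : ℕ) ≠ 0 := by
        intro h0
        have h2 : Equiv.swap j₀ z b = z := Fin.ext h0
        have h3 : b = j₀ := by
          have := (Equiv.swap j₀ z).injective (h2.trans (Equiv.swap_apply_left j₀ z).symm)
          exact this
        exact hb h3
      have h4 : ¬ ((Equiv.swap j₀ z b : Fin C.d) : ℕ) < 1 := by omega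
      simp [tiesPath, h4]
    · intro h; exact absurd (mem_univ _) h
  rw [h1] at h
  unfold bT at h
  rw [hk, he] at h
  simp only [Nat.sub_self, range_zero, sum_empty, add_zero] at h
  have := Real.exp_pos (-1 * (kapT Cs C.d 0 * L))
  linarith

/-- Largeness of `L`. -/
lemma exists_bigL (hC : C.Good) : ∃ L₁ : ℝ, 0 ≤ L₁ ∧ ∀ L', L₁ ≤ L' →
    BigL C L' ∧ cstar C ≤ L' * C.Lam ∧ clog C ≤ L' := by
  have hd := hC.d_real
  have hdpos : (0 : ℝ) < C.d := by linarith
  have hLam := hC.Lam_pos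
  refine ⟨max 0 (max (Real.log (4 * C.d / C.Lam)) (max (Real.log (2 * C.d) / C.Lam)
    (max (cstar C / C.Lam) (clog C)))), le_max_left _ _, fun L' hL' => ?_⟩
  have h0 : 0 ≤ L' := le_trans (le_max_left _ _) hL'
  have h1 : Real.log (4 * C.d / C.Lam) ≤ L' :=
    le_trans (le_trans (le_max_left _ _) (le_max_right _ _)) hL'
  have h2 : Real.log (2 * C.d) / C.Lam ≤ L' :=
    le_trans (le_trans (le_trans (le_max_left _ _) (le_max_right _ _)) (le_max_right _ _)) hL'
  have h3 : cstar C / C.Lam ≤ L' :=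
    le_trans (le_trans (le_trans (le_trans (le_max_left _ _) (le_max_right _ _))
      (le_max_right _ _)) (le_max_right _ _)) hL'
  have h4 : clog C ≤ L' :=
    le_trans (le_trans (le_trans (le_trans (le_max_right _ _) (le_max_right _ _))
      (le_max_right _ _)) (le_max_right _ _)) hL'
  rw [div_le_iff₀ hLam] at h2 h3
  refine ⟨⟨h0, ?_, ?_⟩, h3, h4⟩
  · have h5 : Real.exp (-L') ≤ Real.exp (-Real.log (4 * C.d / C.Lam)) :=
      Real.exp_le_exp.2 (by linarith)
    rw [Real.exp_neg (Real.log _), Real.exp_log (by positivity), inv_div] at h5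
    exact h5
  · have h5 : Real.exp (-(L' * C.Lam)) ≤ Real.exp (-Real.log (2 * C.d)) :=
      Real.exp_le_exp.2 (by linarith)
    rw [Real.exp_neg (Real.log _), Real.exp_log (by positivity)] at h5
    calc (C.d : ℝ) * Real.exp (-(L' * C.Lam)) ≤ (C.d : ℝ) * (2 * (C.d : ℝ))⁻¹ :=
          mul_le_mul_of_nonneg_left h5 hdpos.le
      _ = 1 / 2 := by field_simp

lemma kT_of_lt {d t : ℕ} (h : t < d) : kT d t = t + 1 := if_pos h
lemma kT_top (d : ℕ) : kT d d = d := if_neg (lt_irrefl d)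
lemma epsT_of_lt {d t : ℕ} (h : t < d) : epsT d t = -1 := if_pos h
lemma epsT_top (d : ℕ) : epsT d d = 1 := if_neg (lt_irrefl d)
lemma kapT_top (Cs : ℝ) (d : ℕ) : kapT Cs d d = 1 := by simp [kapT]

section coords
variable {L : ℝ} {x : Fin C.d → ℝ}

lemma extR_pos (hC : C.Good) (hK : InK C Cs L x) {i : ℕ} (hi : i < C.d) : 0 < extR x i := by
  have := hK.pos hC ⟨i, hi⟩
  simpa [extR, hi] using this

lemma extR_sorted (hm : Monotone x) {a b : ℕ} (hab : a ≤ b) (hb : b < C.d) :
    extR x a ≤ extR x b := by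
  have ha : a < C.d := by omega
  simp only [extR, ha, hb, dite_true]
  exact hm (by simpa using hab)

lemma lower_coord (hC : C.Good) (hK : InK C Cs L x) (hm : Monotone x) {i : ℕ} (hi : i < C.d)
    (hL0 : 0 ≤ kapT Cs C.d i * L) (hL2 : C.d * Real.exp (-(kapT Cs C.d i * L * C.Lam)) ≤ 1 / 2) :
    Real.exp (-(kapT Cs C.d i * L)) / (2 * C.d) ≤ extR x i := by
  have hd := hC.d_real
  have hdpos : (0 : ℝ) < C.d := by linarith
  have hk := kT_of_lt hi
  have he := epsT_of_lt hi
  have hpath : IsPath C (kT C.d i) (epsT C.d i) (tiesPath (i + 1) (-1)) := by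
    rw [hk, he]; exact tiesPath_isPath hC (by omega) (-1)
  have h1 := val_le_of_inK hK hi.le hpath
  rw [hk, he] at h1
  have h2 := ties_minus hC (k := i + 1) (by omega) (by omega) hL0 hL2 h1
  have h3 := sum_range_le_top (C := C) (k := i + 1) (x := extR x) (by omega)
    (fun l hl => extR_pos hC hK (by omega)) (fun a b hab hb => extR_sorted hm hab (by omega))
    (by omega)
  simp only [Nat.add_sub_cancel] at h3
  rw [div_le_iff₀ (by positivity)]
  linarith

lemma upper_coord (hC : C.Good) (hK : InK C Cs L x) (hL0 : 0 ≤ L) {i : ℕ} (hi : i < C.d) :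
    extR x i ≤ C.d * Real.exp L := by
  have hpath : IsPath C (kT C.d C.d) (epsT C.d C.d) (tiesPath C.d 1) := by
    rw [kT_top, epsT_top]; exact tiesPath_isPath hC hC.d_pos 1
  have h1 := val_le_of_inK hK le_rfl hpath
  rw [kT_top, epsT_top, kapT_top, one_mul] at h1
  have h2 := ties_plus hC (k := C.d) le_rfl hC.d_pos hL0 h1
  have h3 : extR x i ≤ ∑ l ∈ range C.d, extR x l :=
    single_le_sum (f := extR x) (fun l hl => (extR_pos hC hK (mem_range.1 hl)).le) (mem_range.2 hi)
  linarith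

end coords

/-- Relations between the constants. -/
structure GeoCst (C : TreeCst) (Cs : ℝ) : Prop where
  good : C.Good
  Cs_one : 1 ≤ Cs
  Cs_mul : C.H 0 * C.d + 1 ≤ Cs * C.Lam
  S_ge : ∀ j, Cs ^ C.d + 2 ≤ C.S j

lemma arith_final {L Lam κ' Cs H d : ℝ} (hL : 0 ≤ L) (hκ' : 1 ≤ κ') (hLam : 0 < Lam)
    (hLam1 : Lam ≤ 1) (hmul : H * d + 1 ≤ Cs * Lam) :
    L * Lam ≤ Cs * κ' * L * Lam - d * (H * (κ' * L)) := by
  have h2 : 0 ≤ κ' * L := by positivity
  have h4 : κ' * L * (H * d + 1) ≤ κ' * L * (Cs * Lam) := mul_le_mul_of_nonneg_left hmul h2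
  have h5 : L ≤ κ' * L := by nlinarith
  have h6 : L * Lam ≤ L := by nlinarith
  nlinarith

set_option maxHeartbeats 1000000 in
/-- The main estimate at a sorted active point. -/
theorem main_sorted (hG : GeoCst C Cs) {L M : ℝ} {x : Fin C.d → ℝ}
    (hL1 : ∀ L', L ≤ L' → BigL C L' ∧ cstar C ≤ L' * C.Lam ∧ clog C ≤ L')
    (hL2 : Real.log (2 * C.d) ≤ L)
    (hLM : M + cstar C + C.d * C.H 0 * Real.log (2 * C.d) ≤ L * C.Lam)
    (hm : Monotone x) (hK : InK C Cs L x) {t : ℕ} (ht : t ≤ C.d) {s : ℕ → ℝ}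
    (hs : IsPath C (kT C.d t) (epsT C.d t) s) (hact : ∑ j : Fin C.d, s j * x j = bT C Cs t s L)
    (h : Fin C.d → ℤ) (hh : ∀ j, |(h j : ℝ)| ≤ C.H 0) (hpos : 0 < ∑ j : Fin C.d, (h j : ℝ) * s j) :
    M ≤ ∑ j, (h j : ℝ) * Real.log (x j) := by
  have hC := hG.good
  have hCs := hG.Cs_one
  have hd := hC.d_real
  have hdpos : (0 : ℝ) < C.d := by linarith
  have h2d : (0 : ℝ) < 2 * C.d := by linarith
  have hlog2d : 0 ≤ Real.log (2 * C.d) := Real.log_nonneg (by linarith)
  have hL0 : 0 ≤ L := le_trans hlog2d hL2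
  have hLam := hC.Lam_pos
  have hH0 := hC.H_one 0
  set k := kT C.d t with hk
  set ε := epsT C.d t with hε
  set κ := kapT Cs C.d t with hκ
  set X := extR x with hX
  have hκ1 : 1 ≤ κ := kapT_one hCs _ _
  have hkd : k ≤ C.d := kT_le ht
  have hk1 : 1 ≤ k := kT_pos hC.d_pos
  have hLL' : L ≤ κ * L := by nlinarith
  obtain ⟨hB, hc1, hc2⟩ := hL1 (κ * L) hLL'
  -- bounds valid for all types
  have hgen : ∀ i, i < C.d → Real.exp (-(kapT Cs C.d i * L)) / (2 * C.d) ≤ X i := by
    intro i hi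
    have hκi : 1 ≤ kapT Cs C.d i := kapT_one hCs _ _
    have hLi : L ≤ kapT Cs C.d i * L := by nlinarith
    exact lower_coord hC hK hm hi (by linarith) (hL1 _ hLi).1.e2
  -- the active structure
  have hact' : Active C k ε (κ * L) s X := by
    refine ⟨hs, fun i hi => extR_pos hC hK (by omega), fun a b hab hb => extR_sorted hm hab (by omega),
      fun s' hs' => val_le_of_inK hK ht hs', val_eq_of_active ht hs hact, ?_⟩
    intro i hi
    have hid : i < C.d := by omega
    refine le_trans ?_ (hgen i hid)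
    rw [le_div_iff₀ h2d]
    have hSi := hG.S_ge i
    have hκi : kapT Cs C.d i ≤ κ * Cs ^ C.d := by
      rw [hκ]
      unfold kapT
      rw [← pow_add]
      exact pow_le_pow_right₀ hCs (by omega)
    have h2 : Real.exp (-(κ * L * (C.S i - 1))) * (2 * C.d) =
        Real.exp (-(κ * L * (C.S i - 1)) + Real.log (2 * C.d)) := by
      rw [Real.exp_add, Real.exp_log h2d]
    rw [h2]
    apply Real.exp_le_exp.2
    have hCp : 0 ≤ Cs ^ C.d := by positivity
    have h3 : kapT Cs C.d i * L ≤ κ * Cs ^ C.d * L := mul_le_mul_of_nonneg_right hκi hL0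
    have h4 : κ * L * (Cs ^ C.d + 1) ≤ κ * L * (C.S i - 1) :=
      mul_le_mul_of_nonneg_left (by linarith) (by positivity)
    nlinarith
  -- conversions of sums
  have hsum1 : ∑ j : Fin C.d, (h j : ℝ) * s j = ∑ i ∈ range k, (extZ h i : ℝ) * s i := by
    have h1 : ∑ i ∈ range k, (extZ h i : ℝ) * s i = ∑ i ∈ range C.d, (extZ h i : ℝ) * s i :=
      sum_subset (range_subset_range.2 hkd) (fun i _ hi => by
        rw [hs.zero i (by simpa using hi), mul_zero])
    rw [h1, ← Fin.sum_univ_eq_sum_range (fun i => (extZ h i : ℝ) * s i) C.d]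
    refine sum_congr rfl fun i _ => ?_
    rw [extZ_coe]
  have hsum2 : ∑ j : Fin C.d, (h j : ℝ) * Real.log (x j) =
      ∑ i ∈ range C.d, (extZ h i : ℝ) * Real.log (X i) := by
    rw [← Fin.sum_univ_eq_sum_range (fun i => (extZ h i : ℝ) * Real.log (X i)) C.d]
    refine sum_congr rfl fun i _ => ?_
    rw [extZ_coe, hX, extR_coe]
  have hw : ∀ i, |(extZ h i : ℝ)| ≤ C.H 0 := by
    intro i
    by_cases hi : i < C.d
    · have := hh ⟨i, hi⟩
      simpa [extZ, hi] using this
    · simp only [extZ, hi, dite_false]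
      simp only [Int.cast_zero, abs_zero]
      linarith
  rw [hsum1] at hpos
  have hstar := tree_star hC hkd hk1 (epsT_cases _ _) hB hc1 hc2 hact' (extZ h) hw hpos
  rw [hsum2, ← sum_range_add_sum_Ico _ hkd]
  have hHd : 0 ≤ (C.d : ℝ) * C.H 0 * Real.log (2 * C.d) := by positivity
  have hκLam : L * C.Lam ≤ κ * L * C.Lam := mul_le_mul_of_nonneg_right hLL' hLam.le
  by_cases hkeq : k = C.d
  · rw [hkeq, Ico_self, sum_empty, add_zero]
    rw [hkeq] at hstar
    linarith
  · -- lower types with coordinates above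
    have htd : t < C.d := by
      by_contra hcon
      have : t = C.d := by omega
      apply hkeq
      rw [hk, this, kT_top]
    have hkt : k = t + 1 := kT_of_lt htd
    have hk' : t + 1 < C.d := by omega
    set κ' := kapT Cs C.d (t + 1) with hκ'
    have hκ'1 : 1 ≤ κ' := kapT_one hCs _ _
    have hκrel : κ = Cs * κ' := by
      rw [hκ, hκ']
      unfold kapT
      have : C.d - t = (C.d - (t + 1)) + 1 := by omega
      rw [this, pow_succ]
      ring
    have hterm : ∀ i ∈ Ico k C.d, -(C.H 0 * (κ' * L + Real.log (2 * C.d))) ≤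
        (extZ h i : ℝ) * Real.log (X i) := by
      intro i hi
      have hik : k ≤ i := (mem_Ico.1 hi).1
      have hid : i < C.d := (mem_Ico.1 hi).2
      have hXi : 0 < X i := extR_pos hC hK hid
      have h1 := hgen (t + 1) hk'
      have h2 : X (t + 1) ≤ X i := extR_sorted hm (by omega) hid
      have h3 := upper_coord hC hK hL0 hid
      have hE := Real.exp_pos L
      have hlow : -(κ' * L) - Real.log (2 * C.d) ≤ Real.log (X i) := by
        apply sub_log_le_log hXi h2d
        rw [div_le_iff₀ h2d] at h1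
        nlinarith
      have hup : Real.log (X i) ≤ L + Real.log (2 * C.d) := by
        apply log_le_add_log hXi h2d
        nlinarith
      have hκL : L ≤ κ' * L := by nlinarith
      have habs : |Real.log (X i)| ≤ κ' * L + Real.log (2 * C.d) := by
        rw [abs_le]
        constructor <;> linarith
      have h4 : |(extZ h i : ℝ) * Real.log (X i)| ≤ C.H 0 * (κ' * L + Real.log (2 * C.d)) := by
        rw [abs_mul]
        exact mul_le_mul (hw i) habs (abs_nonneg _) (by linarith)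
      exact (abs_le.1 h4).1
    have hsum3 := sum_le_sum hterm
    rw [sum_const, Nat.card_Ico, nsmul_eq_mul] at hsum3
    have hcard : ((C.d - k : ℕ) : ℝ) ≤ C.d := by
      exact_mod_cast Nat.sub_le _ _
    have hnn : 0 ≤ C.H 0 * (κ' * L + Real.log (2 * C.d)) := by
      have : 0 ≤ κ' * L := by positivity
      positivity
    have hsum4 : -(C.d * (C.H 0 * (κ' * L + Real.log (2 * C.d)))) ≤
        ∑ i ∈ Ico k C.d, (extZ h i : ℝ) * Real.log (X i) := by
      have := mul_le_mul_of_nonneg_right hcard hnn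
      linarith
    have hfinal : L * C.Lam ≤ κ * L * C.Lam - C.d * (C.H 0 * (κ' * L)) := by
      rw [hκrel]
      exact arith_final hL0 hκ'1 hLam hC.Lam_le_one hG.Cs_mul
    have hexp : (C.d : ℝ) * (C.H 0 * (κ' * L + Real.log (2 * C.d))) =
        C.d * (C.H 0 * (κ' * L)) + C.d * C.H 0 * Real.log (2 * C.d) := by ring
    linarith

lemma path_monotone_fin {t : ℕ} {s : ℕ → ℝ} (hC : C.Good)
    (hs : IsPath C (kT C.d t) (epsT C.d t) s) : Monotone (fun i : Fin C.d => s i) := by
  intro i l hil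
  have hil' : (i : ℕ) ≤ l := hil
  have hl := l.2
  show s i ≤ s l
  by_cases h1 : (l : ℕ) < kT C.d t
  · exact hs.mono hil' h1
  · by_cases h2 : (i : ℕ) < kT C.d t
    · have htd : t < C.d := by
        by_contra hcon
        have : kT C.d t = C.d := if_neg hcon
        omega
      have h3 := hs.mono (i := i) (l := kT C.d t - 1) (by omega) (by
        have := kT_pos (t := t) hC.d_pos
        omega)
      rw [hs.top, epsT_of_lt htd] at h3
      rw [hs.zero l (by omega)]
      linarith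
    · rw [hs.zero i (by omega), hs.zero l (by omega)]

/-- The main estimate at any active point. -/
theorem main_active (hG : GeoCst C Cs) {L M : ℝ} {x : Fin C.d → ℝ}
    (hL1 : ∀ L', L ≤ L' → BigL C L' ∧ cstar C ≤ L' * C.Lam ∧ clog C ≤ L')
    (hL2 : Real.log (2 * C.d) ≤ L)
    (hLM : M + cstar C + C.d * C.H 0 * Real.log (2 * C.d) ≤ L * C.Lam)
    (hK : InK C Cs L x) {t : ℕ} (ht : t ≤ C.d) {s : ℕ → ℝ}
    (hs : IsPath C (kT C.d t) (epsT C.d t) s) (π : Equiv.Perm (Fin C.d))
    (hact : ∑ j, s (π j) * x j = bT C Cs t s L)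
    (h : Fin C.d → ℤ) (hh : ∀ j, |(h j : ℝ)| ≤ C.H 0) (hpos : 0 < ∑ j, (h j : ℝ) * s (π j)) :
    M ≤ ∑ j, (h j : ℝ) * Real.log (x j) := by
  have hC := hG.good
  set z : Fin C.d → ℝ := x ∘ π.symm with hz
  have hKz : InK C Cs L z := hK.comp π.symm
  have hzπ : ∀ j, z (π j) = x j := fun j => by simp [hz]
  have hzsum : ∑ i : Fin C.d, s i * z i = ∑ j, s (π j) * x j := by
    rw [← Equiv.sum_comp π (fun i : Fin C.d => s i * z i)]
    refine sum_congr rfl fun j _ => ?_
    rw [hzπ]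
  set n₀ : Fin C.d → ℝ := fun i => s i with hn₀
  have hmax : ∀ ρ : Equiv.Perm (Fin C.d), ∑ i, n₀ i * z (ρ i) ≤ ∑ i, n₀ i * z i := by
    intro ρ
    have h1 := hKz.comp ρ t ht s hs 1
    simp only [Equiv.Perm.coe_one, id_eq, Function.comp_apply] at h1
    have h2 : ∑ i, n₀ i * z i = bT C Cs t s L := by rw [← hact, ← hzsum]
    rw [h2]
    exact h1
  obtain ⟨σ, hσ1, hσ2⟩ := sorted_frame n₀ z (path_monotone_fin hC hs) hmax
  have hσ3 : ∀ i, n₀ (σ i) = n₀ i := fun i => congrFun hσ2 i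
  set x' : Fin C.d → ℝ := z ∘ σ with hx'
  have hK' : InK C Cs L x' := hKz.comp σ
  have hact' : ∑ j : Fin C.d, s j * x' j = bT C Cs t s L := by
    rw [← hact, ← hzsum, ← Equiv.sum_comp σ (fun i : Fin C.d => s i * z i)]
    refine sum_congr rfl fun i _ => ?_
    have := hσ3 i
    simp only [hn₀] at this
    rw [this]
    rfl
  set h' : Fin C.d → ℤ := fun i => h (π.symm (σ i)) with hh'
  have hpos' : 0 < ∑ j : Fin C.d, (h' j : ℝ) * s j := by
    have : ∑ j : Fin C.d, (h' j : ℝ) * s j = ∑ j, (h j : ℝ) * s (π j) := by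
      rw [← Equiv.sum_comp π.symm (fun j => (h j : ℝ) * s (π j)),
        ← Equiv.sum_comp σ (fun a => (h (π.symm a) : ℝ) * s (π (π.symm a)))]
      refine sum_congr rfl fun i _ => ?_
      have := hσ3 i
      simp only [hn₀] at this
      simp only [hh', Equiv.apply_symm_apply]
      rw [this]
    rw [this]
    exact hpos
  have hfinal := main_sorted hG hL1 hL2 hLM hσ1 hK' ht hs hact' h' (fun j => hh _) hpos'
  have : ∑ j, (h' j : ℝ) * Real.log (x' j) = ∑ j, (h j : ℝ) * Real.log (x j) := by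
    rw [← Equiv.sum_comp π.symm (fun j => (h j : ℝ) * Real.log (x j)),
      ← Equiv.sum_comp σ (fun a => (h (π.symm a) : ℝ) * Real.log (x (π.symm a)))]
    rfl
  rwa [this] at hfinal

/-- The geometry theorem for constants satisfying the relations. -/
theorem geometry_of (hG : GeoCst C Cs) (H₀ : ℝ) (hH₀ : H₀ ≤ C.H 0) :
    ∃ (ι : Type) (_ : Fintype ι) (n : ι → Fin C.d → ℝ) (b : ι → ℝ → ℝ),
      (∀ i, ContDiff ℝ 1 (b i)) ∧
      (∃ L₀ : ℝ, ∀ L : ℝ, L₀ ≤ L → ∀ x : Fin C.d → ℝ,
          (∀ i, ∑ j, n i j * x j ≤ b i L) → ∀ j, 0 < x j) ∧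
      (∃ L₀ : ℝ, ∀ L₁ : ℝ, ∃ B : ℝ, ∀ L ∈ Set.Icc L₀ L₁, ∀ x : Fin C.d → ℝ,
          (∀ i, ∑ j, n i j * x j ≤ b i L) → ∀ j, |x j| ≤ B) ∧
      (∀ x : Fin C.d → ℝ, (∀ j, 0 < x j) → ∃ L₀ : ℝ, ∀ L : ℝ, L₀ ≤ L →
          ∀ i, ∑ j, n i j * x j < b i L) ∧
      (∀ M : ℝ, ∃ L₀ : ℝ, ∀ L : ℝ, L₀ ≤ L → ∀ x : Fin C.d → ℝ,
          (∀ i, ∑ j, n i j * x j ≤ b i L) → ∀ i, ∑ j, n i j * x j = b i L →
          ∀ h : Fin C.d → ℤ, (∀ j, |(h j : ℝ)| ≤ H₀) → 0 < ∑ j, (h j : ℝ) * n i j →
          M ≤ ∑ j, (h j : ℝ) * Real.log (x j)) := by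
  have hC := hG.good
  have hCs := hG.Cs_one
  have hd := hC.d_real
  have hdpos : (0 : ℝ) < C.d := by linarith
  have hLam := hC.Lam_pos
  have hd1 := hC.d_pos
  haveI hfin : ∀ t : Fin (C.d + 1),
      Finite {s : ℕ → ℝ // IsPath C (kT C.d t) (epsT C.d t) s} := fun t =>
    (paths_finite hC (kT_pos hd1) _).to_subtype
  let ι : Type := Σ t : Fin (C.d + 1), {s : ℕ → ℝ // IsPath C (kT C.d t) (epsT C.d t) s} ×
    Equiv.Perm (Fin C.d)
  haveI : Finite ι := inferInstance
  let n : ι → Fin C.d → ℝ := fun i j => i.2.1.1 (i.2.2 j)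
  let b : ι → ℝ → ℝ := fun i L => bT C Cs i.1 i.2.1.1 L
  have hInK : ∀ (L : ℝ) (x : Fin C.d → ℝ), (∀ i, ∑ j, n i j * x j ≤ b i L) → InK C Cs L x := by
    intro L x h t ht s hs π
    exact h ⟨⟨t, by omega⟩, ⟨s, hs⟩, π⟩
  refine ⟨ι, Fintype.ofFinite ι, n, b, ?_, ?_, ?_, ?_, ?_⟩
  · -- smoothness
    intro i
    show ContDiff ℝ 1 (fun L => bT C Cs i.1 i.2.1.1 L)
    unfold bT
    refine ContDiff.add (contDiff_const.mul (Real.contDiff_exp.comp ?_))
      (ContDiff.sum fun j _ => Real.contDiff_exp.comp ?_)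
    · fun_prop
    · fun_prop
  · -- positivity
    exact ⟨0, fun L _ x h j => (hInK L x h).pos hC j⟩
  · -- boundedness
    refine ⟨0, fun L₁ => ⟨C.d * Real.exp L₁, fun L hL x h j => ?_⟩⟩
    have hK := hInK L x h
    have h1 := upper_coord hC hK hL.1 j.2
    rw [extR_coe] at h1
    rw [abs_of_pos (hK.pos hC j)]
    refine le_trans h1 (mul_le_mul_of_nonneg_left (Real.exp_le_exp.2 hL.2) hdpos.le)
  · -- exhaustion
    intro x hx
    set B : ℝ := ∑ j, C.S 0 * x j with hB
    have hev1 : ∀ᶠ L : ℝ in Filter.atTop, ∀ j, Real.exp (-L) < x j := by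
      rw [Filter.eventually_all]
      intro j
      exact (Real.tendsto_exp_neg_atTop_nhds_zero.eventually (gt_mem_nhds (hx j)))
    have hev2 : ∀ᶠ L : ℝ in Filter.atTop, B < Real.exp L :=
      Real.tendsto_exp_atTop.eventually (Filter.eventually_gt_atTop B)
    have hev3 : ∀ᶠ L : ℝ in Filter.atTop, (0 : ℝ) ≤ L := Filter.eventually_ge_atTop 0
    obtain ⟨L₀, hL₀⟩ := Filter.eventually_atTop.1 (hev1.and (hev2.and hev3))
    refine ⟨L₀, fun L hL i => ?_⟩
    obtain ⟨h1, h2, h3⟩ := hL₀ L hL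
    obtain ⟨⟨t, ht⟩, ⟨s, hs⟩, π⟩ := i
    replace hs : IsPath C (kT C.d t) (epsT C.d t) s := hs
    show ∑ j, s (π j) * x j < bT C Cs t s L
    have ht' : t ≤ C.d := by omega
    have hsumnn : 0 ≤ ∑ j ∈ range (kT C.d t - 1),
        Real.exp (kapT Cs C.d t * L * tau C (kT C.d t) j s (s j)) :=
      sum_nonneg fun j _ => (Real.exp_pos _).le
    by_cases htd : t < C.d
    · have hk := kT_of_lt htd
      have he := epsT_of_lt htd
      have hstop : s (kT C.d t - 1) = -1 := by rw [hs.top, he]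
      have hle0 : ∀ l, l < C.d → s l ≤ 0 := by
        intro l _
        by_cases hlk : l < kT C.d t
        · have := hs.mono (i := l) (l := kT C.d t - 1) (by omega) (by omega)
          rw [hstop] at this
          linarith
        · rw [hs.zero l (by omega)]
      set j₀ : Fin C.d := π.symm ⟨0, by omega⟩ with hj₀
      have hπj₀ : π j₀ = ⟨0, by omega⟩ := by simp [hj₀]
      have hs0 : s (π j₀) ≤ -1 := by
        rw [hπj₀]
        have := hs.mono (i := 0) (l := kT C.d t - 1) (Nat.zero_le _) (by omega)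
        rw [hstop] at this
        exact this
      have hsum : ∑ j, s (π j) * x j ≤ - x j₀ := by
        have hg : ∀ j ∈ (univ : Finset (Fin C.d)), 0 ≤ -(s (π j) * x j) := by
          intro j _
          have := hle0 (π j) (π j).2
          have := hx j
          nlinarith
        have h5 := single_le_sum hg (mem_univ j₀)
        rw [sum_neg_distrib] at h5
        have := hx j₀
        nlinarith
      have hκ1 : 1 ≤ kapT Cs C.d t := kapT_one hCs _ _
      have h6 : Real.exp (-1 * (kapT Cs C.d t * L)) ≤ Real.exp (-L) :=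
        Real.exp_le_exp.2 (by nlinarith)
      have h7 := h1 j₀
      unfold bT
      rw [he]
      linarith
    · have htd' : t = C.d := by omega
      subst htd'
      have hsum : ∑ j, s (π j) * x j ≤ B := by
        refine sum_le_sum fun j _ => ?_
        have h4 := hs.bound hC (kT_le le_rfl) (epsT_abs _ _) (l := π j)
          (by rw [kT_top]; exact (π j).2)
        have h5 : C.S (π j) ≤ C.S 0 := hC.S_anti (Nat.zero_le _) (π j).2.le
        have h6 := le_abs_self (s (π j))
        exact mul_le_mul_of_nonneg_right (by linarith) (hx j).le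
      unfold bT at hsumnn ⊢
      rw [epsT_top, kapT_top, one_mul, one_mul, one_mul] at *
      linarith
  · -- compatibility
    intro M
    obtain ⟨L₁, -, hL₁⟩ := exists_bigL hC
    refine ⟨max L₁ (max (Real.log (2 * C.d)) ((M + cstar C + C.d * C.H 0 * Real.log (2 * C.d)) / C.Lam)),
      fun L hL x hx i hact h hh hpos => ?_⟩
    have h1 : L₁ ≤ L := le_trans (le_max_left _ _) hL
    have h2 : Real.log (2 * C.d) ≤ L := le_trans (le_trans (le_max_left _ _) (le_max_right _ _)) hL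
    have h3 : (M + cstar C + C.d * C.H 0 * Real.log (2 * C.d)) / C.Lam ≤ L :=
      le_trans (le_trans (le_max_right _ _) (le_max_right _ _)) hL
    rw [div_le_iff₀ hLam] at h3
    obtain ⟨⟨t, ht⟩, ⟨s, hs⟩, π⟩ := i
    exact main_active hG (fun L' hL' => hL₁ L' (le_trans h1 hL')) h2 h3 (hInK L x hx)
      (by omega) hs π hact h (fun j => le_trans (hh j) hH₀) hpos

/-- **The geometry module.** -/
theorem geometry : Geometry := by
  intro d hd H₀
  have hG : GeoCst (mkCst d H₀) (cCs d H₀) :=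
    ⟨mkCst_good hd H₀, cCs_one d H₀, cCs_mul d H₀, cS_ge d H₀⟩
  exact geometry_of hG H₀ (le_max_left _ _)

end Crest.Agent.S0122Lib
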