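-- S0122, network module: dominance of the negative terms at large log-separation.
import Crest.Agent.S0122Lib.Spec

set_option autoImplicit false

open Crest.AnalysisR.MassAction

namespace Crest.Agent.S0122Lib

namespace NetworkAux

variable {d : ℕ}

/-- Along a directed path from `y` to a complex of strictly smaller height there is a first
strictly descending edge, whose source has height at least that of `y`. -/
lemma exists_drop (R : Network d) (β : (Fin d → ℕ) → ℝ) {y a : Fin d → ℕ}
    (h : Relation.ReflTransGen (fun a b => (a, b) ∈ R) y a) (hlt : β a < β y) :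
    ∃ e ∈ R, β e.2 < β e.1 ∧ β y ≤ β e.1 := by
  induction h using Relation.ReflTransGen.head_induction_on with
  | refl => exact absurd hlt (lt_irrefl _)
  | @head y y' hstep _ ih =>
    by_cases hy : β y' < β y
    · exact ⟨(y, y'), hstep, hy, le_rfl⟩
    · have hy' : β y ≤ β y' := not_lt.mp hy
      obtain ⟨e, he, h1, h2⟩ := ih (lt_of_lt_of_le hlt hy')
      exact ⟨e, he, h1, hy'.trans h2⟩

lemma mem_cplx_fst {R : Network d} {r : (Fin d → ℕ) × (Fin d → ℕ)} (hr : r ∈ R) :
    r.1 ∈ cplx R := by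
  classical
  unfold cplx
  exact Finset.mem_union_left _ (Finset.mem_image_of_mem _ hr)

/-- The monomial of a complex. -/
noncomputable def mon (x : Fin d → ℝ) (y : Fin d → ℕ) : ℝ := ∏ i, x i ^ y i

lemma mon_pos {x : Fin d → ℝ} (hx : ∀ i, 0 < x i) (y : Fin d → ℕ) : 0 < mon x y :=
  Finset.prod_pos fun i _ => pow_pos (hx i) _

lemma mon_eq_exp {x : Fin d → ℝ} (hx : ∀ i, 0 < x i) (y : Fin d → ℕ) :
    mon x y = Real.exp (∑ i, (y i : ℝ) * Real.log (x i)) := by
  unfold mon
  rw [Real.exp_sum]
  refine Finset.prod_congr rfl fun i _ => ?_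
  rw [← Real.rpow_natCast, Real.rpow_def_of_pos (hx i)]
  ring_nf

lemma mon_ge {x : Fin d → ℝ} (hx : ∀ i, 0 < x i) (a b : Fin d → ℕ) (M : ℝ)
    (h : M ≤ ∑ i, ((a i : ℝ) - (b i : ℝ)) * Real.log (x i)) :
    Real.exp M * mon x b ≤ mon x a := by
  rw [mon_eq_exp hx a, mon_eq_exp hx b, ← Real.exp_add]
  apply Real.exp_le_exp.mpr
  have : ∑ i, (a i : ℝ) * Real.log (x i) =
      ∑ i, ((a i : ℝ) - (b i : ℝ)) * Real.log (x i) + ∑ i, (b i : ℝ) * Real.log (x i) := by
    rw [← Finset.sum_add_distrib]
    exact Finset.sum_congr rfl fun i _ => by ring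
  rw [this]
  linarith

/-- The height pairing with the vector field. -/
lemma inner_field (R : Network d) (k : (Fin d → ℕ) × (Fin d → ℕ) → ℝ) (n x : Fin d → ℝ) :
    ∑ i, n i * field R k x i =
      ∑ r ∈ R, k r * mon x r.1 *
        (∑ i, n i * (r.2 i : ℝ) - ∑ i, n i * (r.1 i : ℝ)) := by
  unfold field mon
  simp only [Finset.sum_apply, Pi.smul_apply, smul_eq_mul, reactionVector, Finset.mul_sum]
  rw [Finset.sum_comm]
  refine Finset.sum_congr rfl fun r _ => ?_
  rw [← Finset.sum_sub_distrib, Finset.mul_sum]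
  exact Finset.sum_congr rfl fun i _ => by ring

end NetworkAux

open NetworkAux

theorem networkDominance : NetworkDominance := by
  intro d R hR k hk n
  classical
  set β : (Fin d → ℕ) → ℝ := fun y => ∑ i, n i * (y i : ℝ) with hβ
  set gap : (Fin d → ℕ) × (Fin d → ℕ) → ℝ := fun r => β r.2 - β r.1 with hgap
  obtain ⟨C, hC⟩ := ((R ×ˢ R).image (fun p : ((Fin d → ℕ) × (Fin d → ℕ)) × ((Fin d → ℕ) × (Fin d → ℕ)) =>
      (2 * (R.card : ℝ)) * (k p.1 * gap p.1) / (k p.2 * (β p.2.1 - β p.2.2)))).exists_le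
  have hC' : ∀ r ∈ R, ∀ e ∈ R, β e.2 < β e.1 →
      (2 * (R.card : ℝ)) * (k r * gap r) ≤ C * (k e * (β e.1 - β e.2)) := by
    intro r hr e he hlt
    have hpos : 0 < k e * (β e.1 - β e.2) := mul_pos (hk e he) (by linarith)
    have := hC _ (Finset.mem_image_of_mem _ (Finset.mk_mem_product hr he))
    exact (div_le_iff₀ hpos).mp this
  refine ⟨Real.log (max C 1), ?_⟩
  intro x hx hsep hne
  have hexp : C ≤ Real.exp (Real.log (max C 1)) := by
    rw [Real.exp_log (lt_of_lt_of_le one_pos (le_max_right C 1))]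
    exact le_max_left _ _
  set M := Real.log (max C 1) with hM
  set T : (Fin d → ℕ) × (Fin d → ℕ) → ℝ := fun r => k r * mon x r.1 * gap r with hT
  rw [inner_field]
  change ∑ r ∈ R, T r < 0
  -- the negative part
  set S : ℝ := ∑ r ∈ R, max (-T r) 0 with hS
  have hS0 : 0 ≤ S := Finset.sum_nonneg fun r _ => le_max_right _ _
  have hle_S : ∀ e ∈ R, max (-T e) 0 ≤ S := fun e he =>
    Finset.single_le_sum (f := fun r => max (-T r) 0) (fun r _ => le_max_right _ _) he
  -- every positive term forces a descending edge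
  have hdrop : ∀ r ∈ R, 0 < gap r → ∃ e ∈ R, β e.2 < β e.1 ∧ β r.1 < β e.1 := by
    intro r hr hg
    have hlt : β r.1 < β r.2 := by simpa [hgap] using hg
    obtain ⟨e, he, h1, h2⟩ := exists_drop R β (hR r hr) hlt
    exact ⟨e, he, h1, lt_of_lt_of_le hlt h2⟩
  have hTneg : ∀ e ∈ R, β e.2 < β e.1 → 0 < -T e := by
    intro e he hlt
    have h1 : 0 < k e * mon x e.1 := mul_pos (hk e he) (mon_pos hx _)
    have h2 : gap e < 0 := by simp only [hgap]; linarith
    have : T e = k e * mon x e.1 * gap e := rfl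
    rw [this]
    nlinarith
  -- pointwise bound on the positive part
  have hpos_part : ∀ r ∈ R, (2 * (R.card : ℝ)) * max (T r) 0 ≤ S := by
    intro r hr
    by_cases hg : 0 < gap r
    · obtain ⟨e, he, h1, h2⟩ := hdrop r hr hg
      have hTr : 0 < T r := mul_pos (mul_pos (hk r hr) (mon_pos hx _)) hg
      rw [max_eq_left hTr.le]
      have hmon : Real.exp M * mon x r.1 ≤ mon x e.1 :=
        mon_ge hx _ _ M (hsep _ (mem_cplx_fst he) _ (mem_cplx_fst hr) h2)
      have hke : 0 < k e * (β e.1 - β e.2) := mul_pos (hk e he) (by linarith)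
      have h3 := hC' r hr e he h1
      have hm := mon_pos hx r.1
      calc (2 * (R.card : ℝ)) * T r
          = ((2 * (R.card : ℝ)) * (k r * gap r)) * mon x r.1 := by simp only [hT]; ring
        _ ≤ (C * (k e * (β e.1 - β e.2))) * mon x r.1 := by gcongr
        _ ≤ (Real.exp M * (k e * (β e.1 - β e.2))) * mon x r.1 := by gcongr
        _ = (k e * (β e.1 - β e.2)) * (Real.exp M * mon x r.1) := by ring
        _ ≤ (k e * (β e.1 - β e.2)) * mon x e.1 := by gcongr
        _ = -T e := by simp only [hT, hgap]; ring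
        _ ≤ max (-T e) 0 := le_max_left _ _
        _ ≤ S := hle_S e he
    · have hTr : T r ≤ 0 := by
        have : 0 < k r * mon x r.1 := mul_pos (hk r hr) (mon_pos hx _)
        have hg' : gap r ≤ 0 := not_lt.mp hg
        simp only [hT]
        nlinarith
      rw [max_eq_right hTr]
      simpa using hS0
  -- S is positive
  have hSpos : 0 < S := by
    obtain ⟨r, hr, hrne⟩ := hne
    have hne' : gap r ≠ 0 := by
      intro h0
      apply hrne
      have : ∑ i, n i * reactionVector r i = gap r := by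
        simp only [hgap, hβ, reactionVector]
        rw [← Finset.sum_sub_distrib]
        exact Finset.sum_congr rfl fun i _ => by ring
      rw [this, h0]
    obtain ⟨e, he, h1⟩ : ∃ e ∈ R, β e.2 < β e.1 := by
      rcases lt_or_gt_of_ne hne' with h | h
      · refine ⟨r, hr, ?_⟩
        simp only [hgap] at h
        linarith
      · obtain ⟨e, he, h1, _⟩ := hdrop r hr h
        exact ⟨e, he, h1⟩
    exact lt_of_lt_of_le (lt_of_lt_of_le (hTneg e he h1) (le_max_left _ _)) (hle_S e he)
  have hRne : R.Nonempty := by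
    obtain ⟨r, hr, _⟩ := hne
    exact ⟨r, hr⟩
  have hcard : (0 : ℝ) < R.card := by exact_mod_cast hRne.card_pos
  -- sum up
  have hsum : ∑ r ∈ R, T r = ∑ r ∈ R, max (T r) 0 - S := by
    rw [hS, ← Finset.sum_sub_distrib]
    refine Finset.sum_congr rfl fun r _ => ?_
    rcases le_total (T r) 0 with h | h
    · rw [max_eq_right h, max_eq_left (by linarith)]; ring
    · rw [max_eq_left h, max_eq_right (by linarith)]; ring
  have hplus : 2 * (R.card : ℝ) * ∑ r ∈ R, max (T r) 0 ≤ R.card * S := by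
    rw [Finset.mul_sum]
    calc ∑ r ∈ R, 2 * (R.card : ℝ) * max (T r) 0 ≤ ∑ _r ∈ R, S :=
          Finset.sum_le_sum hpos_part
      _ = R.card * S := by simp
  have hplus' : ∑ r ∈ R, max (T r) 0 ≤ S / 2 := by
    have h2 : (R.card : ℝ) * (2 * ∑ r ∈ R, max (T r) 0) ≤ R.card * S := by
      calc (R.card : ℝ) * (2 * ∑ r ∈ R, max (T r) 0)
          = 2 * (R.card : ℝ) * ∑ r ∈ R, max (T r) 0 := by ring
        _ ≤ _ := hplus
    have := le_of_mul_le_mul_left h2 hcard
    linarith
  rw [hsum]
  linarith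

end Crest.Agent.S0122Lib
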